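import Crest.Agent.KS.Defs
/-! Fine partitions of the corner projection. -/
set_option autoImplicit false
namespace Crest.Agent.KS
open scoped InnerProductSpace ComplexConjugate
open Filter Topology Crest.Agent.GP

universe u

namespace Part
variable {A : Type*} [CStarAlgebra A] {ι : Type} [Fintype ι] [DecidableEq ι]

noncomputable def Cen (E : MU A ι) : StarSubalgebra ℂ A :=
  StarSubalgebra.centralizer ℂ (Set.range fun p : ι × ι => E.e p.1 p.2)

theorem mem_Cen (E : MU A ι) {y : A} : y ∈ Cen E ↔ ∀ i j, E.e i j * y = y * E.e i j := by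
  rw [Cen, StarSubalgebra.mem_centralizer_iff]
  refine ⟨fun h i j => (h _ ⟨(i, j), rfl⟩).1, ?_⟩
  rintro h _ ⟨p, rfl⟩
  exact ⟨h _ _, by rw [E.star_e]; exact h _ _⟩

theorem dec (E : MU A ι) (a : A) : ∃ c : ι → ι → A, (∀ i j, c i j ∈ Cen E) ∧
    a = ∑ i, ∑ j, E.e i j * c i j := by
  have l : ∀ i j l m, E.e l m * ∑ k, E.e k i * a * E.e j k = E.e l i * a * E.e j m :=
    fun i j l m => by
      rw [Finset.mul_sum, Finset.sum_eq_single m]
      · rw [← mul_assoc, ← mul_assoc, E.mul_e, if_pos rfl]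
      · intro k _ hk
        rw [← mul_assoc, ← mul_assoc, E.mul_e, if_neg hk.symm, zero_mul, zero_mul]
      · simp
  have r : ∀ i j l m, (∑ k, E.e k i * a * E.e j k) * E.e l m = E.e l i * a * E.e j m :=
    fun i j l m => by
      rw [Finset.sum_mul, Finset.sum_eq_single l]
      · rw [mul_assoc, E.mul_e, if_pos rfl]
      · intro k _ hk
        rw [mul_assoc, E.mul_e, if_neg hk, mul_zero]
      · simp
  refine ⟨fun i j => ∑ k, E.e k i * a * E.e j k, fun i j => (mem_Cen E).mpr fun l' m => by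
    rw [l, r], ?_⟩
  simp only [l]
  simp only [← Finset.mul_sum, E.sum_e, mul_one]
  rw [← Finset.sum_mul, E.sum_e, one_mul]

theorem gd {T : Tr A} (G : T.Gd ⊤ ⊤) (E : MU A ι) : T.Gd (Cen E) (Cen E) := by
  classical
  refine ⟨G.hT, Tr.cl_centralizer G.hT _, Tr.cl_centralizer G.hT _, le_rfl, fun y hy hc => ?_,
    fun s hs => ?_⟩
  · refine G.irr y trivial fun z _ => ?_
    obtain ⟨c, h1, rfl⟩ := dec E z
    simp only [Finset.sum_mul, Finset.mul_sum]
    refine Finset.sum_congr rfl fun i _ => Finset.sum_congr rfl fun j _ => ?_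
    rw [mul_assoc, hc _ (h1 i j), ← mul_assoc, (mem_Cen E).mp hy, mul_assoc]
  · refine G.inf (((Finset.univ : Finset (ι × ι)) ×ˢ s).image fun p => E.e p.1.1 p.1.2 * p.2)
      fun z _ => ?_
    obtain ⟨c, h1, rfl⟩ := dec E z
    refine Submodule.sum_mem _ fun i _ => Submodule.sum_mem _ fun j _ => ?_
    refine Submodule.span_induction (fun x hx => Submodule.subset_span ?_) (by simp)
      (fun x y _ _ hx hy => by rw [mul_add]; exact add_mem hx hy)
      (fun c x _ hx => by rw [mul_smul_comm]; exact Submodule.smul_mem _ _ hx) (hs _ (h1 i j))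
    rw [Finset.coe_image]
    exact ⟨((i, j), x), Finset.mem_coe.mpr (Finset.mem_product.mpr ⟨Finset.mem_univ _, hx⟩), rfl⟩

theorem halve {T : Tr A} {P : StarSubalgebra ℂ A} (G : T.Gd P P) {e : A} (he : Proj e)
    (hc : ∀ y ∈ P, y * e = e * y) (k : ℕ) :
    ∃ (J : Type) (_ : Fintype J) (p : J → A) (Q : StarSubalgebra ℂ A), T.Gd Q Q ∧
      (∀ j, Proj (p j)) ∧ (∀ j, p j * e = p j) ∧ (∀ i j, i ≠ j → p i * p j = 0) ∧ ∑ j, p j = e ∧
      (∀ j, ∀ y ∈ Q, y * p j = p j * y) ∧ ∀ j, (T.τ (p j)).re ≤ (1 / 2) ^ k := by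
  induction k with
  | zero =>
    exact ⟨Unit, inferInstance, fun _ => e, P, G, fun _ => he, fun _ => he.2,
      fun i j h => absurd rfl h, by simp, fun _ => hc, fun _ => by
        simpa using (Complex.re_le_norm _).trans ((T.τ_le _).trans he.norm)⟩
  | succ k ih =>
    obtain ⟨J, _, p, Q, GQ, h1, h2, h3, h4, h5, h6⟩ := ih
    obtain ⟨X, hX, Z, hZ, hq⟩ := GQ.qb
    let s : Bool → A := fun b => (1 / 2 : ℂ) • (1 + (if b then Z else -Z))
    have hs : ∀ b, s b ∈ Q := fun b => SMulMemClass.smul_mem _ (add_mem (one_mem _) (by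
      cases b
      · exact neg_mem hZ
      · exact hZ))
    have hss : ∀ b, star (s b) = s b := fun b => by cases b <;> simp [s, hq.hZ.1]
    have hsm : ∀ b b', s b * s b' = if b = b' then s b else 0 := fun b b' => by
      cases b <;> cases b' <;>
        simp only [s, smul_mul_assoc, mul_smul_comm, mul_add, add_mul, one_mul, mul_one, mul_neg,
          neg_mul, neg_neg, hq.hZ.2, if_true, if_false, Bool.false_eq_true, Bool.true_eq_false] <;>
        module
    have hm : ∀ i j b b', p i * s b * (p j * s b') = p i * p j * (s b * s b') := fun i j b b' => by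
      rw [mul_assoc, ← mul_assoc (s b), h5 j _ (hs b)]; simp only [mul_assoc]
    refine ⟨J × Bool, inferInstance, fun x => p x.1 * s x.2, Cm Q X Z, GQ.cm hX hZ hq,
      fun x => ⟨by rw [star_mul, hss, (h1 _).1, h5 _ _ (hs _)], by
        rw [hm, (h1 _).2, hsm, if_pos rfl]⟩,
      fun x => by simp only []; rw [← h5 _ _ (hs _), mul_assoc, h2], fun x y hxy => ?_, ?_, fun x y hy => ?_,
      fun x => ?_⟩
    · rw [hm, hsm]
      split_ifs with h
      · rw [h3 _ _ fun h' => hxy (Prod.ext h' h), zero_mul]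
      · rw [mul_zero]
    · rw [Fintype.sum_prod_type, ← h4]
      refine Finset.sum_congr rfl fun j _ => ?_
      have : s true + s false = 1 := by
        simp only [s, if_true, if_false, Bool.false_eq_true]; module
      rw [Fintype.sum_bool, ← mul_add, this, mul_one]
    · obtain ⟨y1, -, y3⟩ := hq.mem_Cm.mp hy
      have : y * s x.2 = s x.2 * y := by
        cases x.2 <;> simp [s, mul_add, add_mul, y3]
      rw [← mul_assoc, h5 _ _ y1, mul_assoc, this, mul_assoc]
    · have h0 : T.τ (p x.1 * Z) = 0 := Tr.τ_anti hq.hX (by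
        rw [← mul_assoc, h5 _ _ hX, mul_assoc, hq.anti, mul_neg, mul_assoc])
      have : T.τ (p x.1 * s x.2) = (1 / 2 : ℂ) * T.τ (p x.1) := by
        cases x.2 <;> simp [s, mul_add, h0]
      rw [this, pow_succ]
      have := h6 x.1
      simp only [one_div, Complex.mul_re, Complex.inv_re, Complex.inv_im] at *
      norm_num at *
      linarith

end Part
open Part

theorem part : PartStmt.{u} := by
  intro A _ T G ι _ _ E o κ hκ
  obtain ⟨k, hk⟩ := exists_pow_lt_of_lt_one hκ (show (1 / 2 : ℝ) < 1 by norm_num)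
  obtain ⟨J, _, p, Q, -, h1, h2, h3, h4, -, h6⟩ := halve (gd G E) (e := E.e o o)
    ⟨E.star_e o o, by rw [E.mul_e, if_pos rfl]⟩ (fun y hy => ((mem_Cen E).mp hy o o).symm) k
  let σ := (Fintype.equivFin J).symm
  exact ⟨Fintype.card J, fun j => p (σ j), fun j => h1 _, fun j => h2 _,
    fun i j h => h3 _ _ (σ.injective.ne h), by rw [σ.sum_comp, h4], fun j => (h6 _).trans hk.le⟩

end Crest.Agent.KS
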