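import Crest.Agent.KS.Defs
/-! Reduction to factors. -/
set_option autoImplicit false
namespace Crest.Agent.KS
open scoped InnerProductSpace ComplexConjugate
open Filter Topology Crest.Agent.GP

universe u

namespace Cut
section gen
variable {A : Type*} [CStarAlgebra A]

theorem exists_cut (T : Tr A) {z : A} (hz : Proj z) (hc : ∀ y, z * y = y * z)
    (ht : 0 < (T.τ z).re) : ∃ T' : Tr A, ∀ a, T'.n a = (√(T.τ z).re)⁻¹ * T.n (z * a) := by
  have e : ∀ a, z * (star a * a) = star (z * a) * (z * a) := fun a => by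
    rw [star_mul, hz.1, mul_assoc (star a), ← mul_assoc z z, hz.2, ← mul_assoc, ← mul_assoc, hc]
  have hsa : (((T.τ z).re : ℝ) : ℂ) = T.τ z := T.τ_sa hz.1
  let T' : Tr A :=
    { τ := ((((T.τ z).re⁻¹ : ℝ)) : ℂ) • (T.τ ∘ₗ LinearMap.mulLeft ℂ z)
      one := by
        simp only [LinearMap.smul_apply, LinearMap.comp_apply, LinearMap.mulLeft_apply, mul_one,
          smul_eq_mul]
        conv_lhs => rw [← hsa]
        rw [Complex.ofReal_re, ← Complex.ofReal_mul, inv_mul_cancel₀ ht.ne', Complex.ofReal_one]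
      comm := fun a b => by
        simp only [LinearMap.smul_apply, LinearMap.comp_apply, LinearMap.mulLeft_apply]
        rw [← mul_assoc, T.comm, ← mul_assoc, ← hc, mul_assoc]
      map_star := fun a => by
        simp only [LinearMap.smul_apply, LinearMap.comp_apply, LinearMap.mulLeft_apply, smul_eq_mul,
          map_mul, Complex.conj_ofReal]
        rw [← T.map_star, star_mul, hz.1, hc]
      pos := fun a => by
        simp only [LinearMap.smul_apply, LinearMap.comp_apply, LinearMap.mulLeft_apply, smul_eq_mul,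
          Complex.re_ofReal_mul]
        rw [e]
        exact mul_nonneg (inv_nonneg.mpr ht.le) (T.pos _) }
  refine ⟨T', fun a => ?_⟩
  rw [← sq_eq_sq₀ (T'.n_nonneg _) (mul_nonneg (by positivity) (T.n_nonneg _)), mul_pow, T'.n_sq,
    T.n_sq, inv_pow, Real.sq_sqrt ht.le, ← e]
  simp only [T', LinearMap.smul_apply, LinearMap.comp_apply, LinearMap.mulLeft_apply, smul_eq_mul,
    Complex.re_ofReal_mul]

theorem exists_lim {I : Type*} (𝔘 : Ultrafilter I) (T : I → Tr A) :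
    ∃ T' : Tr A, ∀ a, Tendsto (fun i => (T i).n a) 𝔘 (𝓝 (T'.n a)) := by
  have : ∀ a : A, ∃ l, Tendsto (fun i => (T i).τ a) 𝔘 (𝓝 l) := fun a => by
    obtain ⟨l, -, hl⟩ := (isCompact_closedBall (0 : ℂ) ‖a‖).ultrafilter_le_nhds
      (𝔘.map fun i => (T i).τ a) (by
        rw [le_principal_iff, Ultrafilter.coe_map, mem_map]
        exact univ_mem' fun i => by simpa using (T i).τ_le a)
    exact ⟨l, hl⟩
  choose l hl using this
  let T' : Tr A := ⟨⟨⟨l, fun f g => tendsto_nhds_unique (hl _) (by simpa using (hl f).add (hl g))⟩,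
    fun c f => tendsto_nhds_unique (hl _) (by simpa using (hl f).const_mul c)⟩,
    tendsto_nhds_unique (hl _) (by simp [Tr.one]),
    fun f g => tendsto_nhds_unique (hl _) (by simpa [Tr.comm _ f] using hl (g * f)),
    fun f => tendsto_nhds_unique (hl _) (by
      simpa [Tr.map_star, Function.comp_def] using (Complex.continuous_conj.tendsto _).comp (hl f)),
    fun f => ge_of_tendsto' ((Complex.continuous_re.tendsto _).comp (hl _)) fun i => (T i).pos _⟩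
  refine ⟨T', fun a => ?_⟩
  have h := (((Complex.continuous_re.tendsto _).comp (hl (star a * a)))).sqrt
  have e : ∀ S : Tr A, S.n a = √(S.τ (star a * a)).re := fun S => by
    rw [← S.n_sq, Real.sqrt_sq (S.n_nonneg _)]
  simp only [e]
  exact h

/-- the partition generated by finitely many central projections -/
theorem exists_part (F : Finset {w : A // Proj w ∧ ∀ y, w * y = y * w}) :
    ∃ (J : Type) (_ : Fintype J) (z : J → A), (∀ j, Proj (z j)) ∧ (∀ j y, z j * y = y * z j) ∧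
      ∑ j, z j = 1 ∧ ∀ w ∈ F, ∀ j, z j * w.1 = z j ∨ z j * w.1 = 0 := by
  classical
  induction F using Finset.induction_on with
  | empty => exact ⟨Unit, inferInstance, fun _ => 1, fun _ => ⟨star_one _, one_mul _⟩, by simp,
      by simp, by simp⟩
  | insert v F _ ih =>
    obtain ⟨J, _, z, h1, h2, h3, h4⟩ := ih
    obtain ⟨v, hv, hvc⟩ := v
    have pm : ∀ (j : J) (w : A), Proj w → Proj (z j * w) := fun j w hw =>
      ⟨by rw [star_mul, (h1 j).1, hw.1, h2], by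
        rw [mul_assoc, ← mul_assoc w, ← h2, mul_assoc, hw.2, ← mul_assoc, (h1 j).2]⟩
    have cm : ∀ (j : J) (w : A), (∀ y, w * y = y * w) → ∀ y, z j * w * y = y * (z j * w) :=
      fun j w hw y => by rw [mul_assoc, hw, ← mul_assoc, h2 j y, mul_assoc]
    have hvc' : ∀ y, (1 - v) * y = y * (1 - v) := fun y => by
      rw [sub_mul, mul_sub, hvc, one_mul, mul_one]
    have old : ∀ (j : J) (s w : A), (∀ y, s * y = y * s) → z j * w = z j ∨ z j * w = 0 →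
        z j * s * w = z j * s ∨ z j * s * w = 0 := fun j s w hs h => by
      rw [mul_assoc, hs, ← mul_assoc]
      rcases h with h | h <;> rw [h]
      · exact Or.inl rfl
      · exact Or.inr (zero_mul _)
    refine ⟨J ⊕ J, inferInstance, Sum.elim (fun j => z j * v) (fun j => z j * (1 - v)), ?_, ?_, ?_,
      ?_⟩
    · rintro (j | j)
      · exact pm j v hv
      · exact pm j _ hv.compl
    · rintro (j | j)
      · exact cm j v hvc
      · exact cm j _ hvc'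
    · rw [Fintype.sum_sum_type]
      simp only [Sum.elim_inl, Sum.elim_inr]
      rw [← Finset.sum_mul, ← Finset.sum_mul, h3]; simp
    · intro w hw j
      rcases Finset.mem_insert.mp hw with rfl | hw
      · rcases j with j | j
        · exact Or.inl (by simp only [Sum.elim_inl]; rw [mul_assoc, hv.2])
        · exact Or.inr (by simp only [Sum.elim_inr]; rw [mul_assoc, sub_mul, hv.2]; simp)
      · rcases j with j | j
        · exact old j v _ hvc (h4 w hw j)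
        · exact old j _ _ hvc' (h4 w hw j)

variable {H : Type*} [NormedAddCommGroup H] [InnerProductSpace ℂ H] [CompleteSpace H]

theorem inner_rho (ρ : A →⋆ₐ[ℂ] (H →L[ℂ] H)) (a : A) (ξ η : H) :
    ⟪ρ a ξ, η⟫_ℂ = ⟪ξ, ρ (star a) η⟫_ℂ := by
  rw [map_star, ContinuousLinearMap.star_eq_adjoint, ContinuousLinearMap.adjoint_inner_right]

theorem split {ι : Type} [Fintype ι] [DecidableEq ι] (E : MU A ι) (o : ι)
    (ρ : A →⋆ₐ[ℂ] (H →L[ℂ] H)) (Y : H →L[ℂ] H)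
    (hY : ∀ i j, Y * ρ (E.e i j) = ρ (E.e i j) * Y) (η : H) :
    ∑ i, ⟪ρ (E.e o i) η, Y (ρ (E.e o i) η)⟫_ℂ = ⟪η, Y η⟫_ℂ := by
  have : ∀ i, ⟪ρ (E.e o i) η, Y (ρ (E.e o i) η)⟫_ℂ = ⟪η, ρ (E.e i i) (Y η)⟫_ℂ := fun i => by
    rw [inner_rho, E.star_e, ← ContinuousLinearMap.mul_apply Y, hY, ContinuousLinearMap.mul_apply,
      ← ContinuousLinearMap.mul_apply (ρ _) (ρ _), ← map_mul, E.mul_e, if_pos rfl]
  simp only [this]
  rw [← inner_sum, ← ContinuousLinearMap.sum_apply, ← map_sum, E.sum_e, map_one]; rfl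

theorem split_norm {ι : Type} [Fintype ι] [DecidableEq ι] (E : MU A ι) (o : ι)
    (ρ : A →⋆ₐ[ℂ] (H →L[ℂ] H)) (η : H) : ∑ i, ‖ρ (E.e o i) η‖ ^ 2 = ‖η‖ ^ 2 := by
  have := split E o ρ 1 (by simp) η
  simp only [ContinuousLinearMap.one_apply, inner_self_eq_norm_sq_to_K] at this
  exact_mod_cast this

theorem part_norm (ρ : A →⋆ₐ[ℂ] (H →L[ℂ] H)) {J : Type} [Fintype J] (z : J → A)
    (h1 : ∀ j, Proj (z j)) (h3 : ∑ j, z j = 1) (η : H) : ∑ j, ‖ρ (z j) η‖ ^ 2 = ‖η‖ ^ 2 := by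
  have : ∀ j, ⟪ρ (z j) η, ρ (z j) η⟫_ℂ = ⟪η, ρ (z j) η⟫_ℂ := fun j => by
    rw [inner_rho, ← ContinuousLinearMap.mul_apply, ← map_mul, (h1 j).1, (h1 j).2]
  have h : ∑ j, ⟪ρ (z j) η, ρ (z j) η⟫_ℂ = ⟪η, η⟫_ℂ := by
    simp only [this]
    rw [← inner_sum, ← ContinuousLinearMap.sum_apply, ← map_sum, h3, map_one]; rfl
  simp only [inner_self_eq_norm_sq_to_K] at h
  exact_mod_cast h

theorem norm_lim {I : Type*} {l : Filter I} {H' : Type*} [NormedAddCommGroup H']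
    [InnerProductSpace ℂ H'] {x : I → H} {y : H'}
    (h : Tendsto (fun i => ⟪x i, x i⟫_ℂ) l (𝓝 ⟪y, y⟫_ℂ)) : Tendsto (fun i => ‖x i‖) l (𝓝 ‖y‖) := by
  simp only [@norm_eq_sqrt_re_inner ℂ]
  exact ((Complex.continuous_re.tendsto _).comp h).sqrt

end gen

theorem part_col (col : ColStmt.{u}) {A : Type u} [CStarAlgebra A] {ι : Type} [Fintype ι]
    [DecidableEq ι] (E : MU A ι) (o : ι)
    {H : Type u} [NormedAddCommGroup H] [InnerProductSpace ℂ H] [CompleteSpace H]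
    (ρ : A →⋆ₐ[ℂ] (H →L[ℂ] H)) (Y : H →L[ℂ] H) (g : ℝ) (hc : Ctx E o ρ Y g)
    {J : Type} [Fintype J] (z : J → A) (h1 : ∀ j, Proj (z j)) (h2 : ∀ j y, z j * y = y * z j)
    (h3 : ∑ j, z j = 1) (η : H) :
    ‖∑ j, ⟪ρ (z j) η, Y (ρ (z j) η)⟫_ℂ - ⟪η, Y η⟫_ℂ‖ ≤ 5 * g * ‖η‖ ^ 2 := by
  have ee : ∀ i, E.e o o * E.e o i = E.e o i := fun i => by rw [E.mul_e, if_pos rfl]
  have hs : ∑ j, star (z j * E.e o o) * (z j * E.e o o) = E.e o o := by
    have : ∀ j, star (z j * E.e o o) * (z j * E.e o o) = z j * E.e o o := fun j => by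
      rw [star_mul, (h1 j).1, E.star_e, mul_assoc, ← mul_assoc (z j), (h1 j).2, ← mul_assoc, ← h2,
        mul_assoc, ee]
    simp only [this]
    rw [← Finset.sum_mul, h3, one_mul]
  have key : ∀ i, ‖∑ j, ⟪ρ (E.e o i) (ρ (z j) η), Y (ρ (E.e o i) (ρ (z j) η))⟫_ℂ -
      ⟪ρ (E.e o i) η, Y (ρ (E.e o i) η)⟫_ℂ‖ ≤ 5 * g * ‖ρ (E.e o i) η‖ ^ 2 := fun i => by
    have h := col E o ρ Y g hc (fun j => z j * E.e o o) (fun j => by rw [mul_assoc, ee])
      (ρ (E.e o i) η) 0 (by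
        rw [hs, ← ContinuousLinearMap.mul_apply, ← map_mul, ee, sub_self, norm_zero])
    have e : ∀ j, ρ (z j * E.e o o) (ρ (E.e o i) η) = ρ (E.e o i) (ρ (z j) η) := fun j => by
      rw [← ContinuousLinearMap.mul_apply, ← ContinuousLinearMap.mul_apply, ← map_mul, ← map_mul,
        mul_assoc, ee, h2]
    simp only [e] at h
    simpa using h
  rw [← split_norm E o ρ η, Finset.mul_sum, ← split E o ρ Y hc.comm η,
    ← Finset.sum_congr rfl fun j _ => split E o ρ Y hc.comm (ρ (z j) η), Finset.sum_comm,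
    ← Finset.sum_sub_distrib]
  exact (norm_sum_le _ _).trans (Finset.sum_le_sum fun i _ => key i)

/-- the completion of the limit trace is a factor -/
theorem irr (d1 : Dix1Stmt.{u}) (d2 : Dix2Stmt.{u}) {A M : Type u} [CStarAlgebra A]
    [CStarAlgebra M] (T : Tr A) (hT : T.W) (T' : Tr A) (T'' : Tr M) (hT'' : T''.W)
    (π : A →⋆ₐ[ℂ] M) (hπ : ∀ a, T''.τ (π a) = T'.τ a)
    (dense : ∀ y, ∀ ε > 0, ∃ a, T''.n (π a - y) < ε)
    (h1 : ∀ w, Proj w → (∀ y, w * y = y * w) → T'.n w = 0 ∨ T'.n (1 - w) = 0)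
    (h2 : ∀ b (ε : ℝ), (∀ w, Proj w → (∀ y, w * y = y * w) → T.n (w * b) ^ 2 ≤ ε * (T.τ w).re) →
      T'.n b ^ 2 ≤ ε) : Tr.Irr (A := M) ⊤ ⊤ := by
  intro y _ hy
  refine ⟨T''.τ y, sub_eq_zero.mp ?_⟩
  set y0 := y - T''.τ y • (1 : M) with hy0
  have hc : ∀ t, y0 * t = t * y0 := fun t => by
    simp only [hy0, sub_mul, mul_sub, hy t trivial, smul_mul_assoc, mul_smul_comm, one_mul, mul_one]
  have h0 : T''.τ y0 = 0 := by simp [hy0, T''.one]
  have hn : ∀ a, T''.n (π a) = T'.n a := fun a => by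
    rw [← sq_eq_sq₀ (T''.n_nonneg _) (T'.n_nonneg _), T''.n_sq, T'.n_sq, ← map_star, ← map_mul, hπ]
  let ψ : A →ₗ[ℂ] ℂ := T''.τ ∘ₗ LinearMap.mulLeft ℂ y0 ∘ₗ (π : A →ₐ[ℂ] M).toLinearMap
  have ψa : ∀ a, ψ a = T''.τ (y0 * π a) := fun a => rfl
  have ψb : ∀ a, ‖ψ a‖ ≤ T''.n y0 * T'.n a := fun a => by rw [ψa, ← hn]; exact T''.cs _ _
  have ψc : Continuous ψ := (ψ.mkContinuous (T''.n y0) fun a => (ψb a).trans
    (mul_le_mul_of_nonneg_left (T'.n_le a) (T''.n_nonneg _))).continuous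
  have ψ0 : ∀ a, T'.n a = 0 → ψ a = 0 := fun a h => by
    have := ψb a
    rw [h, mul_zero] at this
    exact norm_le_zero_iff.mp this
  have cen : ∀ z, (∀ y, z * y = y * z) → ψ z = 0 := by
    refine d2 T hT (LinearMap.ker ψ) (isClosed_singleton.preimage ψc) fun w hw hwc => ?_
    rcases h1 w hw hwc with h | h
    · exact ψ0 w h
    · have := ψ0 _ h
      rw [map_sub, ψa 1, map_one, mul_one, h0, zero_sub, neg_eq_zero] at this
      exact this
  have all : ∀ a, ψ a = 0 := fun a => by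
    refine norm_le_zero_iff.mp (le_of_forall_pos_le_add fun ε hε => ?_)
    have hp : 0 < T''.n y0 + 1 := by linarith [T''.n_nonneg y0]
    obtain ⟨z, b, hz, hφ, hb⟩ := d1 T hT a ((ε / (T''.n y0 + 1)) ^ 2) (by positivity)
    have h3 := hφ ψ fun v hv x => by
      rw [ψa, ψa, map_mul π, map_mul π, ← T''.τ_conj (u := π v) (w := π (star v))
        (by rw [← map_mul, hv.1, map_one]) (y0 * π x), ← mul_assoc, ← mul_assoc, hc (π v),
        mul_assoc (π v)]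
    have h4 := h2 b _ hb
    rw [sq_le_sq₀ (T'.n_nonneg _) (by positivity), le_div_iff₀ hp] at h4
    rw [h3, cen z hz, zero_add, zero_add]
    nlinarith [ψb b, T'.n_nonneg b]
  have : T''.n y0 ^ 2 ≤ 0 := by
    refine le_of_forall_pos_le_add fun ε hε => ?_
    have hp : 0 < T''.n y0 + 1 := by linarith [T''.n_nonneg y0]
    obtain ⟨a, ha⟩ := dense (star y0) _ (div_pos hε hp)
    have h3 := T''.cs y0 (π a - star y0)
    rw [mul_sub, map_sub, ← ψa, all, zero_sub, norm_neg, T''.comm, T''.n_sq'] at h3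
    rw [Complex.norm_real, Real.norm_of_nonneg (sq_nonneg _)] at h3
    rw [lt_div_iff₀ hp] at ha
    nlinarith [T''.n_nonneg y0, T''.n_nonneg (π a - star y0)]
  exact hT''.faith _ (by nlinarith [T''.n_nonneg y0])

end Cut
open Cut

theorem cut : ColStmt.{u} → LimStmt.{u, u} → ExtAStmt.{u} → ExtBStmt.{u} → Dix1Stmt.{u} →
    Dix2Stmt.{u} → CutStmt.{u} := by
  intro col lim extA extB d1 d2 C hC A _ T hT ι _ _ E o H _ _ _ ρ Y g ζ lam X hc hdom hX hXe heX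
  classical
  by_contra! hlt
  set k := ‖⟪ρ X ζ, Y (ρ X ζ)⟫_ℂ - ⟪ζ, Y ζ⟫_ℂ‖ - (C + 10) * g * ‖ζ‖ ^ 2 with hk
  have hk0 : 0 < k := by linarith
  have hXn : ∀ η, ‖ρ X η‖ = ‖η‖ := fun η => by
    rw [@norm_eq_sqrt_re_inner ℂ, @norm_eq_sqrt_re_inner ℂ, inner_rho,
      ← ContinuousLinearMap.mul_apply, ← map_mul, hX.1, map_one]; rfl
  let CP := {w : A // Proj w ∧ ∀ y, w * y = y * w}
  have good : ∀ F : Finset CP, ∃ z : A, Proj z ∧ (∀ y, z * y = y * z) ∧
      (∀ w ∈ F, z * w.1 = z ∨ z * w.1 = 0) ∧ 0 < (T.τ z).re ∧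
      C * g * ‖ρ z ζ‖ ^ 2 + k / 2 * (T.τ z).re ≤
        ‖⟪ρ X (ρ z ζ), Y (ρ X (ρ z ζ))⟫_ℂ - ⟪ρ z ζ, Y (ρ z ζ)⟫_ℂ‖ := fun F => by
    obtain ⟨J, _, z, h1, h2, h3, h4⟩ := exists_part F
    have e : ∀ j, ρ (z j) (ρ X ζ) = ρ X (ρ (z j) ζ) := fun j => by
      rw [← ContinuousLinearMap.mul_apply, ← ContinuousLinearMap.mul_apply, ← map_mul, ← map_mul, h2]
    have p1 := part_col col E o ρ Y g hc z h1 h2 h3 ζ
    have p2 := part_col col E o ρ Y g hc z h1 h2 h3 (ρ X ζ)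
    simp only [e, hXn] at p2
    have : ∃ j, C * g * ‖ρ (z j) ζ‖ ^ 2 + k / 2 * (T.τ (z j)).re <
        ‖⟪ρ X (ρ (z j) ζ), Y (ρ X (ρ (z j) ζ))⟫_ℂ - ⟪ρ (z j) ζ, Y (ρ (z j) ζ)⟫_ℂ‖ := by
      by_contra! h
      have h5 := (norm_sum_le _ _).trans (Finset.sum_le_sum fun j (_ : j ∈ Finset.univ) => h j)
      rw [Finset.sum_add_distrib, ← Finset.mul_sum, ← Finset.mul_sum, part_norm ρ z h1 h3,
        ← Complex.re_sum, ← map_sum, h3, T.one, Complex.one_re, Finset.sum_sub_distrib] at h5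
      set a := ∑ j, ⟪ρ X (ρ (z j) ζ), Y (ρ X (ρ (z j) ζ))⟫_ℂ
      set b := ∑ j, ⟪ρ (z j) ζ, Y (ρ (z j) ζ)⟫_ℂ
      set c := ⟪ρ X ζ, Y (ρ X ζ)⟫_ℂ
      set d := ⟪ζ, Y ζ⟫_ℂ
      have h6 : c - d = (a - b) + (b - d) - (a - c) := by ring
      have h7 := (norm_sub_le _ _).trans (add_le_add (norm_add_le (a - b) (b - d)) (le_refl ‖a - c‖))
      rw [← h6] at h7
      linarith
    obtain ⟨j, hj⟩ := this
    refine ⟨z j, h1 j, h2 j, fun w hw => h4 w hw j, ?_, hj.le⟩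
    rw [Tr.τ_proj (h1 j), Complex.ofReal_re]
    refine pow_pos (lt_of_le_of_ne (T.n_nonneg _) fun h => ?_) 2
    rw [hT.faith _ h.symm] at hj
    simp at hj
  choose z hz hzc hzF hzt hzk using good
  choose S hS using fun F => exists_cut T (hz F) (hzc F) (hzt F)
  let 𝔘 : Ultrafilter (Finset CP) := Ultrafilter.of atTop
  have h𝔘 : (𝔘 : Filter (Finset CP)) ≤ atTop := Ultrafilter.of_le _
  obtain ⟨T', hT'⟩ := exists_lim 𝔘 S
  let ξ : Finset CP → H := fun F => (((√(T.τ (z F)).re)⁻¹ : ℝ) : ℂ) • ρ (z F) ζ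
  have hs0 : ∀ F, 0 < √(T.τ (z F)).re := fun F => Real.sqrt_pos.mpr (hzt F)
  have hξ : ∀ F a, ‖ρ a (ξ F)‖ ≤ lam * (S F).n a := fun F a => by
    have := hs0 F
    simp only [ξ]
    rw [map_smul, norm_smul, Complex.norm_real, Real.norm_of_nonneg (by positivity), hS,
      ← ContinuousLinearMap.mul_apply, ← map_mul, mul_left_comm, hzc]
    exact mul_le_mul_of_nonneg_left (hdom _) (by positivity)
  have hξk : ∀ F, C * g * ‖ρ 1 (ξ F)‖ ^ 2 + k / 2 ≤
      ‖⟪ρ X (ξ F), Y (ρ X (ξ F))⟫_ℂ - ⟪ρ 1 (ξ F), Y (ρ 1 (ξ F))⟫_ℂ‖ := fun F => by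
    have h1 := hs0 F
    have h2 := hzk F
    have h3 := hzt F
    simp only [ξ, map_one, ContinuousLinearMap.one_apply, map_smul, inner_smul_left,
      inner_smul_right, Complex.conj_ofReal, ← mul_sub, norm_mul, norm_smul, Complex.norm_real,
      Real.norm_of_nonneg (inv_pos.mpr h1).le, mul_pow]
    rw [← mul_assoc (√(T.τ (z F)).re)⁻¹, ← sq, inv_pow, Real.sq_sqrt h3.le]
    have h4 := mul_le_mul_of_nonneg_left h2 (inv_pos.mpr h3).le
    rw [mul_add, mul_left_comm _ (k / 2), inv_mul_cancel₀ h3.ne'] at h4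
    linarith
  obtain ⟨H', _, _, _, ρ', Y', ζ', hc', l1, l2⟩ := lim E o ρ Y g hc 𝔘 ξ lam fun F => by
    simpa using hξ F 1
  have hdom' : ∀ a, ‖ρ' a ζ'‖ ≤ lam * T'.n a := fun a =>
    le_of_tendsto_of_tendsto' (norm_lim (l1 a a)) ((hT' a).const_mul lam) fun F => hξ F a
  have hk' : C * g * ‖ρ' 1 ζ'‖ ^ 2 + k / 2 ≤
      ‖⟪ρ' X ζ', Y' (ρ' X ζ')⟫_ℂ - ⟪ρ' 1 ζ', Y' (ρ' 1 ζ')⟫_ℂ‖ :=
    le_of_tendsto_of_tendsto' ((((norm_lim (l1 1 1)).pow 2).const_mul (C * g)).add_const (k / 2))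
      ((l2 X X).sub (l2 1 1)).norm hξk
  obtain ⟨M, _, T'', π, hT'', hπ, dense⟩ := extA T'
  obtain ⟨H'', _, _, _, ρ'', Y'', ζ'', hc'', hdom'', m1, m2⟩ :=
    extB T' T'' π hπ dense E o ρ' Y' g ζ' lam hc' hdom'
  have zero : ∀ w, (∀ᶠ F in (𝔘 : Filter (Finset CP)), z F * w = 0) → T'.n w = 0 := fun w h =>
    tendsto_nhds_unique (hT' w) (tendsto_const_nhds.congr' (h.mono fun F hF => by
      simp [hS, hF]))
  have hirr := irr d1 d2 T hT T' T'' hT'' π hπ dense (fun w hw hwc => by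
    have h1 : ∀ᶠ F in (𝔘 : Filter (Finset CP)), z F * w = z F ∨ z F * w = 0 :=
      h𝔘 ((eventually_ge_atTop ({⟨w, hw, hwc⟩} : Finset CP)).mono fun F hF =>
        hzF F ⟨w, hw, hwc⟩ (hF (Finset.mem_singleton_self _)))
    rcases Ultrafilter.eventually_or.mp h1 with h | h
    · exact Or.inr (zero _ (h.mono fun F hF => by rw [mul_sub, hF, mul_one, sub_self]))
    · exact Or.inl (zero _ h)) (fun b ε hb => by
    refine le_of_tendsto' ((hT' b).pow 2) fun F => ?_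
    rw [hS, mul_pow, inv_pow, Real.sq_sqrt (hzt F).le, inv_mul_le_iff₀ (hzt F), mul_comm]
    exact hb _ (hz F) (hzc F))
  have fin := hC T'' hT'' hirr (E.map π) o ρ'' Y'' g ζ'' lam (π X) hc'' hdom''
    (by rw [Unitary.mem_iff, ← map_star, ← map_mul, ← map_mul, hX.1, hX.2, map_one]; exact ⟨rfl, rfl⟩)
    (by simp only [MU.map]; rw [← map_mul, hXe]) (by simp only [MU.map]; rw [← map_mul, heX])
  have e1 : ζ'' = ρ'' (π 1) ζ'' := by simp
  have e2 : ‖ζ''‖ = ‖ρ' 1 ζ'‖ := by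
    rw [@norm_eq_sqrt_re_inner ℂ, @norm_eq_sqrt_re_inner ℂ, ← m1, ← e1]
  rw [e2, m2, show ⟪ζ'', Y'' ζ''⟫_ℂ = ⟪ρ' 1 ζ', Y' (ρ' 1 ζ')⟫_ℂ by rw [← m2, ← e1]] at fin
  linarith

end Crest.Agent.KS
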