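import Crest.Agent.KS.Defs
/-! Dixmier averaging, uniformly over the centre. -/
set_option autoImplicit false
namespace Crest.Agent.KS
open scoped InnerProductSpace ComplexConjugate
open Filter Topology Crest.Agent.GP

universe u

namespace Dix1
variable {A : Type*} [CStarAlgebra A] {T : Tr A}

theorem fixC (hT : T.W) {C : Set A} (ne : C.Nonempty) {R : ℝ} (bdd : ∀ x ∈ C, ‖x‖ ≤ R)
    (cl : T.Cl C) (mid : ∀ x ∈ C, ∀ y ∈ C, (1 / 2 : ℂ) • (x + y) ∈ C)
    (inv : ∀ s, Sym s → ∀ x ∈ C, s * x * s ∈ C) : ∃ z ∈ C, ∀ y, z * y = y * z := by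
  have hb : BddBelow (T.n '' C) := ⟨0, by rintro _ ⟨x, -, rfl⟩; exact T.n_nonneg x⟩
  obtain ⟨u, hu, hu', hu''⟩ := exists_seq_tendsto_sInf (ne.image T.n) hb
  choose x hx hxu using hu''
  set d := sInf (T.n '' C)
  have hd : ∀ y ∈ C, d ≤ T.n y := fun y hy => csInf_le hb ⟨y, hy, rfl⟩
  have hd0 : 0 ≤ d := le_csInf (ne.image _) (by rintro _ ⟨x, -, rfl⟩; exact T.n_nonneg x)
  have par : ∀ y ∈ C, ∀ z ∈ C, T.n (y - z) ^ 2 ≤ 2 * (T.n y ^ 2 + T.n z ^ 2) - 4 * d ^ 2 := by
    intro y hy z hz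
    have h1 := hd _ (mid y hy z hz)
    rw [T.n_smul] at h1
    simp only [norm_div, norm_one, Complex.norm_ofNat] at h1
    nlinarith [T.n_par y z]
  obtain ⟨y, -, hy⟩ := hT.lim_sq x R (fun k => bdd _ (hx k))
    (f := fun k => 4 * u k ^ 2 - 4 * d ^ 2)
    (by convert ((hu'.pow 2).const_mul 4).sub_const (4 * d ^ 2) using 2; exact (sub_self _).symm)
    fun k l hkl => by
      have := par _ (hx l) _ (hx k)
      rw [hxu, hxu] at this
      have h2 := hu hkl
      have h3 : 0 ≤ u l := hxu l ▸ T.n_nonneg _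
      nlinarith
  have hyC : y ∈ C := cl.lim hx hy
  have hyd : T.n y ≤ d := by
    refine ge_of_tendsto' (by simpa using hu'.add hy) fun k => ?_
    have := T.n_sub_le (x k) (x k - y)
    rwa [sub_sub_cancel, hxu] at this
  refine ⟨y, hyC, fun a => (Tr.comm_of_sym hT (P := ⊤) (fun _ _ => trivial) (fun s _ hs' => ?_)
    a trivial).symm⟩
  have h1 := par _ (inv s hs' y hyC) y hyC
  rw [T.n_unit_r hs'.unit.2, T.n_unit_l hs'.unit.1] at h1
  have h2 := hT.faith (s * y * s - y) (by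
    have := T.n_nonneg y
    nlinarith [T.n_nonneg (s * y * s - y)])
  rw [sub_eq_zero] at h2
  conv_rhs => rw [← h2, mul_assoc, hs'.2, mul_one]

theorem close (b x : A) {S : Set A} (hx : ∀ ε > 0, ∃ y ∈ S, T.n (y - x) < ε) (ε : ℝ) (hε : 0 < ε) :
    ∃ y ∈ S, ‖T.τ (b * y) - T.τ (b * x)‖ ≤ ε := by
  have hp : 0 < ‖b‖ + 1 := by positivity
  obtain ⟨y, hy, h⟩ := hx _ (div_pos hε hp)
  refine ⟨y, hy, ?_⟩
  rw [← map_sub, ← mul_sub]
  refine (T.τ_le_n _).trans ((T.n_mul_le _ _).trans ?_)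
  rw [lt_div_iff₀ hp] at h
  nlinarith [T.n_nonneg (y - x), norm_nonneg b]

theorem cl_eq {I : Type*} (b : I → A) (c : I → ℂ) : T.Cl {x | ∀ i, T.τ (b i * x) = c i} :=
  fun x hx i => by
    refine eq_of_forall_dist_le fun ε hε => ?_
    obtain ⟨y, hy, h⟩ := close (b i) x hx ε hε
    rwa [hy i, ← dist_eq_norm, dist_comm] at h

theorem cl_re {I : Type*} (b : I → A) (c : ℝ) : T.Cl {x | ∀ i, c ≤ (T.τ (b i * x)).re} :=
  fun x hx i => by
    refine le_of_forall_pos_le_add fun ε hε => ?_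
    obtain ⟨y, hy, h⟩ := close (b i) x hx ε hε
    have h1 := hy i
    have h2 := (Complex.re_le_norm _).trans h
    rw [Complex.sub_re] at h2
    linarith

theorem mid_norm {x y : A} {R : ℝ} (hx : ‖x‖ ≤ R) (hy : ‖y‖ ≤ R) :
    ‖(1 / 2 : ℂ) • (x + y)‖ ≤ R := by
  rw [norm_smul]
  simp only [norm_div, norm_one, Complex.norm_ofNat]
  linarith [norm_add_le x y]

theorem conj_norm {u x : A} (hu : u ∈ unitary A) : ‖u * x * star u‖ ≤ ‖x‖ := by
  have h1 := norm_unit hu
  have := norm_mul_le' (norm_mul_le' h1 (le_refl ‖x‖)) (show ‖star u‖ ≤ 1 by rwa [norm_star])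
  simpa using this

theorem τ_cen {y u x : A} (hy : ∀ t, y * t = t * y) (hu : star u * u = 1) :
    T.τ (y * (u * x * star u)) = T.τ (y * x) := by
  rw [← T.τ_conj hu (y * x), ← mul_assoc, ← mul_assoc, hy u, mul_assoc u]

/-- central part -/
theorem exists_cen (hT : T.W) (a : A) :
    ∃ z : A, (∀ y, z * y = y * z) ∧ ∀ y, (∀ t, y * t = t * y) → T.τ (y * z) = T.τ (y * a) := by
  obtain ⟨z, hz, hc⟩ := fixC hT (C := {x | ‖x‖ ≤ ‖a‖} ∩
      {x | ∀ i : {y : A // ∀ t, y * t = t * y}, T.τ (i.1 * x) = T.τ (i.1 * a)})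
    ⟨a, le_refl ‖a‖, fun _ => rfl⟩ (fun x hx => hx.1) ((hT.cl_ball _).inter (cl_eq _ _))
    (fun x hx y hy => ⟨mid_norm hx.1 hy.1, fun i => by
      rw [mul_smul_comm, mul_add, map_smul, map_add, hx.2 i, hy.2 i, smul_eq_mul]; ring⟩)
    (fun s hs x hx => ⟨by
      have := conj_norm (x := x) hs.unit
      rw [hs.1] at this; exact this.trans hx.1, fun i => by
      have := τ_cen (T := T) (x := x) i.2 hs.unit.1
      rw [hs.1] at this; rw [this, hx.2 i]⟩)
  exact ⟨z, hc, fun y hy => hz.2 ⟨y, hy⟩⟩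

/-- local step -/
theorem loc (hT : T.W) {a : A} (ha : ∀ y, (∀ t, y * t = t * y) → T.τ (y * a) = 0) (b : A)
    {η : ℝ} (hη : 0 < η) : ∃ u ∈ unitary A, (T.τ (b * (u * a * star u))).re < η := by
  by_contra! h
  have e : ∀ u x : A, T.τ (b * (u * x * star u)) = T.τ (star u * b * u * x) := fun u x => by
    rw [← mul_assoc, T.comm]; simp only [mul_assoc]
  obtain ⟨z, hz, hc⟩ := fixC hT (C := ({x | ‖x‖ ≤ ‖a‖} ∩
      {x | ∀ i : {y : A // ∀ t, y * t = t * y}, T.τ (i.1 * x) = 0}) ∩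
      {x | ∀ u : unitary A, η ≤ (T.τ (star u.1 * b * u.1 * x)).re})
    ⟨a, ⟨le_refl ‖a‖, fun i => ha _ i.2⟩, fun u => by rw [← e]; exact h _ u.2⟩
    (fun x hx => hx.1.1) (((hT.cl_ball _).inter (cl_eq _ fun _ => 0)).inter (cl_re _ _))
    (fun x hx y hy => ⟨⟨mid_norm hx.1.1 hy.1.1, fun i => by
      rw [mul_smul_comm, mul_add, map_smul, map_add, hx.1.2 i, hy.1.2 i]; simp⟩, fun u => by
      have h1 := hx.2 u
      have h2 := hy.2 u
      rw [mul_smul_comm, mul_add, map_smul, map_add, smul_eq_mul]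
      have : (1 / 2 : ℂ) = ((1 / 2 : ℝ) : ℂ) := by simp
      rw [this, Complex.re_ofReal_mul, Complex.add_re]; linarith⟩)
    (fun s hs x hx => ⟨⟨by
      have := conj_norm (x := x) hs.unit
      rw [hs.1] at this; exact this.trans hx.1.1, fun i => by
      have := τ_cen (T := T) (x := x) i.2 hs.unit.1
      rw [hs.1] at this; rw [this, hx.1.2 i]⟩, fun u => by
      have := hx.2 ⟨u.1 * s, mul_mem u.2 hs.unit⟩
      simp only [star_mul, hs.1] at this
      rw [← mul_assoc, T.comm]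
      simpa only [mul_assoc] using this⟩)
  have h0 : z = 0 := by
    refine hT.faith z ?_
    have := hz.1.2 ⟨star z, fun t => by simpa using congrArg star (hc (star t)).symm⟩
    have h2 := T.n_sq z
    simp only at this
    rw [this] at h2
    simpa using h2
  have := hz.2 1
  rw [h0] at this
  simp at this
  linarith

def mix (w p q : A) : A := w * p + (1 - w) * q

theorem mix_self (w p : A) : mix w p p = p := by rw [mix, ← add_mul]; simp

theorem mix_mul {w : A} (hw : Proj w) (hc : ∀ y, w * y = y * w) (p q r s : A) :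
    mix w p q * mix w r s = mix w (p * r) (q * s) := by
  have h1 : ∀ x y : A, w * x * (w * y) = w * (x * y) := fun x y => by
    rw [mul_assoc, ← mul_assoc x, ← hc x, ← mul_assoc, ← mul_assoc, hw.2, mul_assoc]
  have h2 : ∀ x y : A, x * (w * y) = w * (x * y) := fun x y => by
    rw [← mul_assoc, ← hc x, mul_assoc]
  simp only [mix, sub_mul, one_mul, add_mul, mul_add, mul_sub, h1, h2, mul_assoc,
    ← mul_assoc w w, hw.2]
  abel

theorem mix_star {w : A} (hw : Proj w) (hc : ∀ y, w * y = y * w) (p q : A) :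
    star (mix w p q) = mix w (star p) (star q) := by
  simp only [mix, star_add, star_mul, star_sub, star_one, hw.1, mul_sub, sub_mul, mul_one, one_mul,
    hc]

theorem mix_unit {w : A} (hw : Proj w) (hc : ∀ y, w * y = y * w) {p q : A} (hp : p ∈ unitary A)
    (hq : q ∈ unitary A) : mix w p q ∈ unitary A := by
  rw [Unitary.mem_iff, mix_star hw hc, mix_mul hw hc, mix_mul hw hc, hp.1, hp.2, hq.1, hq.2]
  simp [mix_self]

theorem proj_n {w : A} (hw : Proj w) : T.n w ^ 2 = (T.τ w).re := by rw [T.n_sq, hw.1, hw.2]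

theorem greedy_seq {X : Type*} (le : X → X → Prop) (refl : ∀ x, le x x) (r : X → ℝ) (B : ℝ)
    (trans : ∀ x y z, le x y → le y z → le x z) (bdd : ∀ x, r x ≤ B) (x₀ : X) :
    ∃ x : ℕ → X, (∀ k l, k ≤ l → le (x k) (x l)) ∧
      ∀ k z, le (x k) z → r z ≤ r (x (k + 1)) + 1 / ((k : ℝ) + 1) := by
  have step : ∀ (k : ℕ) (x : X), ∃ y, le x y ∧ ∀ z, le x z → r z ≤ r y + 1 / ((k : ℝ) + 1) := by
    intro k x
    have hb : BddAbove (r '' {z | le x z}) := ⟨B, by rintro _ ⟨z, -, rfl⟩; exact bdd z⟩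
    obtain ⟨_, ⟨y, hy, rfl⟩, h⟩ := exists_lt_of_lt_csSup (s := r '' {z | le x z})
      ⟨_, x, refl x, rfl⟩ (sub_lt_self _ (Nat.one_div_pos_of_nat (n := k)))
    exact ⟨y, hy, fun z hz => by linarith [le_csSup hb ⟨z, hz, rfl⟩]⟩
  choose f hf hf' using step
  let x : ℕ → X := fun k => Nat.rec x₀ (fun k x => f k x) k
  refine ⟨x, fun k l hkl => ?_, fun k z hz => hf' k (x k) z hz⟩
  induction l, hkl using Nat.le_induction with
  | base => exact refl _
  | succ l _ ih => exact trans _ _ _ ih (hf l (x l))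

theorem to_re {x : ℕ → A} {y : A} (h : T.To x y) :
    Tendsto (fun k => (T.τ (x k)).re) atTop (𝓝 (T.τ y).re) := by
  rw [tendsto_iff_dist_tendsto_zero]
  refine squeeze_zero (fun _ => dist_nonneg) (fun k => ?_) h
  rw [Real.dist_eq, ← Complex.sub_re, ← map_sub]
  exact (Complex.abs_re_le_norm _).trans (T.τ_le_n _)

/-- uniform step -/
theorem unif (hT : T.W) {a : A} (ha : ∀ y, (∀ t, y * t = t * y) → T.τ (y * a) = 0)
    {δ : ℝ} (hδ : 0 < δ) : ∃ u ∈ unitary A, ∀ w, Proj w → (∀ y, w * y = y * w) →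
      (T.τ (w * (star a * (u * a * star u)))).re ≤ δ * (T.τ w).re := by
  let g : A → A := fun u => star a * (u * a * star u)
  let r : unitary A → ℝ := fun u => -(T.τ (g u)).re
  have hr : ∀ u, r u ≤ ‖a‖ * ‖a‖ := fun u => by
    have h1 := (Complex.abs_re_le_norm _).trans (T.τ_le (g u))
    have h2 : ‖g u‖ ≤ ‖a‖ * ‖a‖ := norm_mul_le' (norm_star a).le (conj_norm u.2)
    have := neg_abs_le (T.τ (g u)).re
    simp only [r]; linarith
  obtain ⟨x, hx, hx'⟩ := greedy_seq (X := unitary A)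
    (fun u v => ∃ w, Proj w ∧ (∀ y, w * y = y * w) ∧ (v.1 - u.1) * (1 - w) = 0 ∧
      δ * (T.τ w).re ≤ r v - r u)
    (fun u => ⟨0, ⟨by simp, by simp⟩, by simp, by simp, by simp⟩) r _
    (fun x y z ⟨w, hw, hc, e, h⟩ ⟨w', hw', hc', e', h'⟩ => ⟨w + w' - w * w', ⟨by
        rw [star_sub, star_add, star_mul, hw.1, hw'.1, hc w'], by
        have h1 : w * (w * w') = w * w' := by rw [← mul_assoc, hw.2]
        have h2 : w' * (w * w') = w * w' := by rw [← mul_assoc, ← hc w', mul_assoc, hw'.2]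
        simp only [mul_sub, sub_mul, add_mul, mul_add, hw.2, hw'.2, mul_assoc, h1, h2, ← hc w']
        abel⟩, fun y => by
        rw [sub_mul, add_mul, mul_sub, mul_add, hc y, hc' y, mul_assoc, hc' y, ← mul_assoc, hc y,
          mul_assoc], by
        have e1 : (1 : A) - (w + w' - w * w') = (1 - w) * (1 - w') := by
          simp only [mul_sub, sub_mul, one_mul, mul_one]; abel
        have e2 : (1 : A) - (w + w' - w * w') = (1 - w') * (1 - w) := by
          simp only [mul_sub, sub_mul, one_mul, mul_one, hc w']; abel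
        have e3 : z.1 - x.1 = (z.1 - y.1) + (y.1 - x.1) := by abel
        rw [e3, add_mul]
        conv_lhs => congr; · rw [e2, ← mul_assoc, e', zero_mul]
        rw [e1, ← mul_assoc, e, zero_mul, add_zero], by
        have h1 : 0 ≤ (T.τ (w * w')).re := by
          have := T.pos (w * w')
          rwa [star_mul, hw.1, hw'.1, mul_assoc, ← mul_assoc w, hw.2, ← mul_assoc, ← hc w',
            mul_assoc, hw'.2] at this
        rw [map_sub, map_add, Complex.sub_re, Complex.add_re]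
        nlinarith⟩) hr 1
  have h1 : ∀ k, ‖(x k).1‖ ≤ 1 := fun k => norm_unit (x k).2
  obtain ⟨y, -, hy⟩ := hT.lim_mono (fun k => (x k).1) 1 h1 (fun k => 4 / δ * r (x k))
    (4 / δ * (‖a‖ * ‖a‖)) (fun k => mul_le_mul_of_nonneg_left (hr _) (by positivity))
    fun k l hkl => by
      obtain ⟨w, hw, -, e, h⟩ := hx k l hkl
      have e1 : (x l).1 - (x k).1 = ((x l).1 - (x k).1) * w := by
        rw [mul_sub, mul_one, sub_eq_zero] at e; exact e
      have h2 : ‖(x l).1 - (x k).1‖ ≤ 2 := (norm_sub_le _ _).trans (by linarith [h1 k, h1 l])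
      have h3 := T.n_l h2 (le_refl (T.n w))
      rw [← e1] at h3
      have h4 := proj_n (T := T) hw
      rw [← mul_sub, div_mul_eq_mul_div, le_div_iff₀ hδ]
      have h5 : T.n ((x l).1 - (x k).1) ^ 2 ≤ (2 * T.n w) ^ 2 :=
        pow_le_pow_left₀ (T.n_nonneg _) h3 2
      nlinarith
  have hyu : y ∈ unitary A := ⟨(hy.star.mul hy fun k => by simpa using h1 k).unique hT
      (Tr.To.const 1) fun k => (x k).2.1,
    (hy.mul hy.star h1).unique hT (Tr.To.const 1) fun k => (x k).2.2⟩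
  have hg : T.To (fun k => g (x k)) (g y) :=
    ((hy.mul_const a).mul hy.star (C := ‖a‖) fun k => by
      simpa using norm_mul_le' (h1 k) (le_refl ‖a‖)).const_mul _
  refine ⟨y, hyu, fun w hw hc => ?_⟩
  by_contra! hlt
  set η := ((T.τ (w * g y)).re - δ * (T.τ w).re) / 2 with hη
  have hη0 : 0 < η := by rw [hη]; exact half_pos (sub_pos.mpr hlt)
  obtain ⟨v, hv, hv'⟩ := loc hT ha (w * star a) (half_pos hη0)
  rw [mul_assoc] at hv'
  have t1 := to_re (hg.const_mul w)
  have t2 := to_re hg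
  have t3 : Tendsto (fun k : ℕ => -(T.τ (g (x (k + 1)))).re + 1 / ((k : ℝ) + 1) -
      -(T.τ (g (x k))).re - (T.τ (w * g (x k))).re) atTop
      (𝓝 (-(T.τ (g y)).re + 0 - -(T.τ (g y)).re - (T.τ (w * g y)).re)) :=
    (((t2.comp (tendsto_add_atTop_nat 1)).neg.add
      tendsto_one_div_add_atTop_nhds_zero_nat).sub t2.neg).sub t1
  have hw0 : 0 ≤ (T.τ w).re := proj_n (T := T) hw ▸ sq_nonneg _
  have t4 : ∀ᶠ k : ℕ in atTop, δ * (T.τ w).re + η < (T.τ (w * g (x k))).re :=
    t1.eventually (lt_mem_nhds (by linarith))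
  have := ge_of_tendsto t3 (b := -(η / 2)) (t4.mono fun k hk => by
    have e : (T.τ (g (mix w v (x k).1))).re =
        (T.τ (w * g v)).re + (T.τ (g (x k))).re - (T.τ (w * g (x k))).re := by
      have : g (mix w v (x k).1) = mix w (g v) (g (x k)) := by
        simp only [g]
        conv_lhs => rw [mix_star hw hc, ← mix_self w a, mix_star hw hc, mix_mul hw hc,
          mix_mul hw hc, mix_mul hw hc]
      rw [this, mix, sub_mul, one_mul, map_add, map_sub, Complex.add_re, Complex.sub_re]; ring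
    have := hx' k ⟨mix w v (x k).1, mix_unit hw hc hv (x k).2⟩ ⟨w, hw, hc, by
      have e2 : mix w v (x k).1 - (x k).1 = (v - (x k).1) * w := by
        rw [mix, sub_mul, one_mul, sub_mul, hc v, hc]; abel
      simp only [e2]
      rw [mul_assoc, mul_sub, mul_one, hw.2, sub_self, mul_zero], by
      simp only [r, e, g] at *; linarith⟩
    simp only [r, e, g] at *; linarith)
  have h9 : 0 ≤ δ * (T.τ w).re := mul_nonneg hδ.le hw0
  linarith

theorem iter (hT : T.W) {a : A} (ha : ∀ y, (∀ t, y * t = t * y) → T.τ (y * a) = 0)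
    {δ : ℝ} (hδ : 0 < δ) (k : ℕ) : ∃ b : A, (∀ y, (∀ t, y * t = t * y) → T.τ (y * b) = 0) ∧
      (∀ φ : A →ₗ[ℂ] ℂ, (∀ u ∈ unitary A, ∀ x, φ (u * x * star u) = φ x) → φ b = φ a) ∧
      ∀ w, Proj w → (∀ y, w * y = y * w) →
        T.n (w * b) ^ 2 ≤ (δ + ‖a‖ ^ 2 * (1 / 2) ^ k) * (T.τ w).re := by
  induction k with
  | zero =>
    refine ⟨a, ha, fun _ _ => rfl, fun w hw _ => ?_⟩
    have h1 := pow_le_pow_left₀ (T.n_nonneg _) (T.n_mul_le' w a) 2
    rw [mul_pow, proj_n hw] at h1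
    have hw0 : 0 ≤ (T.τ w).re := proj_n (T := T) hw ▸ sq_nonneg _
    nlinarith
  | succ k ih =>
    obtain ⟨b, h1, h2, h3⟩ := ih
    obtain ⟨u, hu, h⟩ := unif hT h1 hδ
    refine ⟨(1 / 2 : ℂ) • (b + u * b * star u), fun y hy => ?_, fun φ hφ => ?_, fun w hw hc => ?_⟩
    · rw [mul_smul_comm, mul_add, map_smul, map_add, τ_cen hy hu.1, h1 y hy]; simp
    · rw [map_smul, map_add, hφ u hu, h2 φ hφ, smul_eq_mul]; ring
    · rw [mul_smul_comm, T.n_smul, mul_add, mul_pow, T.n_add_sq]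
      have e1 : T.n (w * (u * b * star u)) = T.n (w * b) := by
        rw [← mul_assoc, ← mul_assoc, hc u, mul_assoc u, T.n_unit_r (by simpa using hu.1),
          T.n_unit_l hu.1]
      have e2 : star (w * b) * (w * (u * b * star u)) = w * (star b * (u * b * star u)) := by
        rw [star_mul, hw.1, mul_assoc, ← mul_assoc w w, hw.2, ← mul_assoc, ← hc, mul_assoc]
      rw [e1, e2]
      have := h w hw hc
      have := h3 w hw hc
      simp only [norm_div, norm_one, Complex.norm_ofNat]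
      rw [pow_succ (1 / 2 : ℝ) k]
      nlinarith

end Dix1

theorem dix1 : Dix1Stmt.{u} := by
  intro A _ T hT a ε hε
  obtain ⟨z, hz, hz'⟩ := Dix1.exists_cen hT a
  obtain ⟨k, hk⟩ := exists_pow_lt_of_lt_one (x := ε / 2 / (‖a - z‖ ^ 2 + 1)) (y := (1 / 2 : ℝ))
    (by positivity) (by norm_num)
  obtain ⟨b, -, h2, h3⟩ := Dix1.iter hT (a := a - z)
    (fun y hy => by rw [mul_sub, map_sub, hz' y hy, sub_self]) (half_pos hε) k
  refine ⟨z, b, hz, fun φ hφ => by rw [h2 φ hφ, map_sub]; ring, fun w hw hc => ?_⟩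
  refine (h3 w hw hc).trans (mul_le_mul_of_nonneg_right ?_
    (Dix1.proj_n (T := T) hw ▸ sq_nonneg _))
  rw [lt_div_iff₀ (by positivity)] at hk
  have : (0 : ℝ) < (1 / 2) ^ k := by positivity
  nlinarith

end Crest.Agent.KS
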