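import Crest.Agent.KS.Defs
/-! The centre is spanned by its projections. -/
set_option autoImplicit false
namespace Crest.Agent.KS
open scoped InnerProductSpace ComplexConjugate
open Filter Topology Crest.Agent.GP

universe u

theorem dix2 : Dix2Stmt.{u} := by
  intro A _ T hT N hN hP
  let P : StarSubalgebra ℂ A := StarSubalgebra.centralizer ℂ Set.univ
  have hPc : T.Cl P := Tr.cl_centralizer hT _
  have mem : ∀ z, z ∈ P ↔ ∀ y, z * y = y * z := fun z => by
    simp only [P, StarSubalgebra.mem_centralizer_iff]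
    exact ⟨fun h y => (h y trivial).1.symm, fun h y _ => ⟨(h y).symm, (h _).symm⟩⟩
  have h1 : (1 : A) ∈ N := hP 1 ⟨star_one _, one_mul _⟩ (by simp)
  have hs : ∀ s ∈ P, Sym s → s ∈ N := fun s hsP hss => by
    have hw : (1 / 2 : ℂ) • (1 + s) ∈ N := hP _ ⟨by simp [hss.1], by
      simp only [smul_mul_assoc, mul_smul_comm, mul_add, add_mul, hss.2, one_mul, mul_one]
      module⟩ ((mem _).1 (SMulMemClass.smul_mem _ (add_mem (one_mem _) hsP)))
    have : s = (2 : ℂ) • ((1 / 2 : ℂ) • (1 + s)) - 1 := by module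
    rw [this]; exact sub_mem (N.smul_mem _ hw) h1
  have key : ∀ k : ℕ, ∀ a ∈ P, star a = a → ‖a‖ ≤ 1 → ∃ b ∈ N, ‖a - b‖ ≤ (1 / 2 : ℝ) ^ k := by
    intro k
    induction k with
    | zero => exact fun a _ _ h => ⟨0, zero_mem _, by simpa using h⟩
    | succ k ih =>
      intro a ha hsa h
      obtain ⟨s, hsP, hss, h2⟩ := Tr.sign hT hPc ha hsa h
      obtain ⟨b, hb, h3⟩ := ih _ (sub_mem (SMulMemClass.smul_mem (2 : ℂ) ha) hsP)
        (by simp [hsa, hss.1]) h2
      refine ⟨(1 / 2 : ℂ) • (s + b), N.smul_mem _ (add_mem (hs s hsP hss) hb), ?_⟩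
      have : a - (1 / 2 : ℂ) • (s + b) = (1 / 2 : ℂ) • ((2 : ℂ) • a - s - b) := by module
      rw [this, norm_smul, pow_succ]
      simp only [norm_div, norm_one, Complex.norm_ofNat]
      linarith
  have sa1 : ∀ a ∈ P, star a = a → ‖a‖ ≤ 1 → a ∈ N := fun a ha hsa h => by
    refine hN.closure_subset (Metric.mem_closure_iff.mpr fun ε hε => ?_)
    obtain ⟨k, hk⟩ := exists_pow_lt_of_lt_one hε (show (1 / 2 : ℝ) < 1 by norm_num)
    obtain ⟨b, hb, h2⟩ := key k a ha hsa h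
    exact ⟨b, hb, by rw [dist_eq_norm]; exact h2.trans_lt hk⟩
  have sa : ∀ a ∈ P, star a = a → a ∈ N := fun a ha hsa => by
    have hp : 0 < ‖a‖ + 1 := by positivity
    have h := sa1 (((‖a‖ + 1 : ℝ) : ℂ)⁻¹ • a) (SMulMemClass.smul_mem _ ha)
      (by rw [star_smul, hsa]; congr 1; rw [star_inv₀]; simp) (by
      rw [norm_smul, norm_inv, Complex.norm_real, Real.norm_of_nonneg hp.le, inv_mul_le_iff₀ hp]
      linarith)
    have h2 := N.smul_mem ((‖a‖ + 1 : ℝ) : ℂ) h
    rwa [smul_smul, mul_inv_cancel₀ (by exact_mod_cast hp.ne'), one_smul] at h2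
  intro z hz
  have hzP := (mem z).2 hz
  obtain ⟨b, c, hb, hc, -, -, e, eb, ec⟩ := Tr.decomp z
  rw [e]
  exact add_mem (sa b (eb ▸ SMulMemClass.smul_mem _ (add_mem hzP (star_mem hzP))) hb)
    (N.smul_mem _ (sa c (ec ▸ SMulMemClass.smul_mem _ (sub_mem hzP (star_mem hzP))) hc))

end Crest.Agent.KS
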