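import Crest.Agent.KS.Form
/-! Kadison similarity problem: the tracial completion (piece `ExtA`). -/
set_option autoImplicit false
set_option linter.deprecated false
namespace Crest.Agent.KS
open scoped InnerProductSpace ComplexConjugate
open Filter Topology Crest.Agent.GP

universe u

theorem extA : ExtAStmt.{u} := by
  intro A _ T
  obtain ⟨H, _, _, _, ρ, Ω, hd, h1, h2⟩ := Form.gns T.τ T.n T.n_nonneg T.n_sq'
  let j : A →ₗ[ℂ] H :=
    { toFun := fun a => ρ a Ω
      map_add' := fun a b => by rw [map_add]; rfl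
      map_smul' := fun z a => by rw [map_smul]; rfl }
  have hj : DenseRange j := hd
  have j1 : j 1 = Ω := by change ρ 1 Ω = Ω; simp
  have jn : ∀ a, ‖j a‖ = T.n a := h2
  have ji : ∀ a b, ⟪j a, j b⟫_ℂ = T.τ (star a * b) := h1
  have jl : ∀ a b, ρ a (j b) = j (a * b) := fun a b => by
    change ρ a (ρ b Ω) = ρ (a * b) Ω
    rw [map_mul]; rfl
  have ext : ∀ S S' : H →L[ℂ] H, (∀ a, S (j a) = S' (j a)) → S = S' := fun S S' h =>
    ContinuousLinearMap.ext fun ξ => hj.induction_on (p := fun ξ => S ξ = S' ξ) ξ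
      (isClosed_eq S.continuous S'.continuous) h
  -- right multiplications
  have exR : ∀ b : A, ∃ R : H →L[ℂ] H, ∀ a, R (j a) = j (a * b) := fun b =>
    ⟨(j ∘ₗ LinearMap.mulRight ℂ b).extendOfNorm j, fun a =>
      LinearMap.extendOfNorm_eq hj ⟨‖b‖, fun x => by
        change ‖j (x * b)‖ ≤ _
        rw [jn, jn, mul_comm]; exact T.n_mul_le' x b⟩ a⟩
  choose R hR using exR
  have RΩ : ∀ a, R a Ω = j a := fun a => by rw [← j1, hR, one_mul]
  have Rs : ∀ a, star (R a) = R (star a) := by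
    intro a
    rw [ContinuousLinearMap.star_eq_adjoint, eq_comm, ContinuousLinearMap.eq_adjoint_iff]
    intro ξ η
    refine hj.induction_on₂ (p := fun ξ η => ⟪R (star a) ξ, η⟫_ℂ = ⟪ξ, R a η⟫_ℂ)
      (isClosed_eq (by fun_prop) (by fun_prop)) (fun x y => ?_) ξ η
    rw [hR, hR, ji, ji, star_mul, star_star, mul_assoc, T.comm, mul_assoc]
  -- the conjugation
  let s : A →ₛₗ[starRingEnd ℂ] H :=
    { toFun := fun a => j (star a)
      map_add' := fun a b => by rw [star_add, map_add]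
      map_smul' := fun z a => by rw [star_smul, map_smul]; rfl }
  let J : H →SL[starRingEnd ℂ] H := s.extendOfNorm j
  have hJ : ∀ a, J (j a) = j (star a) := fun a =>
    LinearMap.extendOfNorm_eq hj ⟨1, fun x => by
      change ‖j (star x)‖ ≤ _
      rw [jn, jn, T.n_star, one_mul]⟩ a
  have Ji : ∀ ξ η, ⟪J ξ, J η⟫_ℂ = ⟪η, ξ⟫_ℂ := fun ξ η =>
    hj.induction_on₂ (p := fun ξ η => ⟪J ξ, J η⟫_ℂ = ⟪η, ξ⟫_ℂ)
      (isClosed_eq (by fun_prop) (by fun_prop)) (fun x y => by
        rw [hJ, hJ, ji, ji, star_star, T.comm]) ξ η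
  let M : StarSubalgebra ℂ (H →L[ℂ] H) := StarSubalgebra.centralizer ℂ (Set.range R)
  have hM : ∀ x, x ∈ M ↔ ∀ a, R a * x = x * R a := by
    intro x
    rw [StarSubalgebra.mem_centralizer_iff]
    constructor
    · intro h a; exact (h _ ⟨a, rfl⟩).1
    · rintro h _ ⟨a, rfl⟩
      exact ⟨h a, by rw [Rs]; exact h _⟩
  have hc : IsClosed (M : Set (H →L[ℂ] H)) := by
    rw [StarSubalgebra.coe_centralizer]; exact Set.isClosed_centralizer _
  have Mj : ∀ x ∈ M, ∀ a, x (j a) = R a (x Ω) := fun x hx a => by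
    rw [← RΩ, ← ContinuousLinearMap.mul_apply, ← (hM x).1 hx, ContinuousLinearMap.mul_apply]
  have JM : ∀ x ∈ M, J (x Ω) = star x Ω := by
    intro x hx
    refine hj.eq_of_inner_right ℂ fun a => ?_
    have e1 : j a = J (j (star a)) := by rw [hJ, star_star]
    conv_lhs => rw [e1, Ji, ← RΩ, ← Rs]
    rw [ContinuousLinearMap.star_eq_adjoint, ContinuousLinearMap.star_eq_adjoint,
      ContinuousLinearMap.adjoint_inner_right, ContinuousLinearMap.adjoint_inner_right,
      Mj x hx]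
  let T' : Tr M :=
    { τ :=
        { toFun := fun x => ⟪Ω, (x : H →L[ℂ] H) Ω⟫_ℂ
          map_add' := fun x y => by
            rw [AddMemClass.coe_add, ContinuousLinearMap.add_apply, inner_add_right]
          map_smul' := fun z x => by
            rw [SetLike.val_smul, ContinuousLinearMap.smul_apply, inner_smul_right]; rfl }
      one := by
        change ⟪Ω, Ω⟫_ℂ = 1
        rw [← j1, ji]; simpa using T.one
      comm := fun x y => by
        change ⟪Ω, (x : H →L[ℂ] H) ((y : H →L[ℂ] H) Ω)⟫_ℂ =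
          ⟪Ω, (y : H →L[ℂ] H) ((x : H →L[ℂ] H) Ω)⟫_ℂ
        have e1 := JM _ (star_mem y.2)
        rw [star_star] at e1
        have e2 : ∀ (S : H →L[ℂ] H) (η : H), ⟪Ω, S η⟫_ℂ = ⟪star S Ω, η⟫_ℂ := fun S η => by
          rw [ContinuousLinearMap.star_eq_adjoint, ContinuousLinearMap.adjoint_inner_left]
        rw [e2 x, e2 y, ← JM _ x.2, ← e1, Ji]
      map_star := fun x => by
        change ⟪Ω, star (x : H →L[ℂ] H) Ω⟫_ℂ = conj ⟪Ω, (x : H →L[ℂ] H) Ω⟫_ℂ
        rw [ContinuousLinearMap.star_eq_adjoint, ContinuousLinearMap.adjoint_inner_right,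
          inner_conj_symm]
      pos := fun x => by
        change 0 ≤ (⟪Ω, star (x : H →L[ℂ] H) ((x : H →L[ℂ] H) Ω)⟫_ℂ).re
        rw [ContinuousLinearMap.star_eq_adjoint, ContinuousLinearMap.adjoint_inner_right]
        exact inner_self_nonneg (𝕜 := ℂ) }
  have hn : ∀ x : M, T'.n x = ‖(x : H →L[ℂ] H) Ω‖ := by
    intro x
    rw [← sq_eq_sq₀ (T'.n_nonneg _) (norm_nonneg _), T'.n_sq]
    change (⟪Ω, star (x : H →L[ℂ] H) ((x : H →L[ℂ] H) Ω)⟫_ℂ).re = _
    rw [ContinuousLinearMap.star_eq_adjoint, ContinuousLinearMap.adjoint_inner_right]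
    exact inner_self_eq_norm_sq (𝕜 := ℂ) _
  have hρ : ∀ a, ρ a ∈ M := fun a => (hM _).2 fun b => ext _ _ fun c => by
    simp only [ContinuousLinearMap.mul_apply, jl, hR, mul_assoc]
  refine ⟨M, inferInstance, T', ρ.codRestrict M hρ, ⟨fun x hx => ?_, fun x C hC hx => ?_⟩,
    fun a => ?_, fun y ε hε => ?_⟩
  · rw [hn, norm_eq_zero] at hx
    exact Subtype.ext (ext _ _ fun a => by rw [Mj _ x.2, hx, map_zero]; rfl)
  · have C0 : 0 ≤ C := (norm_nonneg _).trans (hC 0)
    have hx' : CauchySeq fun k => (x k : H →L[ℂ] H) Ω := by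
      rw [Metric.cauchySeq_iff] at hx ⊢
      intro ε hε
      obtain ⟨N, hN⟩ := hx ε hε
      refine ⟨N, fun m hm n hn' => ?_⟩
      have := hN m hm n hn'
      rwa [T'.dist_ι, hn, AddSubgroupClass.coe_sub, ContinuousLinearMap.sub_apply,
        ← dist_eq_norm] at this
    obtain ⟨η, hη⟩ := cauchySeq_tendsto_of_complete hx'
    have hlim : ∀ a, Tendsto (fun k => (x k : H →L[ℂ] H) (j a)) atTop (𝓝 (R a η)) := fun a => by
      simp only [fun k => Mj _ (x k).2 a]
      exact ((R a).continuous.tendsto η).comp hη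
    let f : A →ₗ[ℂ] H :=
      { toFun := fun a => R a η
        map_add' := fun a b => tendsto_nhds_unique (hlim (a + b)) (by
          simpa only [map_add] using (hlim a).add (hlim b))
        map_smul' := fun z a => tendsto_nhds_unique (hlim (z • a)) (by
          simpa only [map_smul, RingHom.id_apply] using (hlim a).const_smul z) }
    have hf : ∀ a, ‖f a‖ ≤ C * ‖j a‖ := fun a => le_of_tendsto' (hlim a).norm fun k =>
      ((x k : H →L[ℂ] H).le_opNorm _).trans (mul_le_mul_of_nonneg_right (hC k) (norm_nonneg _))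
    have hy : ∀ a, f.extendOfNorm j (j a) = R a η := fun a =>
      LinearMap.extendOfNorm_eq hj ⟨_, hf⟩ a
    have hRm : ∀ a b, R (a * b) = R b * R a := fun a b => ext _ _ fun c => by
      simp only [ContinuousLinearMap.mul_apply, hR, mul_assoc]
    have hyM : f.extendOfNorm j ∈ M := (hM _).2 fun b => ext _ _ fun c => by
      simp only [ContinuousLinearMap.mul_apply, hR, hy, hRm]
    refine ⟨⟨_, hyM⟩, LinearMap.opNorm_extendOfNorm_le hj C0 hf, ?_⟩
    have hyΩ : f.extendOfNorm j Ω = η := by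
      have : R 1 = 1 := ext _ _ fun c => by rw [hR, mul_one]; rfl
      rw [← j1, hy, this]; rfl
    simp only [hn, AddSubgroupClass.coe_sub, ContinuousLinearMap.sub_apply, hyΩ]
    exact tendsto_iff_norm_sub_tendsto_zero.1 hη
  · change ⟪Ω, j a⟫_ℂ = _
    rw [← j1, ji, star_one, one_mul]
  · obtain ⟨a, ha⟩ := Metric.denseRange_iff.1 hj ((y : H →L[ℂ] H) Ω) ε hε
    refine ⟨a, ?_⟩
    rw [hn, AddSubgroupClass.coe_sub, ContinuousLinearMap.sub_apply, ← dist_eq_norm, dist_comm]
    exact ha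

end Crest.Agent.KS
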