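import Crest.Agent.KS.Defs
/-! Bounded forms on dense ranges and the GNS construction (shared by `Lim`, `ExtA`, `ExtB`). -/
set_option autoImplicit false
set_option linter.deprecated false
set_option linter.style.haveILetI false
namespace Crest.Agent.KS.Form
open scoped InnerProductSpace ComplexConjugate ComplexOrder
open Filter Topology Crest.Agent.GP

universe u

section form
variable {V : Type*} [AddCommGroup V] [Module ℂ V]
  {H : Type*} [NormedAddCommGroup H] [InnerProductSpace ℂ H] [CompleteSpace H]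

/-- a bounded sesquilinear form on a dense range comes from an operator -/
theorem form (j : V →ₗ[ℂ] H) (hj : DenseRange j) (Λ : V → V → ℂ)
    (hl : ∀ a b c, Λ (a + b) c = Λ a c + Λ b c) (hsl : ∀ (z : ℂ) a b, Λ (z • a) b = conj z * Λ a b)
    (hr : ∀ a b c, Λ a (b + c) = Λ a b + Λ a c) (hsr : ∀ (z : ℂ) a b, Λ a (z • b) = z * Λ a b)
    (C : ℝ) (hC : 0 ≤ C) (hΛ : ∀ a b, ‖Λ a b‖ ≤ C * ‖j a‖ * ‖j b‖) :
    ∃ Y : H →L[ℂ] H, ‖Y‖ ≤ C ∧ ∀ a b, ⟪j a, Y (j b)⟫_ℂ = Λ a b := by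
  have h1 : ∀ b, ∃ w : H, (∀ a, ⟪j a, w⟫_ℂ = Λ a b) ∧ ‖w‖ ≤ C * ‖j b‖ := by
    intro b
    let f : V →ₗ[ℂ] ℂ :=
      { toFun := fun a => conj (Λ a b)
        map_add' := fun a a' => by rw [hl, map_add]
        map_smul' := fun z a => by rw [hsl, map_mul]; simp }
    have hf : ∀ a, ‖f a‖ ≤ (C * ‖j b‖) * ‖j a‖ := fun a => by
      change ‖conj (Λ a b)‖ ≤ _
      rw [RCLike.norm_conj]
      exact (hΛ a b).trans_eq (by ring)
    refine ⟨(InnerProductSpace.toDual ℂ H).symm (f.extendOfNorm j), fun a => ?_, ?_⟩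
    · rw [← inner_conj_symm, InnerProductSpace.toDual_symm_apply,
        LinearMap.extendOfNorm_eq hj ⟨_, hf⟩]
      change conj (conj (Λ a b)) = _
      simp
    · rw [LinearIsometryEquiv.norm_map]
      exact LinearMap.opNorm_extendOfNorm_le hj (by positivity) hf
  choose w hw hw' using h1
  let W : V →ₗ[ℂ] H :=
    { toFun := w
      map_add' := fun b c => hj.eq_of_inner_right ℂ fun a => by
        rw [inner_add_right, hw, hw, hw, hr]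
      map_smul' := fun z b => hj.eq_of_inner_right ℂ fun a => by
        rw [inner_smul_right, hw, hw, hsr]; rfl }
  refine ⟨W.extendOfNorm j, LinearMap.opNorm_extendOfNorm_le hj hC hw', fun a b => ?_⟩
  rw [LinearMap.extendOfNorm_eq hj ⟨_, hw'⟩]
  exact hw b a

omit [CompleteSpace H] in
theorem norm_le_of_dense {V : Type*} (j : V → H) (hj : DenseRange j) (S : H →L[ℂ] H) (γ : ℝ)
    (hγ : 0 ≤ γ) (h : ∀ a b, ‖⟪j a, S (j b)⟫_ℂ‖ ≤ γ * ‖j a‖ * ‖j b‖) : ‖S‖ ≤ γ := by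
  have h2 : ∀ ξ η : H, ‖⟪ξ, S η⟫_ℂ‖ ≤ γ * ‖ξ‖ * ‖η‖ := fun ξ η =>
    hj.induction_on₂ (p := fun ξ η => ‖⟪ξ, S η⟫_ℂ‖ ≤ γ * ‖ξ‖ * ‖η‖)
      (isClosed_le (by fun_prop) (by fun_prop)) h ξ η
  refine ContinuousLinearMap.opNorm_le_of_re_inner_le hγ fun x y hx hy => ?_
  have := h2 y x
  rw [hx, hy, mul_one, mul_one, norm_inner_symm] at this
  exact (RCLike.re_le_norm _).trans this

end form

theorem gns {A : Type u} [CStarAlgebra A] (φ : A →ₗ[ℂ] ℂ) (N : A → ℝ) (hN0 : ∀ a, 0 ≤ N a)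
    (hN : ∀ a, φ (star a * a) = ((N a ^ 2 : ℝ) : ℂ)) :
    ∃ (H' : Type u) (_ : NormedAddCommGroup H') (_ : InnerProductSpace ℂ H') (_ : CompleteSpace H')
      (ρ' : A →⋆ₐ[ℂ] (H' →L[ℂ] H')) (ζ' : H'), DenseRange (fun a => ρ' a ζ') ∧
      (∀ a b, ⟪ρ' a ζ', ρ' b ζ'⟫_ℂ = φ (star a * b)) ∧ ∀ a, ‖ρ' a ζ'‖ = N a := by
  letI := CStarAlgebra.spectralOrder A
  haveI := CStarAlgebra.spectralOrderedRing A
  let f : A →ₚ[ℂ] ℂ := PositiveLinearMap.mk₀ φ fun x hx => by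
    obtain ⟨b, hb, rfl⟩ := CStarAlgebra.nonneg_iff_exists_isSelfAdjoint_and_eq_mul_self.mp hx
    have := hN b
    rw [hb.star_eq] at this
    rw [this]
    exact Complex.zero_le_real.2 (sq_nonneg _)
  have e : ∀ a, f.gnsStarAlgHom a ((f.toPreGNS 1 : f.PreGNS) : f.GNS) =
      ((f.toPreGNS a : f.PreGNS) : f.GNS) := by
    intro a
    change f.gnsNonUnitalStarAlgHom a _ = _
    rw [PositiveLinearMap.gnsNonUnitalStarAlgHom_apply_coe]
    simp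
  have i : ∀ a b, ⟪f.gnsStarAlgHom a ((f.toPreGNS 1 : f.PreGNS) : f.GNS),
      f.gnsStarAlgHom b ((f.toPreGNS 1 : f.PreGNS) : f.GNS)⟫_ℂ = φ (star a * b) := by
    intro a b
    rw [e, e, UniformSpace.Completion.inner_coe]
    rfl
  refine ⟨f.GNS, inferInstance, inferInstance, inferInstance, f.gnsStarAlgHom,
    ((f.toPreGNS 1 : f.PreGNS) : f.GNS), ?_, i, fun a => ?_⟩
  · rw [funext e]
    exact UniformSpace.Completion.denseRange_coe (α := f.PreGNS)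
  · rw [← sq_eq_sq₀ (norm_nonneg _) (hN0 a), ← inner_self_eq_norm_sq (𝕜 := ℂ), i, hN]
    exact Complex.ofReal_re _

theorem gnsY {A : Type u} [CStarAlgebra A] (φ : A →ₗ[ℂ] ℂ) (N : A → ℝ) (hN0 : ∀ a, 0 ≤ N a)
    (hN : ∀ a, φ (star a * a) = ((N a ^ 2 : ℝ) : ℂ)) (Λ : A → A → ℂ)
    (hl : ∀ a b c, Λ (a + b) c = Λ a c + Λ b c) (hsl : ∀ (z : ℂ) a b, Λ (z • a) b = conj z * Λ a b)
    (hr : ∀ a b c, Λ a (b + c) = Λ a b + Λ a c) (hsr : ∀ (z : ℂ) a b, Λ a (z • b) = z * Λ a b)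
    (C : ℝ) (hC : 0 ≤ C) (hΛ : ∀ a b, ‖Λ a b‖ ≤ C * N a * N b) :
    ∃ (H' : Type u) (_ : NormedAddCommGroup H') (_ : InnerProductSpace ℂ H') (_ : CompleteSpace H')
      (ρ' : A →⋆ₐ[ℂ] (H' →L[ℂ] H')) (Y' : H' →L[ℂ] H') (ζ' : H'),
      (∀ a b, ⟪ρ' a ζ', ρ' b ζ'⟫_ℂ = φ (star a * b)) ∧ (∀ a, ‖ρ' a ζ'‖ = N a) ∧
      (∀ a b, ⟪ρ' a ζ', Y' (ρ' b ζ')⟫_ℂ = Λ a b) ∧
      ∀ x (γ : ℝ), 0 ≤ γ → (∀ a b, ‖Λ a (x * b) - Λ (star x * a) b‖ ≤ γ * N a * N b) →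
        ‖Y' * ρ' x - ρ' x * Y'‖ ≤ γ := by
  obtain ⟨H', _, _, _, ρ', ζ', hd, h1, h2⟩ := gns φ N hN0 hN
  let j : A →ₗ[ℂ] H' :=
    { toFun := fun a => ρ' a ζ'
      map_add' := fun a b => by rw [map_add]; rfl
      map_smul' := fun z a => by rw [map_smul]; rfl }
  obtain ⟨Y', -, hY⟩ := form j hd Λ hl hsl hr hsr C hC fun a b => by
    change _ ≤ C * ‖ρ' a ζ'‖ * ‖ρ' b ζ'‖
    rw [h2, h2]; exact hΛ a b
  have hY' : ∀ a b, ⟪ρ' a ζ', Y' (ρ' b ζ')⟫_ℂ = Λ a b := hY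
  refine ⟨H', inferInstance, inferInstance, inferInstance, ρ', Y', ζ', h1, h2, hY',
    fun x γ hγ h => norm_le_of_dense _ hd _ γ hγ fun a b => ?_⟩
  rw [h2, h2]
  convert h a b using 2
  rw [← hY', ← hY', map_mul, map_mul, ContinuousLinearMap.sub_apply, inner_sub_right, map_star,
    ContinuousLinearMap.star_eq_adjoint]
  simp only [ContinuousLinearMap.mul_apply, ContinuousLinearMap.adjoint_inner_left]

theorem exists_ulim {I : Type*} (𝔘 : Ultrafilter I) (f : I → ℂ) (R : ℝ) (h : ∀ i, ‖f i‖ ≤ R) :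
    ∃ l, Tendsto f 𝔘 (𝓝 l) := by
  obtain ⟨l, -, hl⟩ := (isCompact_closedBall (0 : ℂ) R).ultrafilter_le_nhds (𝔘.map f) (by
    rw [le_principal_iff, Ultrafilter.coe_map, mem_map]
    exact Eventually.of_forall fun i => by simpa using h i)
  exact ⟨l, hl⟩

end Crest.Agent.KS.Form
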