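import Crest.Agent.KS.Sim
/-! P8a: a dominating trace. -/
set_option autoImplicit false
namespace Crest.Agent.KS
open scoped InnerProductSpace ComplexConjugate
open Filter Topology Crest.Agent.GP

universe u

namespace Trace

variable {A : Type u} [CStarAlgebra A] [PartialOrder A] [StarOrderedRing A]

theorem inv_sqrt {s : A} (hs : 0 ≤ s) {ε : ℝ} (hε : 0 < ε) :
    ∃ r : A, star r = r ∧ r * (s + ε • 1) * r = 1 := by
  have h0 : (0 : A) ≤ ε • 1 := smul_nonneg hε.le zero_le_one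
  have h1 : 0 ≤ s + ε • 1 := add_nonneg hs h0
  have hu : IsUnit (s + ε • (1 : A)) := by
    refine CStarAlgebra.isUnit_of_le (ε • (1 : A)) (le_add_of_nonneg_left hs) ⟨h0, ?_⟩
    rw [← Algebra.algebraMap_eq_smul_one]
    exact (hε.ne'.isUnit).map _
  have hh := CFC.sqrt_mul_sqrt_self (s + ε • (1 : A))
  rw [← hh] at hu
  obtain ⟨v, hv⟩ := ((Commute.refl _).isUnit_mul_iff.1 hu).1
  have sv : star (v : A) = v := by rw [hv]; exact (IsSelfAdjoint.of_nonneg (CFC.sqrt_nonneg _))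
  refine ⟨↑v⁻¹, ?_, ?_⟩
  · have : star (↑v⁻¹ : A) * v = 1 := by rw [← sv, ← star_mul, v.mul_inv, star_one]
    exact (Units.inv_eq_of_mul_eq_one_left this).symm
  · rw [← hh, ← hv, ← mul_assoc, v.inv_mul, one_mul, v.mul_inv]

variable {H : Type u} [NormedAddCommGroup H] [InnerProductSpace ℂ H] [CompleteSpace H]
  (ρ : A →⋆ₐ[ℂ] (H →L[ℂ] H)) (ζ : H)

/-- values of families dominated by `a` -/
def V (a : A) : Set ℝ := {s | ∃ (J : Type) (_ : Fintype J) (x : J → A),
  ∑ j, x j * star (x j) ≤ a ∧ s = ∑ j, ‖ρ (x j) ζ‖ ^ 2}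

noncomputable def t (a : A) : ℝ := sSup (V ρ ζ a)

omit [PartialOrder A] [StarOrderedRing A] in
theorem sq_eq (a : A) : ‖ρ a ζ‖ ^ 2 = (⟪ζ, ρ (star a * a) ζ⟫_ℂ).re := by
  rw [map_mul, map_star, ContinuousLinearMap.mul_apply, ContinuousLinearMap.star_eq_adjoint,
    ContinuousLinearMap.adjoint_inner_right]
  exact (inner_self_eq_norm_sq (𝕜 := ℂ) _).symm

omit [StarOrderedRing A] in
theorem V_zero {a : A} (ha : 0 ≤ a) : 0 ∈ V ρ ζ a :=
  ⟨Empty, inferInstance, Empty.elim, by simpa using ha, by simp⟩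

variable {ρ ζ} {lam : ℝ} (h0 : 0 ≤ lam) (h : ∀ {J : Type} [Fintype J] (y : J → A),
      ∑ j, ‖ρ (y j) ζ‖ ^ 2 ≤ lam * ‖∑ j, y j * star (y j)‖)
include h0 h

theorem V_le {a : A} {s : ℝ} (hs : s ∈ V ρ ζ a) : s ≤ lam * ‖a‖ := by
  obtain ⟨J, _, x, hx, rfl⟩ := hs
  exact (h x).trans (mul_le_mul_of_nonneg_left (CStarAlgebra.norm_le_norm_of_nonneg_of_le
    (Finset.sum_nonneg fun j _ => mul_star_self_nonneg _) hx) h0)

theorem le_t {a : A} {s : ℝ} (hs : s ∈ V ρ ζ a) : s ≤ t ρ ζ a :=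
  le_csSup ⟨_, fun _ => V_le h0 h⟩ hs

omit h0 h [StarOrderedRing A] in
theorem t_le {a : A} (ha : 0 ≤ a) {c : ℝ} (hc : ∀ s ∈ V ρ ζ a, s ≤ c) : t ρ ζ a ≤ c :=
  csSup_le ⟨0, V_zero ρ ζ ha⟩ hc

theorem t_mono {a b : A} (ha : 0 ≤ a) (hab : a ≤ b) : t ρ ζ a ≤ t ρ ζ b :=
  t_le ha fun _ ⟨J, i, x, hx, e⟩ => le_t h0 h ⟨J, i, x, hx.trans hab, e⟩

theorem t_super {a b : A} (ha : 0 ≤ a) (hb : 0 ≤ b) : t ρ ζ a + t ρ ζ b ≤ t ρ ζ (a + b) := by
  rw [← le_sub_iff_add_le]
  refine t_le ha fun s ⟨J, _, x, hx, e⟩ => ?_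
  rw [le_sub_iff_add_le, ← le_sub_iff_add_le']
  refine t_le hb fun s' ⟨J', _, x', hx', e'⟩ => ?_
  rw [le_sub_iff_add_le']
  refine le_t h0 h ⟨J ⊕ J', inferInstance, Sum.elim x x', ?_, ?_⟩
  · simpa only [Fintype.sum_sum_type, Sum.elim_inl, Sum.elim_inr] using add_le_add hx hx'
  · simp only [Fintype.sum_sum_type, Sum.elim_inl, Sum.elim_inr, e, e']

theorem key (d₁ d₂ : A) : t ρ ζ (star d₁ * d₁ + star d₂ * d₂) ≤
    t ρ ζ (d₁ * star d₁) + t ρ ζ (d₂ * star d₂) := by
  have hs : 0 ≤ star d₁ * d₁ + star d₂ * d₂ :=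
    add_nonneg (star_mul_self_nonneg _) (star_mul_self_nonneg _)
  refine t_le hs fun s ⟨J, _, x, hx, e⟩ => le_of_forall_pos_le_add fun δ hδ => ?_
  set ε := δ / (lam + 1) with hε
  have ε0 : 0 < ε := by positivity
  obtain ⟨r, sr, hr⟩ := inv_sqrt hs ε0
  have h1 : ∑ j, r * x j * star (r * x j) ≤ 1 := by
    have : ∑ j, r * x j * star (r * x j) = r * (∑ j, x j * star (x j)) * star r := by
      simp only [Finset.mul_sum, Finset.sum_mul, star_mul, mul_assoc]
    rw [this, ← hr]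
    conv_rhs => enter [2]; rw [← sr]
    exact star_right_conjugate_le_conjugate (hx.trans (le_add_of_nonneg_right
      (smul_nonneg ε0.le zero_le_one))) r
  have h2 : ∀ d : A, ∑ j, ‖ρ (d * (r * x j)) ζ‖ ^ 2 ≤ t ρ ζ (d * star d) := fun d => by
    refine le_t h0 h ⟨J, inferInstance, fun j => d * (r * x j), ?_, rfl⟩
    have : ∑ j, d * (r * x j) * star (d * (r * x j)) =
        d * (∑ j, r * x j * star (r * x j)) * star d := by
      simp only [Finset.mul_sum, Finset.sum_mul, star_mul, mul_assoc]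
    rw [this]
    simpa using star_right_conjugate_le_conjugate h1 d
  have h3 : ∑ j, ‖ρ (r * x j) ζ‖ ^ 2 ≤ lam :=
    (V_le h0 h ⟨J, inferInstance, fun j => r * x j, h1, rfl⟩).trans
      (mul_le_of_le_one_right h0 norm_one_le)
  have h4 : ∀ j, ‖ρ (x j) ζ‖ ^ 2 = ‖ρ (d₁ * (r * x j)) ζ‖ ^ 2 + ‖ρ (d₂ * (r * x j)) ζ‖ ^ 2 +
      ε * ‖ρ (r * x j) ζ‖ ^ 2 := fun j => by
    have : star (x j) * x j = star (d₁ * (r * x j)) * (d₁ * (r * x j)) +
        star (d₂ * (r * x j)) * (d₂ * (r * x j)) + (ε : ℂ) • (star (r * x j) * (r * x j)) := by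
      conv_lhs => rw [← mul_one (star (x j)), ← hr]
      simp only [star_mul, sr, mul_add, add_mul, mul_assoc, Complex.coe_smul, mul_smul_comm,
        smul_mul_assoc, one_mul]
    simp only [sq_eq]
    rw [this]
    simp only [map_add, map_smul, ContinuousLinearMap.add_apply, ContinuousLinearMap.smul_apply,
      inner_add_right, inner_smul_right, Complex.add_re, Complex.re_ofReal_mul]
  have h5 : ε * lam ≤ δ := by
    rw [hε, div_mul_eq_mul_div, div_le_iff₀ (by positivity)]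
    nlinarith
  rw [e]
  simp only [h4, Finset.sum_add_distrib, ← Finset.mul_sum]
  linarith [h2 d₁, h2 d₂, mul_le_mul_of_nonneg_left h3 ε0.le]

theorem t_add {a b : A} (ha : 0 ≤ a) (hb : 0 ≤ b) : t ρ ζ (a + b) = t ρ ζ a + t ρ ζ b := by
  refine le_antisymm ?_ (t_super h0 h ha hb)
  have := key h0 h (CFC.sqrt a) (CFC.sqrt b)
  rwa [(IsSelfAdjoint.of_nonneg (CFC.sqrt_nonneg a)).star_eq,
    (IsSelfAdjoint.of_nonneg (CFC.sqrt_nonneg b)).star_eq, CFC.sqrt_mul_sqrt_self a,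
    CFC.sqrt_mul_sqrt_self b] at this

theorem t_swap (d : A) : t ρ ζ (star d * d) ≤ t ρ ζ (d * star d) := by
  have h1 := key h0 h d 0
  have h2 : t ρ ζ 0 ≤ 0 := t_le le_rfl fun s hs => by simpa using V_le h0 h hs
  simp only [mul_zero, add_zero, star_zero] at h1
  linarith

theorem t_smul_le {a : A} (ha : 0 ≤ a) {c : ℝ} (hc : 0 < c) : c * t ρ ζ a ≤ t ρ ζ (c • a) := by
  rw [← le_div_iff₀' hc]
  refine t_le ha fun s ⟨J, _, x, hx, e⟩ => ?_
  rw [le_div_iff₀' hc]
  refine le_t h0 h ⟨J, inferInstance, fun j => ((√c : ℝ) : ℂ) • x j, ?_, ?_⟩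
  · refine le_trans (le_of_eq ?_) (smul_le_smul_of_nonneg_left hx hc.le)
    simp only [Complex.coe_smul, star_smul, star_trivial, smul_mul_assoc, mul_smul_comm, smul_smul,
      Real.mul_self_sqrt hc.le, Finset.smul_sum]
  · simp only [e, map_smul, ContinuousLinearMap.smul_apply, norm_smul, mul_pow, Complex.norm_real,
      Real.norm_eq_abs, sq_abs, Real.sq_sqrt hc.le, Finset.mul_sum]

theorem t_smul {a : A} (ha : 0 ≤ a) {c : ℝ} (hc : 0 < c) : t ρ ζ (c • a) = c * t ρ ζ a := by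
  refine le_antisymm ?_ (t_smul_le h0 h ha hc)
  have := t_smul_le h0 h (smul_nonneg hc.le ha) (inv_pos.2 hc)
  rwa [smul_smul, inv_mul_cancel₀ hc.ne', one_smul, inv_mul_le_iff₀ hc] at this

theorem lin : ∃ L : A →L[ℂ] ℂ, ∀ a, 0 ≤ a → (L a).re = t ρ ζ a := by
  obtain ⟨L, -, hL⟩ := Sim.mo
    {p : A × ℝ | ∃ a b, 0 ≤ a ∧ 0 ≤ b ∧ p.1 = a - b ∧ p.2 = t ρ ζ a - t ρ ζ b} lam h0
    ⟨0, 0, le_rfl, le_rfl, by simp, by simp⟩ (by
      rintro p ⟨a, b, ha, hb, e1, e2⟩ q ⟨a', b', ha', hb', e1', e2'⟩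
      refine ⟨a + a', b + b', add_nonneg ha ha', add_nonneg hb hb', ?_, ?_⟩
      · rw [Prod.fst_add, e1, e1']; abel
      · rw [Prod.snd_add, e2, e2', t_add h0 h ha ha', t_add h0 h hb hb']; ring) (by
      rintro c hc p ⟨a, b, ha, hb, e1, e2⟩
      refine ⟨c • a, c • b, smul_nonneg hc.le ha, smul_nonneg hc.le hb, ?_, ?_⟩
      · simp only [e1, Complex.coe_smul, smul_sub]
      · simp only [e2, t_smul h0 h ha hc, t_smul h0 h hb hc, mul_sub]) (by
      rintro p ⟨a, b, ha, hb, e1, e2⟩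
      have sa : IsSelfAdjoint (a - b) := (IsSelfAdjoint.of_nonneg ha).sub (.of_nonneg hb)
      have h1 : a - b ≤ (a - b)⁺ := CFC.le_posPart sa
      have h2 := t_mono h0 h ha (sub_le_iff_le_add.1 h1)
      rw [t_add h0 h (CFC.posPart_nonneg _) hb] at h2
      have h3 : t ρ ζ (a - b)⁺ ≤ lam * ‖a - b‖ := t_le (CFC.posPart_nonneg _) fun s hs =>
        (V_le h0 h hs).trans (mul_le_mul_of_nonneg_left (CStarAlgebra.norm_posPart_le _) h0)
      rw [e1, e2]
      linarith)
  have z : t ρ ζ 0 = 0 := by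
    have := t_add h0 h (le_refl (0 : A)) le_rfl
    rw [add_zero] at this
    linarith
  refine ⟨L, fun a ha => le_antisymm ?_ ?_⟩
  · have := hL (-a, -t ρ ζ a) ⟨0, a, le_rfl, ha, by simp, by simp [z]⟩
    simpa using this
  · exact hL (a, t ρ ζ a) ⟨a, 0, ha, le_rfl, by simp, by simp [z]⟩

end Trace

open Trace in
theorem trace : TraceStmt.{u} := by
  intro A _ H _ _ _ ρ ζ lam hζ h
  let := CStarAlgebra.spectralOrder A
  have := CStarAlgebra.spectralOrderedRing A
  have z0 : 0 < ‖ζ‖ ^ 2 := by positivity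
  have h0 : 0 ≤ lam := by
    have := h (J := Unit) fun _ => 1
    simp only [map_one, ContinuousLinearMap.one_apply, Finset.univ_unique, Finset.sum_singleton,
      star_one, mul_one] at this
    by_contra hn
    nlinarith [norm_nonneg (1 : A)]
  obtain ⟨L, hL⟩ := lin h0 h
  have lo : ∀ a, ‖ρ a ζ‖ ^ 2 ≤ t ρ ζ (a * star a) := fun a =>
    le_t h0 h ⟨Unit, inferInstance, fun _ => a, by simp, by simp⟩
  set c := t ρ ζ 1 with hc
  have c0 : 0 < c := by
    have := lo 1
    simp only [map_one, ContinuousLinearMap.one_apply, star_one, mul_one] at this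
    linarith
  have c1 : c ≤ lam := t_le zero_le_one fun s hs =>
    (V_le h0 h hs).trans (mul_le_of_le_one_right h0 norm_one_le)
  let τ : A →ₗ[ℂ] ℂ :=
    { toFun := fun a => (L a + conj (L (star a))) / (2 * c)
      map_add' := fun a b => by simp only [star_add, map_add]; ring
      map_smul' := fun z a => by
        simp only [star_smul, map_smul, smul_eq_mul, map_mul, Complex.star_def, Complex.conj_conj,
          RingHom.id_apply]
        ring }
  have hτ : ∀ a, 0 ≤ a → τ a = ((t ρ ζ a / c : ℝ) : ℂ) := fun a ha => by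
    change (L a + conj (L (star a))) / (2 * c) = _
    rw [(IsSelfAdjoint.of_nonneg ha).star_eq, Complex.add_conj, hL a ha]
    have : (c : ℂ) ≠ 0 := by exact_mod_cast c0.ne'
    push_cast
    field_simp
  have sw : ∀ d, t ρ ζ (star d * d) = t ρ ζ (d * star d) := fun d =>
    le_antisymm (t_swap h0 h d) (by simpa using t_swap h0 h (star d))
  have sw' : ∀ d, τ (star d * d) = τ (d * star d) := fun d => by
    rw [hτ _ (star_mul_self_nonneg d), hτ _ (mul_star_self_nonneg d), sw]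
  let T : Tr A :=
    { τ := τ
      one := by rw [hτ 1 zero_le_one, ← hc, div_self c0.ne', Complex.ofReal_one]
      comm := fun a b => by
        have e1 := sw' (star a + b)
        have e2 := sw' (star a + Complex.I • b)
        have e3 := sw' (star a)
        have e4 := sw' b
        simp only [star_add, star_smul, star_star, add_mul, mul_add, map_add, smul_mul_assoc,
          mul_smul_comm, map_smul, smul_eq_mul, Complex.star_def, Complex.conj_I] at e1 e2 e3
        have i2 := Complex.I_mul_I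
        linear_combination (1 / 2 : ℂ) * e1 - (Complex.I / 2) * e2 - ((1 - Complex.I) / 2) * e3 -
          ((1 - Complex.I) / 2) * e4 + (τ (a * b) / 2 - τ (star b * star a) / 2 -
          τ (b * a) / 2 + τ (star a * star b) / 2 - Complex.I / 2 * τ (star b * b) +
          Complex.I / 2 * τ (b * star b)) * i2
      map_star := fun a => by
        change (L (star a) + conj (L (star (star a)))) / (2 * c) =
          conj ((L a + conj (L (star a))) / (2 * c))
        simp only [star_star, map_div₀, map_add, Complex.conj_conj, map_mul, Complex.conj_ofReal,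
          map_ofNat]
        ring
      pos := fun a => by
        rw [hτ _ (star_mul_self_nonneg a), Complex.ofReal_re, sw]
        exact div_nonneg ((sq_nonneg _).trans (lo a)) c0.le }
  refine ⟨T, fun a => ?_⟩
  refine (pow_le_pow_iff_left₀ (norm_nonneg _)
    (mul_nonneg (Real.sqrt_nonneg _) (T.n_nonneg a)) two_ne_zero).1 ?_
  have e : (T.τ (star a * a)).re = t ρ ζ (a * star a) / c := by
    change (τ (star a * a)).re = _
    rw [hτ _ (star_mul_self_nonneg a), Complex.ofReal_re, sw]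
  have l0 := (sq_nonneg _).trans (lo a)
  rw [mul_pow, Real.sq_sqrt h0, T.n_sq, e]
  refine (lo a).trans ?_
  rw [mul_div_assoc', le_div_iff₀ c0, mul_comm]
  exact mul_le_mul_of_nonneg_right c1 l0

end Crest.Agent.KS
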