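import Crest.Agent.KS.Form
/-! Kadison similarity problem: dominated data extend to the tracial completion (piece `ExtB`). -/
set_option autoImplicit false
set_option linter.deprecated false
namespace Crest.Agent.KS
open scoped InnerProductSpace ComplexConjugate
open Filter Topology Crest.Agent.GP

universe u

namespace ExtB

theorem res_left {A : Type*} [CStarAlgebra A] {s : A} (hs : IsSelfAdjoint s) :
    ∃ R : A, R * (s + Complex.I • 1) = 1 ∧ ‖R‖ ≤ 2 ∧ ‖R + star R‖ ≤ 1 := by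
  have hc : Continuous fun t : ℝ => 1 / (1 + t ^ 2) :=
    continuous_const.div (by fun_prop) fun t => by positivity
  have hp : Continuous fun t : ℝ => t / (1 + t ^ 2) :=
    continuous_id.div (by fun_prop) fun t => by positivity
  set c := cfc (fun t : ℝ => 1 / (1 + t ^ 2)) s with hcd
  set p := cfc (fun t : ℝ => t / (1 + t ^ 2)) s with hpd
  have c1 : ‖c‖ ≤ 1 := norm_cfc_le zero_le_one fun t _ => by
    rw [Real.norm_eq_abs, abs_of_pos (by positivity), div_le_one (by positivity)]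
    nlinarith [sq_nonneg t]
  have p1 : ‖p‖ ≤ 1 / 2 := norm_cfc_le (by norm_num) fun t _ => by
    rw [Real.norm_eq_abs, abs_div, abs_of_pos (show 0 < 1 + t ^ 2 by positivity),
      div_le_iff₀ (by positivity)]
    nlinarith [sq_nonneg (|t| - 1), sq_abs t]
  have e1 : p * s + c = 1 := by
    conv_lhs => enter [1, 2]; rw [← cfc_id' ℝ s]
    rw [hpd, hcd, ← cfc_mul _ _ _ hp.continuousOn (continuousOn_id' _),
      ← cfc_add _ _ _ (hp.fun_mul continuous_id').continuousOn hc.continuousOn, ← cfc_one ℝ s]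
    refine cfc_congr fun t _ => ?_
    have : 0 < 1 + t ^ 2 := by positivity
    simp only [Pi.one_apply]
    field_simp
    ring
  have e2 : c * s = p := by
    conv_lhs => enter [2]; rw [← cfc_id' ℝ s]
    rw [hpd, hcd, ← cfc_mul _ _ _ hc.continuousOn (continuousOn_id' _)]
    refine cfc_congr fun t _ => ?_
    simp only [one_div_mul_eq_div]
  have ps : star p = p := (cfc_predicate _ s : IsSelfAdjoint p).star_eq
  have cs : star c = c := (cfc_predicate _ s : IsSelfAdjoint c).star_eq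
  refine ⟨p - Complex.I • c, ?_, ?_, ?_⟩
  · rw [sub_mul, mul_add, mul_add, smul_mul_assoc, e2, mul_smul_comm, mul_one, smul_mul_smul_comm,
      Complex.I_mul_I, mul_one, ← e1]
    module
  · refine (norm_sub_le _ _).trans ?_
    rw [norm_smul, Complex.norm_I]; linarith
  · have : p - Complex.I • c + star (p - Complex.I • c) = (2 : ℂ) • p := by
      rw [star_sub, star_smul, ps, cs, RCLike.star_def, Complex.conj_I]; module
    rw [this, norm_smul]
    simp only [Complex.norm_ofNat]; linarith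

theorem res_right {A : Type*} [CStarAlgebra A] {x : A} (hx : IsSelfAdjoint x) (h1 : ‖x‖ ≤ 1) :
    ∃ s R : A, IsSelfAdjoint s ∧ (s + Complex.I • 1) * R = 1 ∧ R + star R = x := by
  have hm : Continuous fun t : ℝ => 1 + √(1 - t ^ 2) := by fun_prop
  have hs : Continuous fun t : ℝ => t / (1 + √(1 - t ^ 2)) :=
    continuous_id.div hm fun t => by positivity
  set m := cfc (fun t : ℝ => 1 + √(1 - t ^ 2)) x with hmd
  set s := cfc (fun t : ℝ => t / (1 + √(1 - t ^ 2))) x with hsd
  have e1 : s * x + m = (2 : ℂ) • 1 := by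
    conv_lhs => enter [1, 2]; rw [← cfc_id' ℝ x]
    rw [hsd, hmd, ← cfc_mul _ _ _ hs.continuousOn (continuousOn_id' _),
      ← cfc_add _ _ _ (hs.fun_mul continuous_id').continuousOn hm.continuousOn, two_smul,
      ← cfc_one ℝ x, ← cfc_add ..]
    refine cfc_congr fun t ht => ?_
    have h2 : |t| ≤ 1 := by
      rcases subsingleton_or_nontrivial A with h | h
      · rw [spectrum.of_subsingleton] at ht; exact ht.elim
      · exact (spectrum.norm_le_norm_of_mem ht).trans h1
    have h3 : 0 ≤ 1 - t ^ 2 := by nlinarith [sq_abs t, abs_nonneg t]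
    have h4 := Real.sq_sqrt h3
    have : 0 < 1 + √(1 - t ^ 2) := by positivity
    simp only [Pi.one_apply]
    field_simp
    nlinarith
  have e2 : s * m = x := by
    conv_rhs => rw [← cfc_id' ℝ x]
    rw [hsd, hmd, ← cfc_mul _ _ _ hs.continuousOn hm.continuousOn]
    refine cfc_congr fun t _ => ?_
    have : 0 < 1 + √(1 - t ^ 2) := by positivity
    field_simp
  have ms : star m = m := (cfc_predicate _ x : IsSelfAdjoint m).star_eq
  refine ⟨s, (1 / 2 : ℂ) • (x - Complex.I • m), cfc_predicate _ x, ?_, ?_⟩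
  · rw [mul_smul_comm, add_mul, mul_sub, mul_sub, mul_smul_comm, e2, smul_mul_assoc, one_mul,
      smul_mul_smul_comm, Complex.I_mul_I, one_mul]
    have : s * x = (2 : ℂ) • 1 - m := by rw [← e1]; abel
    rw [this]; module
  · rw [star_smul, star_sub, star_smul, ms, hx.star_eq]
    simp only [RCLike.star_def, Complex.conj_I, map_div₀, map_one, map_ofNat]
    module

/-- Kaplansky density in the 2-norm -/
theorem kap {A M : Type*} [CStarAlgebra A] [CStarAlgebra M] (T' : Tr M) (π : A →⋆ₐ[ℂ] M)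
    (hd : ∀ y, ∀ ε > 0, ∃ a, T'.n (π a - y) < ε) {x : M} (hx : IsSelfAdjoint x) (h1 : ‖x‖ ≤ 1)
    (ε : ℝ) (hε : 0 < ε) : ∃ a : A, star a = a ∧ ‖a‖ ≤ 1 ∧ T'.n (π a - x) ≤ ε := by
  obtain ⟨s, R, hs, hR, hRx⟩ := res_right hx h1
  obtain ⟨a, ha⟩ := hd s (ε / (4 * (‖R‖ + 1))) (by positivity)
  have hb : IsSelfAdjoint ((1 / 2 : ℂ) • (a + star a)) := by
    rw [IsSelfAdjoint, star_smul, star_add, star_star, add_comm]; simp
  set b := (1 / 2 : ℂ) • (a + star a) with hbd
  have hb2 : T'.n (s - π b) ≤ ε / (4 * (‖R‖ + 1)) := by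
    have : π b - s = (1 / 2 : ℂ) • ((π a - s) + star (π a - s)) := by
      rw [hbd, map_smul, map_add, map_star, star_sub, hs.star_eq]; module
    rw [T'.n_sub_rev, this, T'.n_smul]
    have h2 := T'.n_add_le (π a - s) (star (π a - s))
    rw [T'.n_star] at h2
    have h7 : ‖(1 / 2 : ℂ)‖ = 1 / 2 := by simp
    rw [h7]; linarith
  obtain ⟨Q, hQ, hQ1, hQ2⟩ := res_left hb
  refine ⟨Q + star Q, by rw [star_add, star_star, add_comm], hQ2, ?_⟩
  have hQ' : π Q * (π b + Complex.I • 1) = 1 := by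
    have := congrArg π hQ
    rwa [map_mul, map_add, map_smul π Complex.I, map_one] at this
  have e : π Q - R = π Q * (s - π b) * R := by
    have : s - π b = (s + Complex.I • 1) - (π b + Complex.I • 1) := by abel
    rw [this, mul_sub, sub_mul, hQ', mul_assoc, hR, mul_one, one_mul]
  have h3 : T'.n (π Q - R) ≤ 2 * (ε / (4 * (‖R‖ + 1))) * ‖R‖ := by
    rw [e]
    exact T'.n_r (T'.n_l ((NonUnitalStarAlgHom.norm_apply_le π Q).trans hQ1) hb2) le_rfl
  have e2 : π (Q + star Q) - x = (π Q - R) + star (π Q - R) := by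
    rw [← hRx, map_add, map_star, star_sub]; abel
  have h2 := T'.n_add_le (π Q - R) (star (π Q - R))
  rw [T'.n_star, ← e2] at h2
  have h4 : 2 * (ε / (4 * (‖R‖ + 1))) * ‖R‖ ≤ ε / 2 := by
    have := norm_nonneg R
    rw [show 2 * (ε / (4 * (‖R‖ + 1))) * ‖R‖ = ε / 2 * (‖R‖ / (‖R‖ + 1)) by field_simp; ring]
    exact mul_le_of_le_one_right (by positivity) ((div_le_one (by positivity)).2 (by linarith))
  linarith

end ExtB

open ExtB in
theorem extB : ExtBStmt.{u} := by
  intro A M _ _ T T' π hτ hd ι _ _ E o H _ _ _ ρ Y g ζ lam hx hdom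
  have hn : ∀ a, T'.n (π a) = T.n a := fun a => by
    rw [← sq_eq_sq₀ (T'.n_nonneg _) (T.n_nonneg _), T'.n_sq, T.n_sq, ← hτ, map_mul π, map_star π]
  have lam0 : 0 ≤ lam := by simpa using (norm_nonneg _).trans (hdom 1)
  let j : A →ₗ[ℂ] T'.L2 := T'.ι.toLinearMap ∘ₗ π.toLinearMap
  have hj : DenseRange j := by
    refine Metric.denseRange_iff.2 fun y ε hε => ?_
    obtain ⟨a, ha⟩ := hd (T'.ι.symm y) ε hε
    refine ⟨a, ?_⟩
    rw [dist_comm]
    exact (T'.dist_ι (π a) (T'.ι.symm y)).trans_lt ha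
  let f : A →ₗ[ℂ] H :=
    { toFun := fun a => ρ a ζ
      map_add' := fun a b => by rw [map_add]; rfl
      map_smul' := fun z a => by rw [map_smul]; rfl }
  have hf : ∀ a, ‖f a‖ ≤ lam * ‖j a‖ := fun a => (hdom a).trans_eq (by rw [← hn]; rfl)
  let V : M →ₗ[ℂ] H := (f.extendOfNorm j).toLinearMap ∘ₗ T'.ι.toLinearMap
  have hV : ∀ a, V (π a) = ρ a ζ := fun a => LinearMap.extendOfNorm_eq hj ⟨_, hf⟩ a
  have hVn : ∀ y, ‖V y‖ ≤ lam * T'.n y := fun y =>
    LinearMap.norm_extendOfNorm_apply_le hj lam hf (T'.ι y)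
  -- density principle
  have dens : ∀ {F : Type u} [NormedAddCommGroup F] (P : M →+ F) (K : ℝ),
      (∀ y, ‖P y‖ ≤ K * T'.n y) → (∀ a, P (π a) = 0) → ∀ y, P y = 0 := by
    intro F _ P K hP h0 y
    refine norm_le_zero_iff.1 (le_of_forall_pos_le_add fun ε hε => ?_)
    obtain ⟨a, ha⟩ := hd y (ε / (|K| + 1)) (by positivity)
    have h1 := hP (π a - y)
    rw [map_sub, h0, zero_sub, norm_neg] at h1
    have h2 := T'.n_nonneg (π a - y)
    have h3 : K * T'.n (π a - y) ≤ (|K| + 1) * (ε / (|K| + 1)) :=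
      mul_le_mul (by linarith [le_abs_self K]) ha.le h2 (by positivity)
    rw [mul_div_cancel₀ _ (by positivity)] at h3
    linarith
  have hVl : ∀ a y, V (π a * y) = ρ a (V y) := by
    intro a y
    let P : M →+ H :=
      { toFun := fun y => V (π a * y) - ρ a (V y)
        map_zero' := by simp
        map_add' := fun y z => by simp only [mul_add, map_add]; abel }
    refine sub_eq_zero.1 (dens P (lam * ‖π a‖ + ‖ρ a‖ * lam) (fun y => ?_) (fun b => ?_) y)
    · refine (norm_sub_le _ _).trans ?_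
      have h1 := (hVn (π a * y)).trans (mul_le_mul_of_nonneg_left (T'.n_mul_le _ _) lam0)
      have h2 := ((ρ a).le_opNorm (V y)).trans (mul_le_mul_of_nonneg_left (hVn y) (norm_nonneg _))
      linarith
    · change V (π a * π b) - ρ a (V (π b)) = 0
      rw [← map_mul, hV, hV, map_mul, ContinuousLinearMap.mul_apply, sub_self]
  have hV1 : V 1 = ζ := by simpa using hV 1
  have hinn : ∀ y z, ⟪V y, V z⟫_ℂ = ⟪ζ, V (star y * z)⟫_ℂ := by
    intro y z
    let P : M →+ ULift.{u} ℂ :=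
      { toFun := fun y => ULift.up (⟪V y, V z⟫_ℂ - ⟪ζ, V (star y * z)⟫_ℂ)
        map_zero' := by simp; rfl
        map_add' := fun y y' => by
          apply ULift.ext
          simp only [star_add, add_mul, map_add, inner_add_left, inner_add_right, ULift.add_down]
          ring }
    have := dens P (lam * ‖V z‖ + ‖ζ‖ * (lam * ‖z‖)) (fun y => ?_) (fun b => ?_) y
    · exact sub_eq_zero.1 (congrArg ULift.down this)
    · change ‖⟪V y, V z⟫_ℂ - ⟪ζ, V (star y * z)⟫_ℂ‖ ≤ _
      refine (norm_sub_le _ _).trans ?_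
      have h1 := (norm_inner_le_norm (𝕜 := ℂ) (V y) (V z)).trans
        (mul_le_mul_of_nonneg_right (hVn y) (norm_nonneg _))
      have h2 := (norm_inner_le_norm (𝕜 := ℂ) ζ (V (star y * z))).trans
        (mul_le_mul_of_nonneg_left ((hVn _).trans
          (mul_le_mul_of_nonneg_left (T'.n_mul_le' (star y) z) lam0)) (norm_nonneg _))
      rw [T'.n_star] at h2
      linarith
    · apply ULift.ext
      change ⟪V (π b), V z⟫_ℂ - ⟪ζ, V (star (π b) * z)⟫_ℂ = 0
      rw [← map_star, hVl, hV, map_star, ContinuousLinearMap.star_eq_adjoint,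
        ContinuousLinearMap.adjoint_inner_right, sub_self]
  let φ : M →ₗ[ℂ] ℂ := (innerSL ℂ ζ).toLinearMap ∘ₗ V
  have hφ : ∀ y z, φ (star y * z) = ⟪V y, V z⟫_ℂ := fun y z => (hinn y z).symm
  have hS : ∀ (S : H →L[ℂ] H) (γ : ℝ), ‖S‖ ≤ γ → ∀ a b : H, ‖⟪a, S b⟫_ℂ‖ ≤ γ * ‖a‖ * ‖b‖ :=
    fun S γ hγ a b => (norm_inner_le_norm _ _).trans ((mul_le_mul_of_nonneg_left
      ((S.le_opNorm _).trans (mul_le_mul_of_nonneg_right hγ (norm_nonneg _)))
      (norm_nonneg _)).trans_eq (by ring))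
  obtain ⟨H', _, _, _, ρ', Y', ζ', h1, h2, h3, h4⟩ := Form.gnsY φ (fun y => ‖V y‖)
    (fun _ => norm_nonneg _) (fun y => by rw [hφ, inner_self_eq_norm_sq_to_K]; simp)
    (fun y z => ⟪V y, Y (V z)⟫_ℂ) (fun a b c => by rw [map_add, inner_add_left])
    (fun z a b => by rw [map_smul, inner_smul_left])
    (fun a b c => by rw [map_add, map_add, inner_add_right])
    (fun z a b => by rw [map_smul, map_smul, inner_smul_right]) ‖Y‖ (norm_nonneg _)
    (fun a b => hS Y _ le_rfl _ _)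
  have h5 : ∀ (x : A) (γ : ℝ), ‖Y * ρ x - ρ x * Y‖ ≤ γ → ∀ a b : M,
      ‖⟪V a, Y (V (π x * b))⟫_ℂ - ⟪V (star (π x) * a), Y (V b)⟫_ℂ‖ ≤ γ * ‖V a‖ * ‖V b‖ := by
    intro x γ hγ a b
    convert hS _ γ hγ (V a) (V b) using 2
    rw [← map_star, hVl, hVl, map_star, ContinuousLinearMap.star_eq_adjoint,
      ContinuousLinearMap.adjoint_inner_left, ContinuousLinearMap.sub_apply, inner_sub_right]
    rfl
  refine ⟨H', inferInstance, inferInstance, inferInstance, ρ', Y', ζ',
    ⟨hx.g0, fun i j => ?_, fun x x1 x2 x3 => h4 x g hx.g0 fun a b => ?_⟩,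
    fun y => (h2 y).trans_le (hVn y), fun a b => by rw [h1, hφ, hV, hV],
    fun a b => by rw [h3, hV, hV]⟩
  · have := h4 (π (E.e i j)) 0 le_rfl (h5 _ 0 (by rw [hx.comm, sub_self, norm_zero]))
    exact sub_eq_zero.1 (norm_le_zero_iff.1 this)
  · have he : star (E.e o o) = E.e o o := E.star_e o o
    have hee : E.e o o * E.e o o = E.e o o := by rw [E.mul_e, if_pos rfl]
    have he1 : ‖E.e o o‖ ≤ 1 := by
      have h2 := CStarRing.norm_star_mul_self (x := E.e o o)
      rw [he, hee] at h2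
      nlinarith [norm_nonneg (E.e o o)]
    have hπ1 : ‖π (E.e o o)‖ ≤ 1 := (NonUnitalStarAlgHom.norm_apply_le π _).trans he1
    have x2' : π (E.e o o) * x = x := x2
    have x4 : x * π (E.e o o) = x := by
      have := congrArg star x2'
      rwa [star_mul, x1, ← map_star, he] at this
    set K := ‖V a‖ * ‖Y‖ * lam * ‖b‖ + lam * ‖a‖ * (‖Y‖ * ‖V b‖) with hK
    have K0 : 0 ≤ K := by positivity
    refine le_of_forall_pos_le_add fun ε hε => ?_
    obtain ⟨c, c1, c2, c3⟩ := kap T' π hd (x := x) x1 x3 (ε / (K + 1)) (by positivity)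
    set c' := E.e o o * c * E.e o o with hc'
    have d1 : star c' = c' := by rw [hc', star_mul, star_mul, he, c1, mul_assoc]
    have d2 : E.e o o * c' = c' := by rw [hc', ← mul_assoc, ← mul_assoc, hee]
    have d3 : ‖c'‖ ≤ 1 := norm_mul_one' (norm_mul_one' he1 c2) he1
    have d4 : T'.n (x - π c') ≤ ε / (K + 1) := by
      have : π c' - x = π (E.e o o) * (π c - x) * π (E.e o o) := by
        rw [hc', map_mul, map_mul, mul_sub, sub_mul, x2', x4]
      rw [T'.n_sub_rev, this]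
      exact (T'.n_r1 _ hπ1).trans ((T'.n_l1 hπ1 _).trans c3)
    have d5 := h5 c' g (hx.lev c' d1 d2 d3) a b
    rw [← map_star, d1] at d5
    rw [x1]
    set δ := T'.n (x - π c') with hδ
    have δ0 : 0 ≤ δ := T'.n_nonneg _
    have e : ⟪V a, Y (V (x * b))⟫_ℂ - ⟪V (x * a), Y (V b)⟫_ℂ =
        (⟪V a, Y (V (π c' * b))⟫_ℂ - ⟪V (π c' * a), Y (V b)⟫_ℂ) +
        (⟪V a, Y (V ((x - π c') * b))⟫_ℂ - ⟪V ((x - π c') * a), Y (V b)⟫_ℂ) := by
      simp only [sub_mul, map_sub, inner_sub_left, inner_sub_right]; ring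
    have b1 : ‖V ((x - π c') * b)‖ ≤ lam * (δ * ‖b‖) :=
      (hVn _).trans (mul_le_mul_of_nonneg_left (T'.n_mul_le' _ _) lam0)
    have b2 : ‖V ((x - π c') * a)‖ ≤ lam * (δ * ‖a‖) :=
      (hVn _).trans (mul_le_mul_of_nonneg_left (T'.n_mul_le' _ _) lam0)
    have b3 := (hS Y _ le_rfl (V a) (V ((x - π c') * b))).trans
      (mul_le_mul_of_nonneg_left b1 (by positivity))
    have b4 := (hS Y _ le_rfl (V ((x - π c') * a)) (V b)).trans
      (mul_le_mul_of_nonneg_right (mul_le_mul_of_nonneg_left b2 (norm_nonneg _)) (norm_nonneg _))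
    have b5 : K * δ ≤ ε := by
      have : K * δ ≤ (K + 1) * (ε / (K + 1)) := mul_le_mul (by linarith) d4 δ0 (by positivity)
      rwa [mul_div_cancel₀ _ (by positivity)] at this
    rw [e]
    refine (norm_add_le _ _).trans (add_le_add d5 ((norm_sub_le _ _).trans ?_))
    calc _ ≤ ‖Y‖ * ‖V a‖ * (lam * (δ * ‖b‖)) + ‖Y‖ * (lam * (δ * ‖a‖)) * ‖V b‖ := add_le_add b3 b4
      _ = K * δ := by rw [hK]; ring
      _ ≤ ε := b5

end Crest.Agent.KS
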