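import Crest.Agent.KS.Defs
/-! The little Grothendieck inequality. -/
set_option autoImplicit false
namespace Crest.Agent.KS
open scoped InnerProductSpace ComplexConjugate
open Filter Topology Crest.Agent.GP

universe u v

namespace GT
variable {B : Type*} [CStarAlgebra B]

theorem unit_pair {k : B} (hk : star k = k) (h1 : ‖k‖ ≤ 1) : ∃ m : B, star m = m ∧
    m * m = 1 - k * k ∧ (∀ y, k * y = y * k → m * y = y * m) ∧ ‖1 - m‖ ≤ ‖k‖ ^ 2 := by
  nontriviality B
  have hsa : IsSelfAdjoint k := hk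
  have hsp : ∀ s ∈ spectrum ℝ k, s * s ≤ ‖k‖ ^ 2 := fun s hs => by
    have := spectrum.norm_le_norm_of_mem hs
    rw [← sq, ← sq_abs]
    exact pow_le_pow_left₀ (abs_nonneg _) this 2
  have h2 : ‖k‖ ^ 2 ≤ 1 := pow_le_one₀ (norm_nonneg _) h1
  refine ⟨cfc (fun s : ℝ => √(1 - s * s)) k, IsSelfAdjoint.star_eq (cfc_predicate _ k), ?_,
    fun y hy => Commute.cfc_real hy _, ?_⟩
  · rw [← cfc_mul _ _ k, cfc_congr (g := fun s => 1 - s * s) fun s hs =>
      Real.mul_self_sqrt (by linarith [hsp s hs]), cfc_sub _ _ k, cfc_mul _ _ k, cfc_id' ℝ k,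
      cfc_const_one ℝ k]
  · rw [← cfc_const_one ℝ k, ← cfc_sub _ _ k]
    refine norm_cfc_le (by positivity) fun s hs => ?_
    have h3 := hsp s hs
    have h4 : 0 ≤ 1 - s * s := by linarith
    have h5 := Real.mul_self_sqrt h4
    have h6 := Real.sqrt_nonneg (1 - s * s)
    have h7 : √(1 - s * s) ≤ 1 := Real.sqrt_le_one.mpr (by nlinarith)
    rw [Real.norm_of_nonneg (by linarith)]
    nlinarith

theorem unit_of {k m : B} (hk : star k = k) (hm : star m = m) (h : m * m = 1 - k * k)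
    (hc : m * k = k * m) {c : ℂ} (h1 : star c = -c) (h2 : c * c = -1) : m + c • k ∈ unitary B := by
  rw [Unitary.mem_iff]
  simp only [star_add, star_smul, hk, hm, h1, add_mul, mul_add, smul_mul_assoc, mul_smul_comm,
    smul_add, smul_smul, h, hc, mul_neg, neg_mul, h2]
  constructor <;> module

variable {H : Type*} [NormedAddCommGroup H] [InnerProductSpace ℂ H]

theorem step (T : B →ₗ[ℂ] H) {K M : ℝ} (hK : 0 ≤ K) (hT : ∀ b, ‖T b‖ ≤ K * ‖b‖)
    (hM : ∀ u ∈ unitary B, ‖T u‖ ^ 2 ≤ M) {u k : B} (hu : u ∈ unitary B) (hk : star k = k)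
    (h1 : ‖k‖ ≤ 1) :
    ‖T (u * k)‖ ^ 2 ≤ M - ‖T u‖ ^ 2 + (⟪T u, T (u * (k * k))⟫_ℂ).re + K ^ 2 * ‖k‖ ^ 4 := by
  obtain ⟨m, hm, hmm, hc, hn⟩ := unit_pair hk h1
  have u1 := hM _ (mul_mem hu (unit_of hk hm hmm (hc k rfl) (c := Complex.I) (by simp) (by simp)))
  have u2 := hM _ (mul_mem hu (unit_of hk hm hmm (hc k rfl) (c := -Complex.I) (by simp) (by simp)))
  rw [mul_add, mul_smul_comm, map_add, map_smul] at u1 u2
  rw [neg_smul, ← sub_eq_add_neg] at u2
  have par := parallelogram_law_with_norm ℂ (T (u * m)) (Complex.I • T (u * k))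
  rw [norm_smul, Complex.norm_I, one_mul] at par
  have e : T (u * m) = T u - (1 / 2 : ℂ) • (T (u * (k * k)) + T (u * ((1 - m) * (1 - m)))) := by
    rw [← map_add, ← map_smul, ← map_sub]
    congr 1
    have : k * k = 1 - m * m := by rw [hmm]; abel
    rw [this]
    simp only [mul_sub, sub_mul, mul_one, one_mul]
    module
  have h2 := norm_sub_sq (𝕜 := ℂ) (T u) ((1 / 2 : ℂ) • (T (u * (k * k)) + T (u * ((1 - m) * (1 - m)))))
  rw [← e, inner_smul_right, inner_add_right] at h2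
  have hu1 := norm_unit hu
  have h3 : ‖T u‖ ≤ K := by nlinarith [hT u]
  have h4 : ‖T (u * ((1 - m) * (1 - m)))‖ ≤ K * ‖k‖ ^ 4 := (hT _).trans
    (mul_le_mul_of_nonneg_left ((norm_mul_le' hu1 (norm_mul_le' hn hn)).trans_eq (by ring)) hK)
  have h5 : (⟪T u, T (u * ((1 - m) * (1 - m)))⟫_ℂ).re ≤ K ^ 2 * ‖k‖ ^ 4 :=
    (Complex.re_le_norm _).trans ((norm_inner_le_norm _ _).trans
      ((mul_le_mul h3 h4 (norm_nonneg _) hK).trans_eq (by ring)))
  have h6 : RCLike.re ((1 / 2 : ℂ) * (⟪T u, T (u * (k * k))⟫_ℂ +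
      ⟪T u, T (u * ((1 - m) * (1 - m)))⟫_ℂ)) = 1 / 2 * ((⟪T u, T (u * (k * k))⟫_ℂ).re +
      (⟪T u, T (u * ((1 - m) * (1 - m)))⟫_ℂ).re) := by simp
  rw [h6] at h2
  nlinarith [sq_nonneg ‖(1 / 2 : ℂ) • (T (u * (k * k)) + T (u * ((1 - m) * (1 - m))))‖]

theorem step' (T : B →ₗ[ℂ] H) {K M : ℝ} (hK : 0 ≤ K) (hT : ∀ b, ‖T b‖ ≤ K * ‖b‖)
    (hM : ∀ u ∈ unitary B, ‖T u‖ ^ 2 ≤ M) {u h : B} (hu : u ∈ unitary B) (hh : star h = h)
    {t R : ℝ} (ht : 0 < t) (hR : ‖h‖ ≤ R) (htR : t * R ≤ 1) (hu' : M - t ^ 4 ≤ ‖T u‖ ^ 2) :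
    ‖T (u * h)‖ ^ 2 ≤ (⟪T u, T (u * (h * h))⟫_ℂ).re + t ^ 2 * (1 + K ^ 2 * R ^ 4) := by
  have hn : ‖(t : ℂ) • h‖ ≤ t * R := by
    rw [norm_smul, Complex.norm_real, Real.norm_of_nonneg ht.le]
    exact mul_le_mul_of_nonneg_left hR ht.le
  have := step T hK hT hM hu (k := (t : ℂ) • h) (by simp [hh]) (hn.trans htR)
  have h2 : K ^ 2 * ‖(t : ℂ) • h‖ ^ 4 ≤ K ^ 2 * (t * R) ^ 4 :=
    mul_le_mul_of_nonneg_left (pow_le_pow_left₀ (norm_nonneg _) hn 4) (sq_nonneg _)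
  simp only [mul_smul_comm, smul_mul_assoc, map_smul, inner_smul_right, Complex.re_ofReal_mul,
    norm_smul (t : ℂ) (T _), Complex.norm_real, Real.norm_of_nonneg ht.le] at this
  refine le_of_mul_le_mul_left ?_ (pow_pos ht 2)
  nlinarith

end GT
open GT

theorem gt : GTStmt.{u, v} := by
  intro B _ H _ _ T K hK hT J _ a ha
  have hb : BddAbove (Set.range fun u : unitary B => ‖T u‖ ^ 2) := ⟨K ^ 2, by
    rintro _ ⟨u, rfl⟩
    refine pow_le_pow_left₀ (norm_nonneg _) ?_ 2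
    nlinarith [hT u, norm_unit u.2]⟩
  set M := ⨆ u : unitary B, ‖T u‖ ^ 2
  have hM : ∀ u ∈ unitary B, ‖T u‖ ^ 2 ≤ M := fun u hu => le_ciSup hb ⟨u, hu⟩
  set R := ∑ j, ‖a j‖ + 1
  have hR : ∀ j, ‖a j‖ ≤ R := fun j =>
    (Finset.single_le_sum (f := fun j => ‖a j‖) (fun _ _ => norm_nonneg _)
      (Finset.mem_univ j)).trans (le_add_of_nonneg_right zero_le_one)
  have hR0 : 0 < R := by positivity
  have key : ∀ t : ℝ, 0 < t → t * R ≤ 1 → ∑ j, ‖T (a j)‖ ^ 2 ≤ 2 * K ^ 2 * ‖∑ j, a j * a j‖ +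
      t ^ 2 * (4 * Fintype.card J * (1 + K ^ 2 * R ^ 4)) := fun t ht htR => by
    obtain ⟨⟨u, hu⟩, hu'⟩ := exists_lt_of_lt_ciSup (show M - t ^ 4 < M by
      have := pow_pos ht 4; linarith)
    have hu1 := norm_unit hu
    have hu2 : ‖star u‖ ≤ 1 := by rwa [norm_star]
    have one : ∀ j, ‖T (a j)‖ ^ 2 ≤ (⟪T u, T (u * (a j * a j) + a j * a j * u)⟫_ℂ).re +
        t ^ 2 * (4 * (1 + K ^ 2 * R ^ 4)) := fun j => by
      obtain ⟨b, c, hb, hc, hb1, hc1, e, -, -⟩ := Tr.decomp (star u * a j)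
      have hn : ‖star u * a j‖ ≤ R := by simpa using norm_mul_le' hu2 (hR j)
      have s1 := step' T hK hT hM hu hb ht (hb1.trans hn) htR hu'.le
      have s2 := step' T hK hT hM hu hc ht (hc1.trans hn) htR hu'.le
      have e1 : a j = u * b + Complex.I • (u * c) := by
        rw [← mul_smul_comm, ← mul_add, ← e, ← mul_assoc, hu.2, one_mul]
      have e2 : a j * u = b - Complex.I • c := by
        have := congrArg star e
        simpa [ha j, hb, hc, sub_eq_add_neg] using this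
      have e3 : u * (a j * a j) + a j * a j * u = (2 : ℂ) • (u * (b * b) + u * (c * c)) := by
        have f1 : a j * a j = (b - Complex.I • c) * (b + Complex.I • c) := by
          rw [← e, ← e2, mul_assoc, ← mul_assoc u, hu.2, one_mul]
        have f2 : a j * a j * u = u * ((b + Complex.I • c) * (b - Complex.I • c)) := by
          rw [← e, ← e2, ← mul_assoc, ← mul_assoc, ← mul_assoc, hu.2, one_mul]
        rw [f2, f1]
        simp only [mul_add, add_mul, mul_sub, sub_mul, smul_mul_assoc, mul_smul_comm, smul_add,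
          smul_sub, smul_smul, Complex.I_mul_I]
        module
      have par := parallelogram_law_with_norm ℂ (T (u * b)) (Complex.I • T (u * c))
      rw [norm_smul, Complex.norm_I, one_mul, ← map_smul, ← map_add, ← e1] at par
      rw [e3, map_smul, map_add, inner_smul_right, inner_add_right]
      simp only [Complex.mul_re, Complex.re_ofNat, Complex.im_ofNat, zero_mul, sub_zero,
        Complex.add_re]
      nlinarith [mul_self_nonneg ‖T (u * b) - T (Complex.I • (u * c))‖]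
    refine (Finset.sum_le_sum fun j _ => one j).trans ?_
    rw [Finset.sum_add_distrib, ← Complex.re_sum, ← inner_sum, ← map_sum, Finset.sum_add_distrib,
      ← Finset.mul_sum, ← Finset.sum_mul, Finset.sum_const, Finset.card_univ, nsmul_eq_mul]
    set s := ∑ j, a j * a j
    have h3 : ‖T u‖ ≤ K := by nlinarith [hT u]
    have h4 : ‖u * s + s * u‖ ≤ 2 * ‖s‖ := by
      linarith [norm_add_le (u * s) (s * u), norm_mul_le' hu1 (le_refl ‖s‖),
        norm_mul_le' (le_refl ‖s‖) hu1]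
    have h5 := (Complex.re_le_norm _).trans ((norm_inner_le_norm (𝕜 := ℂ) (T u) _).trans
      (mul_le_mul h3 ((hT _).trans (mul_le_mul_of_nonneg_left h4 hK)) (norm_nonneg _) hK))
    nlinarith
  have lim : Tendsto (fun t : ℝ => 2 * K ^ 2 * ‖∑ j, a j * a j‖ +
      t ^ 2 * (4 * Fintype.card J * (1 + K ^ 2 * R ^ 4))) (𝓝[>] 0)
      (𝓝 (2 * K ^ 2 * ‖∑ j, a j * a j‖)) :=
    (Continuous.tendsto' (by fun_prop) _ _ (by simp)).mono_left nhdsWithin_le_nhds
  refine ge_of_tendsto lim ?_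
  filter_upwards [Ioc_mem_nhdsGT (inv_pos.mpr hR0)] with t ht
  exact key t ht.1 (by rw [← le_div_iff₀ hR0, one_div]; exact ht.2)

end Crest.Agent.KS
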