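import Crest.Agent.KS.Defs
/-! Core, part 1: averages over independent blocks. -/
set_option autoImplicit false
namespace Crest.Agent.KS.Core
open scoped InnerProductSpace ComplexConjugate BigOperators
open Finset Function

theorem exp_cons {Ω : Type} [Fintype Ω] {N : ℕ} (F : (Fin (N + 1) → Ω) → ℂ) :
    𝔼 ω, F ω = 𝔼 x : Ω, 𝔼 ω : Fin N → Ω, F (Fin.cons x ω) := by
  rw [← expect_product' univ univ (fun (x : Ω) (ω : Fin N → Ω) => F (Fin.cons x ω)), univ_product_univ]
  exact (Fintype.expect_equiv (Fin.consEquiv fun _ => Ω) _ _ fun p => rfl).symm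

theorem hybrid {B : Type*} {Ω₁ Ω₂ : Type} [Fintype Ω₁] [Fintype Ω₂] (N : ℕ) :
    ∀ (d₁ : Fin N → Ω₁ → B) (d₂ : Fin N → Ω₂ → B) (Φ : (Fin N → B) → ℂ),
    (∀ j d, 𝔼 x, Φ (update d j (d₁ j x)) = 𝔼 x, Φ (update d j (d₂ j x))) →
    𝔼 ω : Fin N → Ω₁, Φ (fun j => d₁ j (ω j)) = 𝔼 ω : Fin N → Ω₂, Φ (fun j => d₂ j (ω j)) := by
  induction N with
  | zero =>
    intro d₁ d₂ Φ _
    have e : ∀ d : Fin 0 → B, Φ d = Φ Fin.elim0 := fun d => congrArg Φ (Subsingleton.elim _ _)
    simp only [e, Fintype.expect_const]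
  | succ N ih =>
    intro d₁ d₂ Φ h
    have e₁ : ∀ {Ω : Type} (d : Fin (N + 1) → Ω → B) (x : Ω) (ω : Fin N → Ω),
        (fun j => d j ((Fin.cons x ω : Fin (N + 1) → Ω) j)) =
          Fin.cons (d 0 x) fun j => d j.succ (ω j) := by
      intro Ω d x ω; ext j; refine Fin.cases ?_ (fun j => ?_) j <;> simp
    rw [exp_cons, exp_cons]
    simp only [e₁]
    have h1 : ∀ x, 𝔼 ω : Fin N → Ω₁, Φ (Fin.cons (d₁ 0 x) fun j => d₁ j.succ (ω j)) =
        𝔼 ω : Fin N → Ω₂, Φ (Fin.cons (d₁ 0 x) fun j => d₂ j.succ (ω j)) := fun x =>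
      ih (fun j => d₁ j.succ) (fun j => d₂ j.succ) (fun d => Φ (Fin.cons (d₁ 0 x) d)) fun j d => by
        simpa only [Fin.cons_update] using h j.succ (Fin.cons (d₁ 0 x) d)
    simp only [h1]
    rw [expect_comm, expect_comm univ univ fun (x : Ω₂) (ω : Fin N → Ω₂) => _]
    refine expect_congr rfl fun ω _ => ?_
    rcases isEmpty_or_nonempty B with hB | ⟨⟨b⟩⟩
    · have : IsEmpty Ω₁ := ⟨fun x => hB.elim (d₁ 0 x)⟩
      have : IsEmpty Ω₂ := ⟨fun x => hB.elim (d₂ 0 x)⟩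
      simp
    simpa only [Fin.update_cons_zero] using h 0 (Fin.cons b fun j => d₂ j.succ (ω j))

section Q
variable {H : Type*} [NormedAddCommGroup H] [InnerProductSpace ℂ H]

/-- the value of `Y` -/
noncomputable def q (Y : H →L[ℂ] H) (ξ : H) : ℂ := ⟪ξ, Y ξ⟫_ℂ

variable (Y : H →L[ℂ] H)

theorem q_add (a b : H) : q Y (a + b) = q Y a + ⟪a, Y b⟫_ℂ + ⟪b, Y a⟫_ℂ + q Y b := by
  simp only [q, map_add, inner_add_left, inner_add_right]; ring

theorem q_smul (c : ℂ) (a : H) : q Y (c • a) = (conj c * c) * q Y a := by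
  simp only [q, map_smul, inner_smul_left, inner_smul_right]; ring

theorem q_sub_le (a b : H) : ‖q Y a - q Y b‖ ≤ ‖Y‖ * (‖a - b‖ * (‖a‖ + ‖b‖)) := by
  have : q Y a - q Y b = ⟪a - b, Y a⟫_ℂ + ⟪b, Y (a - b)⟫_ℂ := by
    simp only [q, map_sub, inner_sub_left, inner_sub_right]; ring
  rw [this]
  refine (norm_add_le _ _).trans ?_
  have h1 := (norm_inner_le_norm (𝕜 := ℂ) (a - b) (Y a)).trans
    (mul_le_mul_of_nonneg_left (Y.le_opNorm a) (norm_nonneg _))
  have h2 := (norm_inner_le_norm (𝕜 := ℂ) b (Y (a - b))).trans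
    (mul_le_mul_of_nonneg_left (Y.le_opNorm _) (norm_nonneg _))
  nlinarith

theorem q_one (a : H) : q (1 : H →L[ℂ] H) a = ((‖a‖ ^ 2 : ℝ) : ℂ) := by
  simp [q, inner_self_eq_norm_sq_to_K]

theorem exp_step {Ω : Type} [Fintype Ω] [Nonempty Ω] (c : H) (m : Ω → H) (hm : ∑ x, m x = 0) :
    𝔼 x, q Y (c + m x) = q Y c + 𝔼 x, q Y (m x) := by
  have h1 : 𝔼 x, ⟪c, Y (m x)⟫_ℂ = 0 := by
    rw [expect_eq_sum_div_card, ← inner_sum, ← map_sum, hm]; simp
  have h2 : 𝔼 x, ⟪m x, Y c⟫_ℂ = 0 := by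
    rw [expect_eq_sum_div_card, ← sum_inner, hm]; simp
  simp only [q_add, expect_add_distrib, h1, h2, Fintype.expect_const, add_zero]

theorem exp_ind {Ω : Type} [Fintype Ω] [Nonempty Ω] (N : ℕ) : ∀ (c : H) (m : Fin N → Ω → H),
    (∀ j, ∑ x, m j x = 0) →
    𝔼 ω : Fin N → Ω, q Y (c + ∑ j, m j (ω j)) = q Y c + ∑ j, 𝔼 x, q Y (m j x) := by
  induction N with
  | zero => intro c m _; simp
  | succ N ih =>
    intro c m hm
    rw [exp_cons]
    simp only [Fin.sum_univ_succ, Fin.cons_zero, Fin.cons_succ, ← add_assoc]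
    simp only [ih _ (fun j => m j.succ) fun j => hm j.succ]
    rw [expect_add_distrib, exp_step Y c _ (hm 0), Fintype.expect_const]

/-- signs -/
def sg (b : Bool) : ℂ := if b then 1 else -1

theorem sg_sq (b : Bool) : sg b * sg b = 1 := by cases b <;> simp [sg]
theorem sg_conj (b : Bool) : conj (sg b) = sg b := by cases b <;> simp [sg]
theorem sum_sg (a : H) : ∑ b, sg b • a = 0 := by simp [sg]
theorem q_sg (b : Bool) (a : H) : q Y (sg b • a) = q Y a := by
  rw [q_smul, sg_conj, sg_sq, one_mul]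

theorem exp_ens1 {n : ℕ} (c : H) (m : Fin n → H) :
    𝔼 ε : Fin n → Bool, q Y (c + ∑ i, sg (ε i) • m i) = q Y c + ∑ i, q Y (m i) := by
  rw [exp_ind Y n c (fun i b => sg b • m i) fun i => sum_sg _]
  simp only [q_sg, Fintype.expect_const]

theorem sum_ens2 {n : ℕ} (m : Fin n → H) :
    ∑ x : Bool × Fin n, ((√n : ℝ) * sg x.1) • m x.2 = 0 := by
  rw [Fintype.sum_prod_type_right]
  refine sum_eq_zero fun i _ => ?_
  simp only [mul_smul, ← smul_sum, sum_sg, smul_zero]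

theorem exp_ens2' {n : ℕ} [NeZero n] (m : Fin n → H) :
    𝔼 x : Bool × Fin n, q Y (((√n : ℝ) * sg x.1) • m x.2) = ∑ i, q Y (m i) := by
  have h : ∀ x : Bool × Fin n, q Y (((√n : ℝ) * sg x.1) • m x.2) = n * q Y (m x.2) := fun x => by
    rw [mul_smul, q_smul, q_sg, Complex.conj_ofReal, ← Complex.ofReal_mul,
      Real.mul_self_sqrt (Nat.cast_nonneg n)]; simp
  simp only [h]
  rw [← univ_product_univ, expect_product' univ univ fun (_ : Bool) (i : Fin n) => n * q Y (m i),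
    Fintype.expect_const, ← mul_expect]
  simpa using card_mul_expect univ fun i => q Y (m i)

theorem exp_ens2 {n : ℕ} [NeZero n] (c : H) (m : Fin n → H) :
    𝔼 x : Bool × Fin n, q Y (c + ((√n : ℝ) * sg x.1) • m x.2) = q Y c + ∑ i, q Y (m i) := by
  rw [exp_step Y c _ (sum_ens2 m), exp_ens2']

end Q

variable {A : Type*} [CStarAlgebra A] {N : ℕ}

/-- the part of `(D W)^l D a` that visits distinct blocks outside `S` -/
noncomputable def Yd (W a : A) (d : Fin N → A) : ℕ → Finset (Fin N) → A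
  | 0, S => ∑ j ∈ Sᶜ, d j * a
  | l + 1, S => ∑ j ∈ Sᶜ, d j * (W * Yd W a d l (insert j S))

def Aff (F : A → A) : Prop := ∃ (P : A) (Q : A →ₗ[ℂ] A), ∀ x, F x = P + Q x

theorem Aff.sum {I : Type*} (s : Finset I) (F : I → A → A) (h : ∀ i ∈ s, Aff (F i)) :
    Aff fun x => ∑ i ∈ s, F i x := by
  choose! P Q h using h
  exact ⟨∑ i ∈ s, P i, ∑ i ∈ s, Q i, fun x => by
    rw [LinearMap.sum_apply, ← sum_add_distrib]; exact sum_congr rfl fun i hi => h i hi x⟩

theorem Aff.left {F : A → A} (h : Aff F) (c : A) : Aff fun x => c * F x := by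
  obtain ⟨P, Q, h⟩ := h
  exact ⟨c * P, LinearMap.mulLeft ℂ c ∘ₗ Q, fun x => by simp [h, mul_add]⟩

theorem Aff.const (c : A) : Aff fun _ => c := ⟨c, 0, fun x => by simp⟩
theorem Aff.right (c : A) : Aff fun x => x * c := ⟨0, LinearMap.mulRight ℂ c, fun x => by simp⟩

theorem Yd_mem (W a : A) (d : Fin N → A) (j : Fin N) (x : A) (l : ℕ) :
    ∀ S, j ∈ S → Yd W a (update d j x) l S = Yd W a d l S := by
  induction l with
  | zero =>
    intro S hS
    refine sum_congr rfl fun k hk => ?_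
    rw [update_of_ne (by rintro rfl; simp [hS] at hk)]
  | succ l ih =>
    intro S hS
    refine sum_congr rfl fun k hk => ?_
    rw [update_of_ne (by rintro rfl; simp [hS] at hk), ih _ (mem_insert_of_mem hS)]

theorem Yd_aff (W a : A) (d : Fin N → A) (j : Fin N) (l : ℕ) :
    ∀ S, Aff fun x => Yd W a (update d j x) l S := by
  induction l with
  | zero =>
    intro S
    refine Aff.sum _ (fun k x => update d j x k * a) fun k _ => ?_
    rcases eq_or_ne k j with rfl | h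
    · simpa using Aff.right a
    · simpa [update_of_ne h] using Aff.const _
  | succ l ih =>
    intro S
    refine Aff.sum _ (fun k x => update d j x k * (W * Yd W a (update d j x) l (insert k S)))
      fun k _ => ?_
    rcases eq_or_ne k j with rfl | h
    · simpa [Yd_mem W a d k _ l _ (mem_insert_self k S)] using Aff.right _
    · simpa [update_of_ne h] using ((ih (insert k S)).left W).left (d k)

/-- the two ensembles give the same second moments to the distinct-block part -/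
theorem Yd_hybrid {H : Type*} [NormedAddCommGroup H] [InnerProductSpace ℂ H] (Y : H →L[ℂ] H)
    (M : A →ₗ[ℂ] H) {n : ℕ} [NeZero n] (r : Fin n → Fin N → A) (W a : A) (l : ℕ) :
    𝔼 ω : Fin N → Fin n → Bool, q Y (M (Yd W a (fun j => ∑ i, sg (ω j i) • r i j) l ∅)) =
    𝔼 ω : Fin N → Bool × Fin n,
      q Y (M (Yd W a (fun j => ((√n : ℝ) * sg (ω j).1) • r (ω j).2 j) l ∅)) := by
  refine hybrid N (fun j (ε : Fin n → Bool) => ∑ i, sg (ε i) • r i j)
    (fun j (x : Bool × Fin n) => ((√n : ℝ) * sg x.1) • r x.2 j)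
    (fun d => q Y (M (Yd W a d l ∅))) fun j d => ?_
  obtain ⟨P, Q, h⟩ := Yd_aff W a d j l ∅
  simp only [h, map_add, map_sum, map_smul]
  rw [exp_ens1, exp_ens2 Y (M P) fun i => M (Q (r i j))]

end Crest.Agent.KS.Core
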