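import Crest.Agent.GP.Popa
/-! Kadison similarity problem (S0164, S0165): definitions and the statements of the pieces. -/
set_option autoImplicit false
namespace Crest.Agent.KS
open scoped InnerProductSpace ComplexConjugate
open Filter Topology Crest.Agent.GP

universe u v

/-- a full system of matrix units -/
structure MU (A : Type*) [CStarAlgebra A] (ι : Type) [Fintype ι] [DecidableEq ι] where
  e : ι → ι → A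
  star_e : ∀ i j, star (e i j) = e j i
  mul_e : ∀ i j k l, e i j * e k l = if j = k then e i l else 0
  sum_e : ∑ i, e i i = 1

/-- transport of matrix units -/
def MU.map {A B : Type*} [CStarAlgebra A] [CStarAlgebra B] {ι : Type} [Fintype ι] [DecidableEq ι]
    (E : MU A ι) (π : A →⋆ₐ[ℂ] B) : MU B ι where
  e i j := π (E.e i j)
  star_e i j := by rw [← map_star, E.star_e]
  mul_e i j k l := by rw [← map_mul, E.mul_e]; split_ifs <;> simp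
  sum_e := by rw [← map_sum, E.sum_e, map_one]

/-- `Y` commutes with the matrix units and almost commutes with the corner `e o o A e o o` -/
structure Ctx {A : Type*} [CStarAlgebra A] {ι : Type} [Fintype ι] [DecidableEq ι] (E : MU A ι)
    (o : ι) {H : Type*} [NormedAddCommGroup H] [InnerProductSpace ℂ H] [CompleteSpace H]
    (ρ : A →⋆ₐ[ℂ] (H →L[ℂ] H)) (Y : H →L[ℂ] H) (g : ℝ) : Prop where
  g0 : 0 ≤ g
  comm : ∀ i j, Y * ρ (E.e i j) = ρ (E.e i j) * Y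
  lev : ∀ x, star x = x → E.e o o * x = x → ‖x‖ ≤ 1 → ‖Y * ρ x - ρ x * Y‖ ≤ g

/-- the estimate for vectors dominated by the trace `T` -/
def Bound (C : ℝ) {A : Type u} [CStarAlgebra A] (T : Tr A) : Prop :=
  ∀ {ι : Type} [Fintype ι] [DecidableEq ι] (E : MU A ι) (o : ι)
    {H : Type u} [NormedAddCommGroup H] [InnerProductSpace ℂ H] [CompleteSpace H]
    (ρ : A →⋆ₐ[ℂ] (H →L[ℂ] H)) (Y : H →L[ℂ] H) (g : ℝ) (ζ : H) (lam : ℝ) (X : A),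
    Ctx E o ρ Y g → (∀ a, ‖ρ a ζ‖ ≤ lam * T.n a) → X ∈ unitary A →
    X * E.e o o = E.e o o → E.e o o * X = E.e o o →
    ‖⟪ρ X ζ, Y (ρ X ζ)⟫_ℂ - ⟪ζ, Y ζ⟫_ℂ‖ ≤ C * g * ‖ζ‖ ^ 2

/-- P1a: little Grothendieck inequality -/
def GTStmt : Prop :=
  ∀ {B : Type u} [CStarAlgebra B] {H : Type v} [NormedAddCommGroup H] [InnerProductSpace ℂ H]
    (T : B →ₗ[ℂ] H) (K : ℝ), 0 ≤ K → (∀ b, ‖T b‖ ≤ K * ‖b‖) →
    ∀ {J : Type} [Fintype J] (h : J → B), (∀ j, star (h j) = h j) →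
      ∑ j, ‖T (h j)‖ ^ 2 ≤ 2 * K ^ 2 * ‖∑ j, h j * h j‖

/-- P1b: column boundedness -/
def ColbStmt : Prop :=
  ∀ {A : Type u} [CStarAlgebra A] {ι : Type} [Fintype ι] [DecidableEq ι] (E : MU A ι) (o : ι)
    {H : Type u} [NormedAddCommGroup H] [InnerProductSpace ℂ H] [CompleteSpace H]
    (ρ : A →⋆ₐ[ℂ] (H →L[ℂ] H)) (Y : H →L[ℂ] H) (g : ℝ), Ctx E o ρ Y g →
    ∀ {J : Type} [Fintype J] (a : J → A), (∀ j, a j * E.e o o = a j) → ∀ ξ : H,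
      ∑ j, ‖(Y * ρ (a j) - ρ (a j) * Y) ξ‖ ^ 2 ≤ 25 * g ^ 2 * ‖∑ j, star (a j) * a j‖ * ‖ξ‖ ^ 2

/-- P1c: an almost isometric column preserves the value of `Y` -/
def ColStmt : Prop :=
  ∀ {A : Type u} [CStarAlgebra A] {ι : Type} [Fintype ι] [DecidableEq ι] (E : MU A ι) (o : ι)
    {H : Type u} [NormedAddCommGroup H] [InnerProductSpace ℂ H] [CompleteSpace H]
    (ρ : A →⋆ₐ[ℂ] (H →L[ℂ] H)) (Y : H →L[ℂ] H) (g : ℝ), Ctx E o ρ Y g →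
    ∀ {J : Type} [Fintype J] (c : J → A), (∀ j, c j * E.e o o = c j) → ∀ (ξ : H) (β : ℝ),
      ‖ρ (∑ j, star (c j) * c j) ξ - ξ‖ ≤ β →
      ‖∑ j, ⟪ρ (c j) ξ, Y (ρ (c j) ξ)⟫_ℂ - ⟪ξ, Y ξ⟫_ℂ‖ ≤
        5 * g * ‖ξ‖ ^ 2 + 3 * ‖Y‖ * β * (‖ξ‖ + β)

/-- P2: forward and backward first passages are joined by the scattering operator -/
def HKStmt : Prop :=
  ∀ κ : ℝ, 0 < κ → ∃ C : ℝ, 0 ≤ C ∧
  ∀ {A : Type u} [CStarAlgebra A] {ι : Type} [Fintype ι] [DecidableEq ι] (E : MU A ι) (o : ι)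
    {H : Type u} [NormedAddCommGroup H] [InnerProductSpace ℂ H] [CompleteSpace H]
    (ρ : A →⋆ₐ[ℂ] (H →L[ℂ] H)) (Y : H →L[ℂ] H) (g : ℝ), Ctx E o ρ Y g →
    ∀ Z ∈ unitary A, ∀ ζ : H, ρ (E.e o o) ζ = 0 → ‖ζ‖ ≤ 1 → ∀ L : ℕ, 1 ≤ L →
    ∀ y w : ℕ → H, (∀ t, y t = ρ (E.e o o * Z * ((1 - E.e o o) * Z) ^ t) ζ) →
      (∀ t, w t = ρ (E.e o o * star Z * ((1 - E.e o o) * star Z) ^ t) ζ) →
      ‖∑ t ∈ Finset.range L, ⟪y t, Y (y t)⟫_ℂ - ∑ t ∈ Finset.range L, ⟪w t, Y (w t)⟫_ℂ‖ ≤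
        2 * g + ‖Y‖ * (κ + C * L * (2 * ‖ζ‖ ^ 2 - ∑ t ∈ Finset.range L, ‖y t‖ ^ 2 -
          ∑ t ∈ Finset.range L, ‖w t‖ ^ 2))

/-- P3a: fine partitions of the corner projection -/
def PartStmt : Prop :=
  ∀ {A : Type u} [CStarAlgebra A] (T : Tr A), T.Gd ⊤ ⊤ →
    ∀ {ι : Type} [Fintype ι] [DecidableEq ι] (E : MU A ι) (o : ι) (κ : ℝ), 0 < κ →
    ∃ (N : ℕ) (p : Fin N → A), (∀ j, Proj (p j)) ∧ (∀ j, p j * E.e o o = p j) ∧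
      (∀ j k, j ≠ k → p j * p k = 0) ∧ ∑ j, p j = E.e o o ∧ ∀ j, (T.τ (p j)).re ≤ κ

/-- P3: the II₁ factor case -/
def CoreStmt (C : ℝ) : Prop :=
  ∀ {A : Type u} [CStarAlgebra A] (T : Tr A), T.Gd ⊤ ⊤ → Bound C T

/-- P4: the finite-dimensional factor case -/
def FinStmt : Prop :=
  ∀ {A : Type u} [CStarAlgebra A] (T : Tr A), T.W → Tr.Irr (A := A) ⊤ ⊤ → ¬ InfD (A := A) ⊤ →
    Bound 10 T

/-- P5: ultralimits of vector states -/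
def LimStmt : Prop :=
  ∀ {A : Type u} [CStarAlgebra A] {ι : Type} [Fintype ι] [DecidableEq ι] (E : MU A ι) (o : ι)
    {H : Type u} [NormedAddCommGroup H] [InnerProductSpace ℂ H] [CompleteSpace H]
    (ρ : A →⋆ₐ[ℂ] (H →L[ℂ] H)) (Y : H →L[ℂ] H) (g : ℝ), Ctx E o ρ Y g →
    ∀ {I : Type v} (𝔘 : Ultrafilter I) (ζ : I → H) (R : ℝ), (∀ i, ‖ζ i‖ ≤ R) →
    ∃ (H' : Type u) (_ : NormedAddCommGroup H') (_ : InnerProductSpace ℂ H') (_ : CompleteSpace H')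
      (ρ' : A →⋆ₐ[ℂ] (H' →L[ℂ] H')) (Y' : H' →L[ℂ] H') (ζ' : H'), Ctx E o ρ' Y' g ∧
      (∀ a b, Tendsto (fun i => ⟪ρ a (ζ i), ρ b (ζ i)⟫_ℂ) 𝔘 (𝓝 ⟪ρ' a ζ', ρ' b ζ'⟫_ℂ)) ∧
      ∀ a b, Tendsto (fun i => ⟪ρ a (ζ i), Y (ρ b (ζ i))⟫_ℂ) 𝔘 (𝓝 ⟪ρ' a ζ', Y' (ρ' b ζ')⟫_ℂ)

/-- P6a: tracial completion -/
def ExtAStmt : Prop :=
  ∀ {A : Type u} [CStarAlgebra A] (T : Tr A), ∃ (M : Type u) (_ : CStarAlgebra M) (T' : Tr M)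
    (π : A →⋆ₐ[ℂ] M), T'.W ∧ (∀ a, T'.τ (π a) = T.τ a) ∧ ∀ y, ∀ ε > 0, ∃ a, T'.n (π a - y) < ε

/-- P6b: dominated data extend to the tracial completion -/
def ExtBStmt : Prop :=
  ∀ {A M : Type u} [CStarAlgebra A] [CStarAlgebra M] (T : Tr A) (T' : Tr M) (π : A →⋆ₐ[ℂ] M),
    (∀ a, T'.τ (π a) = T.τ a) → (∀ y, ∀ ε > 0, ∃ a, T'.n (π a - y) < ε) →
    ∀ {ι : Type} [Fintype ι] [DecidableEq ι] (E : MU A ι) (o : ι)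
    {H : Type u} [NormedAddCommGroup H] [InnerProductSpace ℂ H] [CompleteSpace H]
    (ρ : A →⋆ₐ[ℂ] (H →L[ℂ] H)) (Y : H →L[ℂ] H) (g : ℝ) (ζ : H) (lam : ℝ),
    Ctx E o ρ Y g → (∀ a, ‖ρ a ζ‖ ≤ lam * T.n a) →
    ∃ (H' : Type u) (_ : NormedAddCommGroup H') (_ : InnerProductSpace ℂ H') (_ : CompleteSpace H')
      (ρ' : M →⋆ₐ[ℂ] (H' →L[ℂ] H')) (Y' : H' →L[ℂ] H') (ζ' : H'), Ctx (E.map π) o ρ' Y' g ∧
      (∀ y, ‖ρ' y ζ'‖ ≤ lam * T'.n y) ∧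
      (∀ a b, ⟪ρ' (π a) ζ', ρ' (π b) ζ'⟫_ℂ = ⟪ρ a ζ, ρ b ζ⟫_ℂ) ∧
      ∀ a b, ⟪ρ' (π a) ζ', Y' (ρ' (π b) ζ')⟫_ℂ = ⟪ρ a ζ, Y (ρ b ζ)⟫_ℂ

/-- P7a: Dixmier averaging, uniformly over the centre -/
def Dix1Stmt : Prop :=
  ∀ {A : Type u} [CStarAlgebra A] (T : Tr A), T.W → ∀ (a : A) (ε : ℝ), 0 < ε →
    ∃ z b : A, (∀ y, z * y = y * z) ∧
      (∀ φ : A →ₗ[ℂ] ℂ, (∀ u ∈ unitary A, ∀ x, φ (u * x * star u) = φ x) → φ a = φ z + φ b) ∧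
      ∀ w, Proj w → (∀ y, w * y = y * w) → T.n (w * b) ^ 2 ≤ ε * (T.τ w).re

/-- P7b: the centre is spanned by its projections -/
def Dix2Stmt : Prop :=
  ∀ {A : Type u} [CStarAlgebra A] (T : Tr A), T.W → ∀ N : Submodule ℂ A, IsClosed (N : Set A) →
    (∀ w, Proj w → (∀ y, w * y = y * w) → w ∈ N) → ∀ z, (∀ y, z * y = y * z) → z ∈ N

/-- P7c: reduction to factors -/
def CutStmt : Prop :=
  ∀ C : ℝ, (∀ {A : Type u} [CStarAlgebra A] (T : Tr A), T.W → Tr.Irr (A := A) ⊤ ⊤ → Bound C T) →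
    ∀ {A : Type u} [CStarAlgebra A] (T : Tr A), T.W → Bound (C + 10) T

/-- P8a: a dominating trace -/
def TraceStmt : Prop :=
  ∀ {A : Type u} [CStarAlgebra A] {H : Type u} [NormedAddCommGroup H] [InnerProductSpace ℂ H]
    [CompleteSpace H] (ρ : A →⋆ₐ[ℂ] (H →L[ℂ] H)) (ζ : H) (lam : ℝ), ζ ≠ 0 →
    (∀ {J : Type} [Fintype J] (y : J → A),
      ∑ j, ‖ρ (y j) ζ‖ ^ 2 ≤ lam * ‖∑ j, y j * star (y j)‖) →
    ∃ T : Tr A, ∀ a, ‖ρ a ζ‖ ≤ √lam * T.n a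

/-- the abstract derivation theorem for unitaries -/
def AbsStmt (C : ℝ) : Prop :=
  ∀ {A : Type u} [CStarAlgebra A] {ι : Type} [Fintype ι] [DecidableEq ι] (E : MU A ι) (o : ι)
    {H : Type u} [NormedAddCommGroup H] [InnerProductSpace ℂ H] [CompleteSpace H]
    (ρ : A →⋆ₐ[ℂ] (H →L[ℂ] H)) (Y : H →L[ℂ] H) (g : ℝ), Ctx E o ρ Y g → star Y = Y →
    ∀ X ∈ unitary A, X * E.e o o = E.e o o → E.e o o * X = E.e o o →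
      ‖Y * ρ X - ρ X * Y‖ ≤ C * g

/-- P8b: removing the non-tracial part -/
def DecStmt : Prop :=
  ∀ C : ℝ, 0 ≤ C → (∀ {A : Type u} [CStarAlgebra A] (T : Tr A), Bound C T) →
    ∃ C' : ℝ, 0 ≤ C' ∧ AbsStmt.{u} C'

/-- the concrete derivation theorem -/
def ConStmt (C : ℝ) : Prop :=
  ∀ (K : Type u) [NormedAddCommGroup K] [InnerProductSpace ℂ K] [CompleteSpace K]
    (S : StarSubalgebra ℂ (K →L[ℂ] K)), IsClosed (S : Set (K →L[ℂ] K)) →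
    ∀ (Y : K →L[ℂ] K) (g : ℝ), 0 ≤ g → (∀ a ∈ S, star a = a → ‖Y * a - a * Y‖ ≤ g * ‖a‖) →
    ∀ (h : ℕ), 1 ≤ h →
      ∀ (Yh X : PiLp 2 (fun _ : Fin h => K) →L[ℂ] PiLp 2 (fun _ : Fin h => K))
        (x : Fin h → Fin h → (K →L[ℂ] K)),
        (∀ (v : PiLp 2 (fun _ : Fin h => K)) (i : Fin h), Yh v i = Y (v i)) →
        (∀ i j, x i j ∈ S) →
        (∀ (v : PiLp 2 (fun _ : Fin h => K)) (i : Fin h), X v i = ∑ j, x i j (v j)) →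
        ‖Yh * X - X * Yh‖ ≤ C * g * ‖X‖

/-- P9: from the abstract to the concrete theorem -/
def ConOfStmt : Prop := ∀ C : ℝ, 0 ≤ C → AbsStmt.{u} C → ∃ C' : ℝ, 0 ≤ C' ∧ ConStmt.{u} C'

/-- matrix amplifications of size `≥ J₀` are bounded by `κ` -/
def MBd {A : Type*} [CStarAlgebra A] [PartialOrder A] [StarOrderedRing A]
    {H : Type*} [NormedAddCommGroup H] [InnerProductSpace ℂ H] [CompleteSpace H]
    (π : A →ₐ[ℂ] (H →L[ℂ] H)) (J₀ : ℕ) (κ : ℝ) : Prop :=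
  ∀ J : ℕ, J₀ ≤ J → ∀ (x : CStarMatrix (Fin J) (Fin J) A) (v : Fin J → H),
    ∑ i, ‖∑ j, π (x i j) (v j)‖ ^ 2 ≤ κ ^ 2 * ‖x‖ ^ 2 * ∑ j, ‖v j‖ ^ 2

/-- positive invertible intertwiner with `m⁻¹ ≤ G ≤ m` -/
def Intw {A : Type*} [CStarAlgebra A]
    {H : Type*} [NormedAddCommGroup H] [InnerProductSpace ℂ H] [CompleteSpace H]
    (π : A →ₐ[ℂ] (H →L[ℂ] H)) (m : ℝ) (G : H →L[ℂ] H) : Prop :=
  star G = G ∧ ‖G‖ ≤ m ∧ (∀ ξ, ‖ξ‖ ^ 2 ≤ m * (⟪ξ, G ξ⟫_ℂ).re) ∧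
    ∀ a, π a * G = G * star (π (star a))

/-- P10: completely bounded homomorphisms are similar to ⋆-homomorphisms -/
def SimStmt : Prop :=
  ∀ κ : ℝ, ∃ m : ℝ, 1 ≤ m ∧
  ∀ {A : Type u} [CStarAlgebra A] [PartialOrder A] [StarOrderedRing A]
    {H : Type v} [NormedAddCommGroup H] [InnerProductSpace ℂ H] [CompleteSpace H]
    (π : A →ₐ[ℂ] (H →L[ℂ] H)) (J₀ : ℕ), MBd π J₀ κ → ∃ G, Intw π m G

/-- P11a: finitely cyclic bounded homomorphisms are completely bounded -/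
def CycStmt : Prop :=
  ∀ {A : Type u} [CStarAlgebra A] [PartialOrder A] [StarOrderedRing A]
    {H : Type v} [NormedAddCommGroup H] [InnerProductSpace ℂ H] [CompleteSpace H]
    (π : A →ₐ[ℂ] (H →L[ℂ] H)) (K : ℝ), (∀ a, ‖π a‖ ≤ K * ‖a‖) → ∀ (m : ℕ) (ζ : Fin m → H),
    Dense (Submodule.span ℂ {ξ | ∃ a i, ξ = π a (ζ i)} : Set H) → ∃ κ, MBd π m κ

/-- distance to the commutant -/
def DistStmt : Prop :=
  ∃ D : ℝ, 0 ≤ D ∧ ∀ {A : Type u} [CStarAlgebra A]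
    {H : Type v} [NormedAddCommGroup H] [InnerProductSpace ℂ H] [CompleteSpace H]
    (ρ : A →⋆ₐ[ℂ] (H →L[ℂ] H)) (L : H →L[ℂ] H) (g : ℝ), 0 ≤ g →
    (∀ a, ‖L * ρ a - ρ a * L‖ ≤ g * ‖a‖) → ∃ T : H →L[ℂ] H, (∀ a, T * ρ a = ρ a * T) ∧ ‖L - T‖ ≤ D * g

/-- P11b -/
def DistOfStmt : Prop := ∀ C : ℝ, 0 ≤ C → ConStmt.{v} C → SimStmt.{u, v} → DistStmt.{u, v}

/-- uniform similarity -/
def KirStmt : Prop :=
  ∀ K : ℝ, ∃ m : ℝ, 1 ≤ m ∧ ∀ {A : Type u} [CStarAlgebra A]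
    {H : Type v} [NormedAddCommGroup H] [InnerProductSpace ℂ H] [CompleteSpace H]
    (π : A →ₐ[ℂ] (H →L[ℂ] H)), (∀ a, ‖π a‖ ≤ K * ‖a‖) → (∃ m' G, Intw π m' G) → ∃ G, Intw π m G

/-- P11c -/
def KirOfStmt : Prop := DistStmt.{u, v} → KirStmt.{u, v}

/-- P11d -/
def FinalStmt : Prop :=
  CycStmt.{u, v} → SimStmt.{u, v} → KirStmt.{u, v} →
  ∀ {A : Type u} [CStarAlgebra A]
    {H : Type v} [NormedAddCommGroup H] [InnerProductSpace ℂ H] [CompleteSpace H]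
    (π : A →ₐ[ℂ] (H →L[ℂ] H)), (∃ K : ℝ, ∀ a : A, ‖π a‖ ≤ K * ‖a‖) →
    ∃ S : (H →L[ℂ] H)ˣ, ∀ a : A,
      star ((S : H →L[ℂ] H) * π a * (↑S⁻¹ : H →L[ℂ] H)) =
        (S : H →L[ℂ] H) * π (star a) * (↑S⁻¹ : H →L[ℂ] H)

end Crest.Agent.KS
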