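import Crest.Agent.KS.Defs
/-! P10: completely bounded homomorphisms are similar to ⋆-homomorphisms. -/
set_option autoImplicit false
namespace Crest.Agent.KS
open scoped InnerProductSpace ComplexConjugate ComplexOrder
open Filter Topology

universe u v

namespace Sim

/-- Mazur–Orlicz -/
theorem mo {E : Type*} [NormedAddCommGroup E] [NormedSpace ℂ E] (S : Set (E × ℝ)) (C : ℝ)
    (hC : 0 ≤ C) (h0 : ((0 : E), (0 : ℝ)) ∈ S) (hadd : ∀ p ∈ S, ∀ q ∈ S, p + q ∈ S)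
    (hsmul : ∀ t : ℝ, 0 < t → ∀ p ∈ S, ((t : ℂ) • p.1, t * p.2) ∈ S)
    (hle : ∀ p ∈ S, p.2 ≤ C * ‖p.1‖) :
    ∃ L : E →L[ℂ] ℂ, ‖L‖ ≤ C ∧ ∀ p ∈ S, p.2 ≤ (L p.1).re := by
  have : Nonempty S := ⟨⟨_, h0⟩⟩
  let N : E → ℝ := fun x => ⨅ p : S, (C * ‖x + p.1.1‖ - p.1.2)
  have hb : ∀ x, BddBelow (Set.range fun p : S => C * ‖x + p.1.1‖ - p.1.2) := fun x => by
    refine ⟨-(C * ‖x‖), ?_⟩
    rintro _ ⟨p, rfl⟩
    have h1 := hle p.1 p.2
    have h2 : ‖p.1.1‖ ≤ ‖x + p.1.1‖ + ‖x‖ := by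
      have := norm_sub_le (x + p.1.1) x
      rwa [add_sub_cancel_left] at this
    have := mul_le_mul_of_nonneg_left h2 hC
    simp only
    linarith
  have hN : ∀ x, ∀ p ∈ S, N x ≤ C * ‖x + p.1‖ - p.2 := fun x p hp => ciInf_le (hb x) ⟨p, hp⟩
  have hom1 : ∀ c : ℝ, 0 < c → ∀ x, N (c • x) ≤ c * N x := fun c hc x => by
    rw [← div_le_iff₀' hc]
    refine le_ciInf fun p => ?_
    rw [div_le_iff₀' hc]
    refine (hN _ _ (hsmul c hc p.1 p.2)).trans (le_of_eq ?_)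
    simp only [Complex.coe_smul]
    rw [← smul_add, norm_smul, Real.norm_of_nonneg hc.le]
    ring
  have hom : ∀ c : ℝ, 0 < c → ∀ x, N (c • x) = c * N x := fun c hc x => by
    refine le_antisymm (hom1 c hc x) ?_
    have := hom1 c⁻¹ (inv_pos.mpr hc) (c • x)
    rw [smul_smul, inv_mul_cancel₀ hc.ne', one_smul] at this
    have h2 := mul_le_mul_of_nonneg_left this hc.le
    rwa [← mul_assoc, mul_inv_cancel₀ hc.ne', one_mul] at h2
  have hadd' : ∀ x y, N (x + y) ≤ N x + N y := fun x y => by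
    refine le_ciInf_add_ciInf fun p q => ?_
    refine (hN _ _ (hadd _ p.2 _ q.2)).trans ?_
    have : ‖x + y + (p.1 + q.1).1‖ ≤ ‖x + p.1.1‖ + ‖y + q.1.1‖ := by
      refine le_trans (le_of_eq ?_) (norm_add_le _ _)
      congr 1
      simp only [Prod.fst_add]; abel
    have := mul_le_mul_of_nonneg_left this hC
    simp only [Prod.snd_add]
    linarith
  have hN0 : 0 ≤ N 0 := le_ciInf fun p => by
    have := hle p.1 p.2
    rw [zero_add]; linarith
  obtain ⟨g, -, hg⟩ := exists_extension_of_le_sublinear (⊥ : E →ₗ.[ℝ] ℝ) N hom hadd' (by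
    rintro ⟨x, hx⟩
    have hx' : x = 0 := (Submodule.mem_bot ℝ).mp hx
    subst hx'
    have : (⟨0, hx⟩ : (⊥ : E →ₗ.[ℝ] ℝ).domain) = 0 := rfl
    rw [this, LinearPMap.map_zero]
    exact hN0)
  have hg1 : ∀ x, g x ≤ C * ‖x‖ := fun x => (hg x).trans (by simpa using hN x _ h0)
  have hg2 : ∀ x, ‖g x‖ ≤ C * ‖x‖ := fun x => by
    rw [Real.norm_eq_abs, abs_le]
    have := hg1 (-x)
    rw [map_neg, norm_neg] at this
    exact ⟨by linarith, hg1 x⟩
  let g' : StrongDual ℝ E := g.mkContinuous C hg2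
  refine ⟨g'.extendRCLike, ?_, fun p hp => ?_⟩
  · rw [StrongDual.norm_extendRCLike]
    exact g.mkContinuous_norm_le hC hg2
  · have h1 := StrongDual.re_extendRCLike_apply (𝕜 := ℂ) g' p.1
    have h2 := (hg (-p.1)).trans (hN _ _ hp)
    rw [neg_add_cancel, norm_zero, map_neg] at h2
    have h3 : (g'.extendRCLike p.1 : ℂ).re = g p.1 := h1
    rw [h3]
    linarith

theorem polar {B : Type*} [CStarAlgebra B] (x : B) (ε : ℝ) (hε : 0 < ε) :
    ∃ b h c : B, star h = h ∧ h * h = star x * x + c ∧ ‖c‖ ≤ ε ∧ x = b * h ∧ ‖b‖ ≤ 1 := by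
  let _ := CStarAlgebra.spectralOrder B
  have := CStarAlgebra.spectralOrderedRing B
  have ha : 0 ≤ star x * x := star_mul_self_nonneg x
  have hsa : IsSelfAdjoint (star x * x) := ha.isSelfAdjoint
  have hsp : ∀ t ∈ spectrum ℝ (star x * x), 0 ≤ t := spectrum_nonneg_of_nonneg ha
  have c1 : Continuous fun t : ℝ => √(t + ε) := by fun_prop
  have c2 : ContinuousOn (fun t : ℝ => (√(t + ε))⁻¹) (spectrum ℝ (star x * x)) :=
    c1.continuousOn.inv₀ fun t ht => (Real.sqrt_pos.mpr (by linarith [hsp t ht])).ne'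
  let h := cfc (fun t : ℝ => √(t + ε)) (star x * x)
  let k := cfc (fun t : ℝ => (√(t + ε))⁻¹) (star x * x)
  have hk : k * h = 1 := by
    rw [← cfc_mul _ _ _ c2 c1.continuousOn, ← cfc_one ℝ (star x * x)]
    exact cfc_congr fun t ht =>
      inv_mul_cancel₀ (Real.sqrt_pos.mpr (by linarith [hsp t ht])).ne'
  have hks : star k = k := (cfc_predicate _ _ : IsSelfAdjoint k).star_eq
  refine ⟨x * k, h, algebraMap ℝ B ε, (cfc_predicate _ _ : IsSelfAdjoint h).star_eq, ?_, ?_,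
    by rw [mul_assoc, hk, mul_one], ?_⟩
  · rw [← cfc_mul _ _ _ c1.continuousOn c1.continuousOn]
    conv_rhs => rw [← cfc_id' ℝ (star x * x), ← cfc_const ε (star x * x), ← cfc_add _ _ _]
    exact cfc_congr fun t ht => Real.mul_self_sqrt (by linarith [hsp t ht])
  · rw [Algebra.algebraMap_eq_smul_one, norm_smul, Real.norm_of_nonneg hε.le]
    exact mul_le_of_le_one_right hε.le GP.norm_one_le
  · refine GP.norm_le_one_of_star_mul ?_
    have : star (x * k) * (x * k) =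
        cfc (fun t : ℝ => (√(t + ε))⁻¹ * t * (√(t + ε))⁻¹) (star x * x) := by
      rw [cfc_mul (fun t : ℝ => (√(t + ε))⁻¹ * t) _ _ (c2.mul continuousOn_id) c2,
        cfc_mul _ (fun t : ℝ => t) _ c2 continuousOn_id,
        cfc_id' ℝ (star x * x), star_mul, hks]
      simp only [k, mul_assoc]
    rw [this]
    refine norm_cfc_le zero_le_one fun t ht => ?_
    have h0 := hsp t ht
    have h1 : 0 < t + ε := by linarith
    have : (√(t + ε))⁻¹ * t * (√(t + ε))⁻¹ = t / (t + ε) := by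
      rw [mul_right_comm, ← mul_inv, Real.mul_self_sqrt h1.le]; ring
    rw [this, Real.norm_of_nonneg (by positivity), div_le_one h1]
    linarith

/-- GNS factorisation of a column bounded map -/
theorem factor {B : Type u} [CStarAlgebra B] {H : Type v} [NormedAddCommGroup H]
    [InnerProductSpace ℂ H] [CompleteSpace H] (R : B →ₗ[ℂ] H) (C : ℝ) (hC : 0 ≤ C)
    (hcol : ∀ {J : Type} [Fintype J] (x : J → B),
      ∑ j, ‖R (x j)‖ ^ 2 ≤ C * ‖∑ j, star (x j) * x j‖) :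
    ∃ (K : Type u) (_ : NormedAddCommGroup K) (_ : InnerProductSpace ℂ K) (_ : CompleteSpace K)
      (lam : B →⋆ₐ[ℂ] (K →L[ℂ] K)) (Ω : K) (T : K →L[ℂ] H), ‖T‖ ≤ 1 ∧ ‖Ω‖ ^ 2 ≤ C ∧
      (∀ b, T (lam b Ω) = R b) ∧
      ∀ b (S : H →L[ℂ] H), (∀ x, R (b * x) = S (R x)) → T ∘L lam b = S ∘L T := by
  let _ := CStarAlgebra.spectralOrder B
  have := CStarAlgebra.spectralOrderedRing B
  obtain ⟨L, hL, hLS⟩ := mo {p : B × ℝ | ∃ (J : Type) (_ : Fintype J) (x : J → B),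
      p = (∑ j, star (x j) * x j, ∑ j, ‖R (x j)‖ ^ 2)} C hC
    ⟨Empty, inferInstance, Empty.elim, by simp⟩
    (by
      rintro _ ⟨J, _, x, rfl⟩ _ ⟨J', _, x', rfl⟩
      exact ⟨J ⊕ J', inferInstance, Sum.elim x x', by simp [Fintype.sum_sum_type]⟩)
    (by
      rintro t ht _ ⟨J, _, x, rfl⟩
      refine ⟨J, inferInstance, fun j => ((√t : ℝ) : ℂ) • x j, ?_⟩
      have e1 : ((√t : ℝ) : ℂ) * ((√t : ℝ) : ℂ) = t := by
        rw [← Complex.ofReal_mul, Real.mul_self_sqrt ht.le]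
      simp only [Finset.smul_sum, Finset.mul_sum, star_smul, smul_mul_smul_comm, map_smul,
        norm_smul, mul_pow, Complex.star_def, Complex.conj_ofReal, e1, Complex.norm_real,
        Real.norm_eq_abs, sq_abs, Real.sq_sqrt ht.le])
    (by rintro _ ⟨J, _, x, rfl⟩; exact hcol x)
  have hLx : ∀ x, ‖R x‖ ^ 2 ≤ (L (star x * x)).re := fun x => by
    simpa using hLS _ ⟨Unit, inferInstance, fun _ => x, rfl⟩
  let F : B →ₗ[ℂ] ℂ :=
    { toFun := fun b => (L b + conj (L (star b))) / 2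
      map_add' := fun a b => by simp only [star_add, map_add]; ring
      map_smul' := fun c b => by
        simp only [star_smul, map_smul, smul_eq_mul, map_mul, Complex.star_def,
          Complex.conj_conj, RingHom.id_apply]
        ring }
  have hF : ∀ b, star b = b → F b = (L b).re := fun b hb => by
    change (L b + conj (L (star b))) / 2 = _
    rw [hb, Complex.add_conj]; push_cast; ring
  let f : B →ₚ[ℂ] ℂ := PositiveLinearMap.mk₀ F fun a ha => by
    obtain ⟨x, rfl⟩ := CStarAlgebra.nonneg_iff_eq_star_mul_self.mp ha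
    rw [hF _ (by simp)]
    exact_mod_cast (sq_nonneg _).trans (hLx x)
  have hf : ∀ x : B, ‖f.toPreGNS x‖ ^ 2 = (L (star x * x)).re := fun x => by
    have := f.preGNS_norm_sq (f.toPreGNS x)
    rw [PositiveLinearMap.ofPreGNS_toPreGNS] at this
    have h2 : f (star x * x) = (L (star x * x)).re := hF _ (by simp)
    rw [h2] at this
    exact_mod_cast this
  let T0 : f.PreGNS →L[ℂ] H := (R ∘ₗ f.ofPreGNS.toLinearMap).mkContinuous 1 fun y => by
    rw [one_mul, ← sq_le_sq₀ (norm_nonneg _) (norm_nonneg _)]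
    exact (hLx _).trans (hf (f.ofPreGNS y)).ge
  have hT0 : ∀ y, ‖T0 y‖ ≤ 1 * ‖y‖ := fun y => by
    rw [one_mul, ← sq_le_sq₀ (norm_nonneg _) (norm_nonneg _)]
    exact (hLx _).trans (hf (f.ofPreGNS y)).ge
  let e : f.PreGNS →L[ℂ] f.GNS := UniformSpace.Completion.toComplL
  have he : DenseRange e := UniformSpace.Completion.denseRange_coe
  have he2 : IsUniformInducing e := UniformSpace.Completion.isUniformInducing_coe _
  let T : f.GNS →L[ℂ] H := T0.extend e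
  have hT : ∀ y : f.PreGNS, T (y : f.GNS) = R (f.ofPreGNS y) := fun y =>
    T0.extend_eq he he2 y
  have hlam : ∀ (b : B) (y : f.PreGNS), f.gnsStarAlgHom b (y : f.GNS) =
      (f.toPreGNS (b * f.ofPreGNS y) : f.PreGNS) := fun b y =>
    f.gnsNonUnitalStarAlgHom_apply_coe
  refine ⟨f.GNS, inferInstance, inferInstance, inferInstance, f.gnsStarAlgHom,
    (f.toPreGNS 1 : f.PreGNS), T, ?_, ?_, fun b => ?_, fun b S hS => ?_⟩
  · refine T.opNorm_le_bound zero_le_one fun y => ?_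
    induction y using UniformSpace.Completion.induction_on with
    | hp => apply isClosed_le <;> fun_prop
    | ih y => rw [hT, UniformSpace.Completion.norm_coe]; exact hT0 y
  · rw [UniformSpace.Completion.norm_coe, hf, star_one, one_mul]
    refine (Complex.re_le_norm _).trans ((L.le_opNorm _).trans ?_)
    simpa using GP.norm_mul_le' (A := ℂ) (a := (‖L‖ : ℂ)) (b := (‖(1 : B)‖ : ℂ)) (s := C) (t := 1)
      (by simpa using hL) (by simpa using GP.norm_one_le)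
  · rw [hlam, hT]; simp
  · ext y
    induction y using UniformSpace.Completion.induction_on with
    | hp => apply isClosed_eq <;> fun_prop
    | ih y =>
      simp only [ContinuousLinearMap.comp_apply]
      rw [hlam, hT, hT, PositiveLinearMap.ofPreGNS_toPreGNS, hS]

/-- one intertwiner adapted to a finite family of vectors -/
theorem one {A B : Type u} [CStarAlgebra A] [CStarAlgebra B] {H : Type v} [NormedAddCommGroup H]
    [InnerProductSpace ℂ H] [CompleteSpace H] (π : A →ₐ[ℂ] (H →L[ℂ] H))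
    (R : B →ₗ[ℂ] H) (C : ℝ) (hC : 0 ≤ C)
    (hcol : ∀ {J : Type} [Fintype J] (x : J → B),
      ∑ j, ‖R (x j)‖ ^ 2 ≤ C * ‖∑ j, star (x j) * x j‖)
    (ι : A → B) (hι : ∀ a, star (ι (star a)) = ι a) (hR : ∀ a x, R (ι a * x) = π a (R x))
    {J : Type} [Fintype J] (e : J → B) (he : ∑ j, star (e j) * e j = 1) :
    ∃ G : H →L[ℂ] H, ‖G‖ ≤ 1 ∧ (∀ a, π a * G = G * star (π (star a))) ∧
      (∀ ξ, 0 ≤ (⟪G ξ, ξ⟫_ℂ).re) ∧
      (∑ j, ‖R (e j)‖ ^ 2) ^ 2 ≤ C * ∑ j, (⟪G (R (e j)), R (e j)⟫_ℂ).re := by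
  obtain ⟨K, _, _, _, lam, Ω, T, hT, hΩ, hTR, hint⟩ := factor R C hC hcol
  have hG : ∀ ξ, (⟪(T ∘L T.adjoint) ξ, ξ⟫_ℂ).re = ‖T.adjoint ξ‖ ^ 2 := fun ξ => by
    rw [ContinuousLinearMap.comp_apply, ← ContinuousLinearMap.adjoint_inner_right,
      ← inner_self_eq_norm_sq (𝕜 := ℂ)]
    rfl
  refine ⟨T ∘L T.adjoint, ?_, fun a => ?_, fun ξ => by rw [hG]; positivity, ?_⟩
  · refine (ContinuousLinearMap.opNorm_comp_le _ _).trans ?_
    rw [LinearIsometryEquiv.norm_map]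
    nlinarith [norm_nonneg T]
  · have h1 := hint _ _ (hR a)
    have h2 := congrArg ContinuousLinearMap.adjoint (hint _ _ (hR (star a)))
    rw [ContinuousLinearMap.adjoint_comp, ContinuousLinearMap.adjoint_comp,
      ← ContinuousLinearMap.star_eq_adjoint (lam _), ← map_star, hι] at h2
    rw [ContinuousLinearMap.mul_def, ContinuousLinearMap.mul_def,
      ← ContinuousLinearMap.comp_assoc, ← h1, ContinuousLinearMap.comp_assoc,
      ContinuousLinearMap.comp_assoc, h2, ContinuousLinearMap.star_eq_adjoint]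
  · simp only [hG]
    have h1 : ∀ j, ‖R (e j)‖ ^ 2 ≤ ‖T.adjoint (R (e j))‖ * ‖lam (e j) Ω‖ := fun j => by
      refine le_trans (le_of_eq ?_) ((Complex.re_le_norm _).trans (norm_inner_le_norm (𝕜 := ℂ) _ _))
      rw [ContinuousLinearMap.adjoint_inner_left, hTR, ← inner_self_eq_norm_sq (𝕜 := ℂ)]
      rfl
    have h2 : ∑ j, ‖lam (e j) Ω‖ ^ 2 = ‖Ω‖ ^ 2 := by
      have : ∀ j, ‖lam (e j) Ω‖ ^ 2 = (⟪Ω, lam (star (e j) * e j) Ω⟫_ℂ).re := fun j => by
        rw [map_mul, map_star, ContinuousLinearMap.star_eq_adjoint, ContinuousLinearMap.mul_apply,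
          ContinuousLinearMap.adjoint_inner_right, ← inner_self_eq_norm_sq (𝕜 := ℂ)]
        rfl
      simp only [this]
      rw [← Complex.re_sum, ← inner_sum, ← ContinuousLinearMap.sum_apply, ← map_sum, he, map_one,
        ← inner_self_eq_norm_sq (𝕜 := ℂ)]
      rfl
    calc (∑ j, ‖R (e j)‖ ^ 2) ^ 2 ≤ (∑ j, ‖T.adjoint (R (e j))‖ * ‖lam (e j) Ω‖) ^ 2 :=
          pow_le_pow_left₀ (by positivity) (Finset.sum_le_sum fun j _ => h1 j) 2
      _ ≤ (∑ j, ‖T.adjoint (R (e j))‖ ^ 2) * ∑ j, ‖lam (e j) Ω‖ ^ 2 :=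
          Finset.sum_mul_sq_le_sq_mul_sq _ _ _
      _ ≤ _ := by
          rw [h2, mul_comm]
          exact mul_le_mul_of_nonneg_right hΩ (by positivity)

/-- the column bound for matrices -/
theorem col (hGT : GTStmt.{u, v}) {A : Type u} [CStarAlgebra A] [PartialOrder A]
    [StarOrderedRing A] {H : Type v} [NormedAddCommGroup H] [InnerProductSpace ℂ H]
    [CompleteSpace H] (π : A →ₐ[ℂ] (H →L[ℂ] H)) (κ : ℝ) {N : ℕ}
    (hκ : ∀ (x : CStarMatrix (Fin N) (Fin N) A) (v : Fin N → H),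
      ∑ i, ‖∑ j, π (x i j) (v j)‖ ^ 2 ≤ κ ^ 2 * ‖x‖ ^ 2 * ∑ j, ‖v j‖ ^ 2) (η : Fin N → H)
    {J : Type} [Fintype J] (x : J → CStarMatrix (Fin N) (Fin N) A) :
    ∑ k, ∑ i, ‖∑ j, π (x k i j) (η j)‖ ^ 2 ≤
      2 * κ ^ 4 * (∑ j, ‖η j‖ ^ 2) * ‖∑ k, star (x k) * x k‖ := by
  let T : CStarMatrix (Fin N) (Fin N) A →ₗ[ℂ] PiLp 2 (fun _ : Fin N => H) :=
    { toFun := fun y => WithLp.toLp 2 fun i => ∑ j, π (y i j) (η j)
      map_add' := fun y z => by
        ext i; simp [Finset.sum_add_distrib]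
      map_smul' := fun c y => by
        ext i; simp [Finset.smul_sum] }
  have hT : ∀ y, ‖T y‖ ^ 2 = ∑ i, ‖∑ j, π (y i j) (η j)‖ ^ 2 := fun y => by
    rw [PiLp.norm_sq_eq_of_L2]; rfl
  set s := ∑ j, ‖η j‖ ^ 2 with hs
  have hs0 : 0 ≤ s := by positivity
  have hK : (|κ| * √s) ^ 2 = κ ^ 2 * s := by rw [mul_pow, sq_abs, Real.sq_sqrt hs0]
  have hTb : ∀ y, ‖T y‖ ≤ |κ| * √s * ‖y‖ := fun y => by
    rw [← sq_le_sq₀ (norm_nonneg _) (by positivity), mul_pow, hK, hT]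
    exact (hκ y η).trans_eq (by ring)
  have key : ∀ ε : ℝ, 0 < ε → ∑ k, ∑ i, ‖∑ j, π (x k i j) (η j)‖ ^ 2 ≤
      2 * κ ^ 4 * s * (‖∑ k, star (x k) * x k‖ + Fintype.card J * ε) := fun ε hε => by
    choose b h c hh hhh hc hx hb using fun k => polar (x k) ε hε
    have h1 := hGT T _ (by positivity) hTb h hh
    have h2 : ∀ k, ∑ i, ‖∑ j, π (x k i j) (η j)‖ ^ 2 ≤ κ ^ 2 * ‖T (h k)‖ ^ 2 := fun k => by
      have h3 := hκ (b k) fun l => ∑ j, π (h k l j) (η j)
      rw [← hT (h k)] at h3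
      have h4 : ∀ i, ∑ j, π (x k i j) (η j) = ∑ l, π (b k i l) (∑ j, π (h k l j) (η j)) := by
        intro i
        simp only [hx k, CStarMatrix.mul_apply, map_sum, map_mul, ContinuousLinearMap.sum_apply,
          ContinuousLinearMap.mul_apply]
        exact Finset.sum_comm
      simp only [h4]
      refine h3.trans ?_
      have : ‖b k‖ ^ 2 ≤ 1 := pow_le_one₀ (norm_nonneg _) (hb k)
      rw [mul_assoc]
      exact mul_le_mul_of_nonneg_left (mul_le_of_le_one_left (by positivity) this) (by positivity)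
    have h5 : ‖∑ k, h k * h k‖ ≤ ‖∑ k, star (x k) * x k‖ + Fintype.card J * ε := by
      simp only [hhh, Finset.sum_add_distrib]
      refine norm_add_le_of_le le_rfl ((norm_sum_le _ _).trans ?_)
      simpa using Finset.sum_le_card_nsmul Finset.univ _ _ fun (k : J) _ => hc k
    calc _ ≤ ∑ k, κ ^ 2 * ‖T (h k)‖ ^ 2 := Finset.sum_le_sum fun k _ => h2 k
      _ = κ ^ 2 * ∑ k, ‖T (h k)‖ ^ 2 := by rw [Finset.mul_sum]
      _ ≤ κ ^ 2 * (2 * (|κ| * √s) ^ 2 * (‖∑ k, star (x k) * x k‖ + Fintype.card J * ε)) :=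
          mul_le_mul_of_nonneg_left
            (h1.trans (mul_le_mul_of_nonneg_left h5 (by positivity))) (by positivity)
      _ = _ := by rw [hK]; ring
  refine le_of_forall_pos_le_add fun δ hδ => ?_
  have hp : 0 < 2 * κ ^ 4 * s * Fintype.card J + 1 := by positivity
  refine (key (δ / (2 * κ ^ 4 * s * Fintype.card J + 1)) (by positivity)).trans ?_
  rw [mul_add]
  refine add_le_add le_rfl ?_
  rw [← mul_assoc, ← mul_div_assoc, div_le_iff₀ hp]
  nlinarith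

theorem fam (hGT : GTStmt.{u, v}) {A : Type u} [CStarAlgebra A] [PartialOrder A]
    [StarOrderedRing A] {H : Type v} [NormedAddCommGroup H] [InnerProductSpace ℂ H]
    [CompleteSpace H] (π : A →ₐ[ℂ] (H →L[ℂ] H)) (κ : ℝ) (J₀ : ℕ) (hκ : MBd π J₀ κ)
    {J : Type} [Fintype J] (ξ : J → H) :
    ∃ G : H →L[ℂ] H, ‖G‖ ≤ 1 ∧ (∀ a, π a * G = G * star (π (star a))) ∧
      ∑ j, ‖ξ j‖ ^ 2 ≤ max 1 (2 * κ ^ 4) * ∑ j, (⟪G (ξ j), ξ j⟫_ℂ).re := by
  classical
  let N := Fintype.card (J ⊕ Fin (J₀ + 1))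
  have hN : J₀ + 1 ≤ N := by simp [N]
  let σ : Fin N ≃ J ⊕ Fin (J₀ + 1) := (Fintype.equivFin _).symm
  let η : Fin N → H := fun i => Sum.elim ξ 0 (σ i)
  have hsum : ∀ φ : H → ℝ, φ 0 = 0 → ∑ i, φ (η i) = ∑ j, φ (ξ j) := fun φ h0 => by
    rw [σ.sum_comp fun z => φ (Sum.elim ξ 0 z)]
    simp [Fintype.sum_sum_type, h0]
  let o : Fin N := ⟨0, by omega⟩
  let R : CStarMatrix (Fin N) (Fin N) A →ₗ[ℂ] H :=
    { toFun := fun y => ∑ j, π (y o j) (η j)
      map_add' := fun y z => by simp [Finset.sum_add_distrib]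
      map_smul' := fun c y => by simp [Finset.smul_sum] }
  let e : Fin N → CStarMatrix (Fin N) (Fin N) A := fun j =>
    CStarMatrix.ofMatrix (Matrix.single o j 1)
  have hRe : ∀ j, R (e j) = η j := fun j => by
    change ∑ l, π (Matrix.single o j (1 : A) o l) (η l) = η j
    rw [Finset.sum_eq_single j]
    · simp
    · intro l _ hl; simp [hl.symm]
    · simp
  obtain ⟨G, h1, h2, h3, h4⟩ := one π R (2 * κ ^ 4 * ∑ j, ‖η j‖ ^ 2) (by positivity)
    (fun x => le_trans (Finset.sum_le_sum fun k _ =>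
      Finset.single_le_sum (f := fun i => ‖∑ j, π (x k i j) (η j)‖ ^ 2)
        (fun _ _ => by positivity) (Finset.mem_univ o)) (col hGT π κ (hκ N (by omega)) η x))
    (fun a => CStarMatrix.ofMatrix (Matrix.diagonal fun _ => a))
    (fun a => by
      ext i j
      rw [CStarMatrix.star_apply]
      simp only [CStarMatrix.ofMatrix_apply, Matrix.diagonal_apply]
      by_cases h : i = j
      · simp [h]
      · simp [h, Ne.symm h])
    (fun a x => by
      change ∑ j, π ((Matrix.diagonal (fun _ => a) * CStarMatrix.ofMatrix.symm x :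
        Matrix (Fin N) (Fin N) A) o j) (η j) = π a (∑ j, π (x o j) (η j))
      simp [Matrix.diagonal_mul])
    e (by
      change ∑ j, (Matrix.single o j (1 : A)).conjTranspose * Matrix.single o j (1 : A) =
        (1 : Matrix (Fin N) (Fin N) A)
      simp [Matrix.conjTranspose_single, Matrix.sum_single_one])
  refine ⟨G, h1, h2, ?_⟩
  simp only [hRe] at h4
  rw [hsum (fun z => ‖z‖ ^ 2) (by simp), hsum (fun z => (⟪G z, z⟫_ℂ).re) (by simp)] at h4
  have h5 : 0 ≤ ∑ j, (⟪G (ξ j), ξ j⟫_ℂ).re := Finset.sum_nonneg fun j _ => h3 _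
  rcases (show 0 ≤ ∑ j, ‖ξ j‖ ^ 2 by positivity).eq_or_lt with h0 | h0
  · rw [← h0]; positivity
  · refine le_trans ?_ (mul_le_mul_of_nonneg_right (le_max_right _ _) h5)
    refine le_of_mul_le_mul_right ?_ h0
    nlinarith

end Sim

open Sim in
theorem sim (hGT : GTStmt.{u, v}) : SimStmt.{u, v} := by
  intro κ
  refine ⟨max 1 (2 * κ ^ 4), le_max_left _ _, ?_⟩
  intro A _ _ _ H _ _ _ π J₀ hκ
  set m := max 1 (2 * κ ^ 4) with hm
  have hm1 : 1 ≤ m := le_max_left _ _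
  let 𝒢 := {G : H →L[ℂ] H // ‖G‖ ≤ 1 ∧ ∀ a, π a * G = G * star (π (star a))}
  have hb : ∀ (ξ η : H) (G : 𝒢), ‖⟪G.1 ξ, η⟫_ℂ‖ ≤ ‖ξ‖ * ‖η‖ := fun ξ η G =>
    (norm_inner_le_norm _ _).trans (mul_le_mul_of_nonneg_right
      ((G.1.le_opNorm _).trans (mul_le_of_le_one_left (norm_nonneg _) G.2.1)) (norm_nonneg _))
  let Φ : H → H → BoundedContinuousFunction 𝒢 ℂ := fun ξ η =>
    BoundedContinuousFunction.ofNormedAddCommGroup (fun G => ⟪G.1 ξ, η⟫_ℂ)
      ((continuous_subtype_val.clm_apply continuous_const).inner continuous_const) _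
      (hb ξ η)
  have hΦ : ∀ ξ η G, Φ ξ η G = ⟪G.1 ξ, η⟫_ℂ := fun _ _ _ => rfl
  have hΦn : ∀ ξ η, ‖Φ ξ η‖ ≤ ‖ξ‖ * ‖η‖ := fun ξ η =>
    (BoundedContinuousFunction.norm_le (by positivity)).mpr (hb ξ η)
  obtain ⟨L, hL, hLS⟩ := mo {p : BoundedContinuousFunction 𝒢 ℂ × ℝ |
      ∃ (J : Type) (_ : Fintype J) (ξ : J → H), p = (∑ j, Φ (ξ j) (ξ j), ∑ j, ‖ξ j‖ ^ 2)} m
    (by linarith) ⟨Empty, inferInstance, Empty.elim, by simp⟩
    (by
      rintro _ ⟨J, _, x, rfl⟩ _ ⟨J', _, x', rfl⟩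
      exact ⟨J ⊕ J', inferInstance, Sum.elim x x', by simp [Fintype.sum_sum_type]⟩)
    (by
      rintro t ht _ ⟨J, _, x, rfl⟩
      refine ⟨J, inferInstance, fun j => ((√t : ℝ) : ℂ) • x j, ?_⟩
      have e1 : ((√t : ℝ) : ℂ) * ((√t : ℝ) : ℂ) = t := by
        rw [← Complex.ofReal_mul, Real.mul_self_sqrt ht.le]
      have e2 : ∀ z, Φ (((√t : ℝ) : ℂ) • z) (((√t : ℝ) : ℂ) • z) = (t : ℂ) • Φ z z := fun z => by
        ext G
        simp only [hΦ, map_smul, inner_smul_left, inner_smul_right, Complex.conj_ofReal,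
          BoundedContinuousFunction.coe_smul, smul_eq_mul, ← mul_assoc, e1]
      simp only [e2, Finset.smul_sum, Finset.mul_sum, norm_smul, mul_pow, Complex.norm_real,
        Real.norm_eq_abs, sq_abs, Real.sq_sqrt ht.le])
    (by
      rintro _ ⟨J, _, ξ, rfl⟩
      obtain ⟨G, h1, h2, h3⟩ := fam hGT π κ J₀ hκ ξ
      refine h3.trans (mul_le_mul_of_nonneg_left ?_ (by linarith))
      refine le_trans (le_of_eq ?_) ((Complex.re_le_norm _).trans
        ((∑ j, Φ (ξ j) (ξ j)).norm_coe_le_norm ⟨G, h1, h2⟩))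
      simp [hΦ])
  have hLξ : ∀ ξ, ‖ξ‖ ^ 2 ≤ (L (Φ ξ ξ)).re := fun ξ => by
    simpa using hLS _ ⟨Unit, inferInstance, fun _ => ξ, rfl⟩
  have hLb : ∀ ξ η, ‖L (Φ ξ η)‖ ≤ m * ‖ξ‖ * ‖η‖ := fun ξ η => by
    rw [mul_assoc]
    exact (L.le_opNorm _).trans (mul_le_mul hL (hΦn ξ η) (norm_nonneg _) (by linarith))
  let β : H →L⋆[ℂ] H →L[ℂ] ℂ := (LinearMap.mk₂'ₛₗ (starRingEnd ℂ) (RingHom.id ℂ)
    (fun ξ η => L (Φ ξ η))
    (fun a b c => by rw [← map_add]; congr 1; ext G; simp [hΦ])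
    (fun a b c => by rw [← map_smul]; congr 1; ext G; simp [hΦ, mul_comm])
    (fun a b c => by rw [← map_add]; congr 1; ext G; simp [hΦ])
    (fun a b c => by rw [← map_smul]; congr 1; ext G; simp [hΦ])).mkContinuous₂
      m hLb
  let G₀ := InnerProductSpace.continuousLinearMapOfBilin β
  have hG₀ : ∀ ξ η, ⟪G₀ ξ, η⟫_ℂ = L (Φ ξ η) := fun ξ η =>
    InnerProductSpace.continuousLinearMapOfBilin_apply β ξ η
  have hn : ‖G₀‖ ≤ m := G₀.opNorm_le_bound (by linarith) fun ξ => by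
    have h1 := hLb ξ (G₀ ξ)
    rw [← hG₀, inner_self_eq_norm_sq_to_K] at h1
    simp only [norm_pow, Complex.coe_algebraMap, Complex.norm_real, norm_norm] at h1
    rcases (norm_nonneg (G₀ ξ)).eq_or_lt with h0 | h0
    · rw [← h0]; positivity
    · exact le_of_mul_le_mul_right (by nlinarith) h0
  have hi : ∀ a, π a * G₀ = G₀ * star (π (star a)) := fun a => by
    ext ξ
    refine ext_inner_right ℂ fun η => ?_
    rw [ContinuousLinearMap.mul_apply, ContinuousLinearMap.mul_apply,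
      ← ContinuousLinearMap.adjoint_inner_right, hG₀, hG₀]
    congr 1
    ext G
    rw [hΦ, hΦ, ContinuousLinearMap.adjoint_inner_right, ← ContinuousLinearMap.mul_apply,
      G.2.2 a, ContinuousLinearMap.mul_apply]
  have hi' : ∀ a, π a * star G₀ = star G₀ * star (π (star a)) := fun a => by
    have := congrArg star (hi (star a))
    rw [star_mul, star_mul, star_star, star_star] at this
    exact this.symm
  have hre : ∀ ξ, ‖ξ‖ ^ 2 ≤ (⟪ξ, ((1 / 2 : ℂ) • (G₀ + star G₀)) ξ⟫_ℂ).re := fun ξ => by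
    have h1 := hLξ ξ
    rw [← hG₀] at h1
    have h2 : (⟪ξ, G₀ ξ⟫_ℂ).re = (⟪G₀ ξ, ξ⟫_ℂ).re := by
      rw [← inner_conj_symm, Complex.conj_re]
    have h3 : ⟪ξ, (star G₀) ξ⟫_ℂ = ⟪G₀ ξ, ξ⟫_ℂ := by
      rw [ContinuousLinearMap.star_eq_adjoint, ContinuousLinearMap.adjoint_inner_right]
    rw [ContinuousLinearMap.smul_apply, ContinuousLinearMap.add_apply, inner_smul_right,
      inner_add_right, h3]
    have : ((1 / 2 : ℂ) * (⟪ξ, G₀ ξ⟫_ℂ + ⟪G₀ ξ, ξ⟫_ℂ)).re =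
        (1 / 2) * ((⟪ξ, G₀ ξ⟫_ℂ).re + (⟪G₀ ξ, ξ⟫_ℂ).re) := by simp
    rw [this, h2]
    linarith
  refine ⟨(1 / 2 : ℂ) • (G₀ + star G₀), ?_, ?_, fun ξ => ?_, fun a => ?_⟩
  · simp [add_comm]
  · rw [norm_smul]
    have := norm_add_le_of_le hn ((norm_star G₀).le.trans hn)
    simp only [norm_div, norm_one, Complex.norm_ofNat]
    linarith
  · have := hre ξ
    nlinarith [sq_nonneg ‖ξ‖]
  · rw [mul_smul_comm, smul_mul_assoc, mul_add, add_mul, hi, hi']

end Crest.Agent.KS
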